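import Mathlib

/-!
# P207, N3, P12: algebra of the curvature at a fixed point

The curvature at a pair of points is a matrix indexed by pairs; a linear map `A` acts on it.
-/

open Matrix
open scoped Kronecker

noncomputable section

namespace Vale.Agent.P207.N3.H442

/-- `2 × 2` matrices -/
abbrev M2 : Type := Matrix (Fin 2) (Fin 2) ℝ

/-- curvature matrices -/
abbrev TM : Type := Matrix (Fin 2 × Fin 2) (Fin 2 × Fin 2) ℝ

/-- The action of a linear map. -/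
def act (A : M2) (C : TM) : TM := (A ⊗ₖ A)ᵀ * C * (A⁻¹ ⊗ₖ A⁻¹)ᵀ

theorem act_mul (A B : M2) (C : TM) : act (A * B) C = act B (act A C) := by
  unfold act
  rw [Matrix.mul_inv_rev, Matrix.mul_kronecker_mul, Matrix.mul_kronecker_mul,
    Matrix.transpose_mul, Matrix.transpose_mul]
  simp only [Matrix.mul_assoc]

theorem act_one (C : TM) : act 1 C = C := by
  unfold act
  rw [inv_one, Matrix.one_kronecker_one, Matrix.transpose_one, one_mul, mul_one]

theorem kron_inv {A : M2} (hA : IsUnit A.det) : (A⁻¹ ⊗ₖ A⁻¹)ᵀ * (A ⊗ₖ A)ᵀ = 1 := by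
  rw [← Matrix.transpose_mul, ← Matrix.mul_kronecker_mul, Matrix.mul_nonsing_inv A hA,
    Matrix.one_kronecker_one, Matrix.transpose_one]

theorem kron_inv' {A : M2} (hA : IsUnit A.det) : (A ⊗ₖ A)ᵀ * (A⁻¹ ⊗ₖ A⁻¹)ᵀ = 1 := by
  rw [← Matrix.transpose_mul, ← Matrix.mul_kronecker_mul, Matrix.nonsing_inv_mul A hA,
    Matrix.one_kronecker_one, Matrix.transpose_one]

theorem act_inv {A : M2} (hA : IsUnit A.det) (C : TM) : act A⁻¹ (act A C) = C := by
  rw [← act_mul, Matrix.mul_nonsing_inv A hA, act_one]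

/-- the quadratic invariant -/
def I2 (C : TM) : ℝ := (C * C).trace

theorem I2_act {A : M2} (hA : IsUnit A.det) (C : TM) : I2 (act A C) = I2 C := by
  unfold I2 act
  have h : (A ⊗ₖ A)ᵀ * C * (A⁻¹ ⊗ₖ A⁻¹)ᵀ * ((A ⊗ₖ A)ᵀ * C * (A⁻¹ ⊗ₖ A⁻¹)ᵀ) =
      (A ⊗ₖ A)ᵀ * (C * C * (A⁻¹ ⊗ₖ A⁻¹)ᵀ) := by
    calc (A ⊗ₖ A)ᵀ * C * (A⁻¹ ⊗ₖ A⁻¹)ᵀ * ((A ⊗ₖ A)ᵀ * C * (A⁻¹ ⊗ₖ A⁻¹)ᵀ)
        = (A ⊗ₖ A)ᵀ * C * ((A⁻¹ ⊗ₖ A⁻¹)ᵀ * (A ⊗ₖ A)ᵀ) * (C * (A⁻¹ ⊗ₖ A⁻¹)ᵀ) := by
          simp only [Matrix.mul_assoc]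
      _ = _ := by
          rw [kron_inv hA, mul_one]
          simp only [Matrix.mul_assoc]
  rw [h, Matrix.trace_mul_comm, Matrix.mul_assoc, kron_inv hA, mul_one]

/-- the exchange of the two indices -/
def swp : TM := fun p q => if p.1 = q.2 ∧ p.2 = q.1 then 1 else 0

theorem swp_comm (A : M2) : (A ⊗ₖ A)ᵀ * swp = swp * (A ⊗ₖ A)ᵀ := by
  ext p q
  obtain ⟨i, j⟩ := p
  obtain ⟨k, l⟩ := q
  simp only [Matrix.mul_apply, Fintype.sum_prod_type, Fin.sum_univ_two, swp,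
    Matrix.transpose_apply, Matrix.kroneckerMap_apply]
  fin_cases i <;> fin_cases j <;> fin_cases k <;> fin_cases l <;> simp <;> ring

/-- pure trace curvature -/
def Pu (lam : ℝ) : TM := (lam / 3) • (1 + swp)

theorem act_Pu {A : M2} (hA : IsUnit A.det) (lam : ℝ) : act A (Pu lam) = Pu lam := by
  unfold act Pu
  rw [Matrix.mul_smul, Matrix.smul_mul, Matrix.mul_add, mul_one, swp_comm, Matrix.add_mul,
    kron_inv' hA, Matrix.mul_assoc, kron_inv' hA, mul_one]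

/-- `z ⊗ z`, `z = (1, i)` -/
def zz (p : Fin 2 × Fin 2) : ℂ := (![1, Complex.I] p.1) * (![1, Complex.I] p.2)

/-- the value of the curvature on the isotropic vector -/
def Fz (C : TM) : ℂ := ∑ p, ∑ q, (C p q : ℂ) * zz p * zz q

/-- curvature matrices with the symmetries of a curvature -/
structure Sy (lam : ℝ) (C : TM) : Prop where
  s1 : ∀ i j k l, C (i, j) (k, l) = C (j, i) (k, l)
  s2 : ∀ i j k l, C (i, j) (k, l) = C (i, j) (l, k)
  tr : ∀ k l, C (0, k) (l, 0) + C (1, k) (l, 1) = lam * if l = k then 1 else 0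

/-- A `2 × 2` matrix with real eigenvalues of different modulus. -/
def Hyp (A : M2) : Prop := ∃ (S : M2) (μ : Fin 2 → ℝ), IsUnit S.det ∧ A * S = S * diagonal μ ∧
  |μ 0| ≠ |μ 1|

/-- swap as a matrix identity for the symmetries -/
theorem s1_iff (C : TM) : (∀ i j k l, C (i, j) (k, l) = C (j, i) (k, l)) ↔ swp * C = C := by
  constructor
  · intro h
    ext ⟨i, j⟩ ⟨k, l⟩
    simp only [Matrix.mul_apply, Fintype.sum_prod_type, Fin.sum_univ_two, swp]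
    fin_cases i <;> fin_cases j <;> simp
    · exact h 1 0 k l
    · exact h 0 1 k l
  · intro h i j k l
    conv_lhs => rw [← h]
    simp only [Matrix.mul_apply, Fintype.sum_prod_type, Fin.sum_univ_two, swp]
    fin_cases i <;> fin_cases j <;> simp

theorem s2_iff (C : TM) : (∀ i j k l, C (i, j) (k, l) = C (i, j) (l, k)) ↔ C * swp = C := by
  constructor
  · intro h
    ext ⟨i, j⟩ ⟨k, l⟩
    simp only [Matrix.mul_apply, Fintype.sum_prod_type, Fin.sum_univ_two, swp]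
    fin_cases k <;> fin_cases l <;> simp
    · exact h i j 1 0
    · exact h i j 0 1
  · intro h i j k l
    conv_lhs => rw [← h]
    simp only [Matrix.mul_apply, Fintype.sum_prod_type, Fin.sum_univ_two, swp]
    fin_cases k <;> fin_cases l <;> simp

theorem act_apply (A : M2) (C : TM) (i j k l : Fin 2) : act A C (i, j) (k, l) =
    ∑ a, ∑ b, ∑ c, ∑ d, A a i * A b j * C (a, b) (c, d) * (A⁻¹ k c * A⁻¹ l d) := by
  unfold act
  simp only [Matrix.mul_apply, Fintype.sum_prod_type, Fin.sum_univ_two,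
    Matrix.transpose_apply, Matrix.kroneckerMap_apply]
  ring

theorem Sy.act {A : M2} (hA : IsUnit A.det) {lam : ℝ} {C : TM} (h : Sy lam C) :
    Sy lam (act A C) := by
  refine ⟨?_, ?_, ?_⟩
  · rw [s1_iff]
    have h1 := (s1_iff C).1 h.s1
    unfold H442.act
    rw [← Matrix.mul_assoc, ← Matrix.mul_assoc, ← swp_comm, Matrix.mul_assoc (A ⊗ₖ A)ᵀ, h1]
  · rw [s2_iff]
    have h1 := (s2_iff C).1 h.s2
    unfold H442.act
    rw [Matrix.mul_assoc, swp_comm, ← Matrix.mul_assoc, Matrix.mul_assoc _ C, h1]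
  · intro k l
    have r : ∀ a d, A a 0 * A⁻¹ 0 d + A a 1 * A⁻¹ 1 d = if a = d then 1 else 0 := by
      intro a d
      have := congrFun (congrFun (Matrix.mul_nonsing_inv A hA) a) d
      rw [Matrix.mul_apply, Fin.sum_univ_two, Matrix.one_apply] at this
      exact this
    have r' : A⁻¹ l 0 * A 0 k + A⁻¹ l 1 * A 1 k = if l = k then 1 else 0 := by
      have := congrFun (congrFun (Matrix.nonsing_inv_mul A hA) l) k
      rw [Matrix.mul_apply, Fin.sum_univ_two, Matrix.one_apply] at this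
      exact this
    have t00 := h.tr 0 0
    have t01 := h.tr 0 1
    have t10 := h.tr 1 0
    have t11 := h.tr 1 1
    have r00 := r 0 0
    have r01 := r 0 1
    have r10 := r 1 0
    have r11 := r 1 1
    simp only [Fin.isValue, if_true, if_false, zero_ne_one, one_ne_zero] at t00 t01 t10 t11
    simp only [Fin.isValue, if_true, if_false, zero_ne_one, one_ne_zero] at r00 r01 r10 r11
    rw [act_apply, act_apply, ← r']
    simp only [Fin.sum_univ_two]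
    generalize A⁻¹ = B at *
    linear_combination
      (A 0 k * B l 0 * C (0, 0) (0, 0) + A 1 k * B l 0 * C (0, 1) (0, 0)
        + A 0 k * B l 1 * C (0, 0) (1, 0) + A 1 k * B l 1 * C (0, 1) (1, 0)) * r00
      + (A 0 k * B l 0 * C (0, 0) (0, 1) + A 1 k * B l 0 * C (0, 1) (0, 1)
        + A 0 k * B l 1 * C (0, 0) (1, 1) + A 1 k * B l 1 * C (0, 1) (1, 1)) * r01
      + (A 0 k * B l 0 * C (1, 0) (0, 0) + A 1 k * B l 0 * C (1, 1) (0, 0)
        + A 0 k * B l 1 * C (1, 0) (1, 0) + A 1 k * B l 1 * C (1, 1) (1, 0)) * r10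
      + (A 0 k * B l 0 * C (1, 0) (0, 1) + A 1 k * B l 0 * C (1, 1) (0, 1)
        + A 0 k * B l 1 * C (1, 0) (1, 1) + A 1 k * B l 1 * C (1, 1) (1, 1)) * r11
      + A 0 k * B l 0 * t00 + A 0 k * B l 1 * t01 + A 1 k * B l 0 * t10 + A 1 k * B l 1 * t11

/-- diagonal type -/
theorem diag_type {lam : ℝ} {C : TM} (h : Sy lam C) {μ : Fin 2 → ℝ} (h0 : ∀ i, μ i ≠ 0)
    (hne : |μ 0| ≠ |μ 1|)
    (hC : ∀ i j k l, μ i * μ j * C (i, j) (k, l) = C (i, j) (k, l) * (μ k * μ l)) :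
    ∃ y : ℝ, C (0, 0) (0, 0) = 2 * lam / 3 - y ∧ C (1, 1) (1, 1) = 2 * lam / 3 - y ∧
      C (0, 1) (0, 1) = lam / 3 + y ∧ C (0, 1) (1, 0) = lam / 3 + y ∧
      C (1, 0) (0, 1) = lam / 3 + y ∧ C (1, 0) (1, 0) = lam / 3 + y ∧
      C (0, 0) (0, 1) = 0 ∧ C (0, 0) (1, 0) = 0 ∧ C (0, 0) (1, 1) = 0 ∧
      C (0, 1) (0, 0) = 0 ∧ C (1, 0) (0, 0) = 0 ∧ C (1, 1) (0, 0) = 0 ∧
      C (0, 1) (1, 1) = 0 ∧ C (1, 0) (1, 1) = 0 ∧ C (1, 1) (0, 1) = 0 ∧ C (1, 1) (1, 0) = 0 := by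
  have hd : μ 0 - μ 1 ≠ 0 := fun e => hne (by rw [sub_eq_zero.1 e])
  have hs : μ 0 + μ 1 ≠ 0 := fun e => hne (by rw [eq_neg_of_add_eq_zero_left e, abs_neg])
  have h00 := h0 0
  have h01 := h0 1
  have z1 : ∀ c : ℝ, μ 0 * μ 0 * c = c * (μ 0 * μ 1) → c = 0 := by
    intro c hc
    have : c * (μ 0 * (μ 0 - μ 1)) = 0 := by linear_combination hc
    exact (mul_eq_zero.1 this).resolve_right (mul_ne_zero h00 hd)
  have z2 : ∀ c : ℝ, μ 0 * μ 0 * c = c * (μ 1 * μ 1) → c = 0 := by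
    intro c hc
    have : c * ((μ 0 + μ 1) * (μ 0 - μ 1)) = 0 := by linear_combination hc
    exact (mul_eq_zero.1 this).resolve_right (mul_ne_zero hs hd)
  have z3 : ∀ c : ℝ, μ 0 * μ 1 * c = c * (μ 0 * μ 0) → c = 0 := by
    intro c hc
    have : c * (μ 0 * (μ 0 - μ 1)) = 0 := by linear_combination -hc
    exact (mul_eq_zero.1 this).resolve_right (mul_ne_zero h00 hd)
  have z4 : ∀ c : ℝ, μ 1 * μ 1 * c = c * (μ 0 * μ 0) → c = 0 := by
    intro c hc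
    have : c * ((μ 0 + μ 1) * (μ 0 - μ 1)) = 0 := by linear_combination -hc
    exact (mul_eq_zero.1 this).resolve_right (mul_ne_zero hs hd)
  have z5 : ∀ c : ℝ, μ 0 * μ 1 * c = c * (μ 1 * μ 1) → c = 0 := by
    intro c hc
    have : c * (μ 1 * (μ 0 - μ 1)) = 0 := by linear_combination hc
    exact (mul_eq_zero.1 this).resolve_right (mul_ne_zero h01 hd)
  have z6 : ∀ c : ℝ, μ 1 * μ 1 * c = c * (μ 0 * μ 1) → c = 0 := by
    intro c hc
    have : c * (μ 1 * (μ 0 - μ 1)) = 0 := by linear_combination -hc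
    exact (mul_eq_zero.1 this).resolve_right (mul_ne_zero h01 hd)
  have a1 := z1 _ (hC 0 0 0 1)
  have a2 := z2 _ (hC 0 0 1 1)
  have a3 := z3 _ (hC 0 1 0 0)
  have a4 := z4 _ (hC 1 1 0 0)
  have a5 := z5 _ (hC 0 1 1 1)
  have a6 := z6 _ (hC 1 1 0 1)
  have t00 := h.tr 0 0
  have t11 := h.tr 1 1
  simp only [Fin.isValue, if_true] at t00 t11
  have b1 := h.s2 0 0 0 1
  have b2 := h.s1 0 1 0 0
  have b3 := h.s1 0 1 1 1
  have b4 := h.s2 1 1 0 1
  have b5 := h.s1 0 1 0 1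
  have b6 := h.s2 0 1 0 1
  have b7 := h.s1 0 1 1 0
  refine ⟨C (0, 1) (0, 1) - lam / 3, ?_, ?_, ?_, ?_, ?_, ?_, a1, ?_, a2, a3, ?_, a4, a5, ?_, a6, ?_⟩
    <;> linarith

end Vale.Agent.P207.N3.H442
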