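import Vale.Agent.P207.N3.H442.Alg

/-!
# P207, N3, P12: the curvature at a closed orbit with two different exponents
-/

open Matrix
open scoped Kronecker

noncomputable section

namespace Vale.Agent.P207.N3.H442

theorem comm_of_act {D : M2} (hD : IsUnit D.det) {C : TM} (h : act D C = C) :
    (D ⊗ₖ D)ᵀ * C = C * (D ⊗ₖ D)ᵀ := by
  conv_rhs => rw [← h]
  unfold act
  rw [Matrix.mul_assoc, kron_inv hD, mul_one]

theorem I2_diag {lam y : ℝ} {C : TM} (h1 : C (0, 0) (0, 0) = 2 * lam / 3 - y)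
    (h2 : C (1, 1) (1, 1) = 2 * lam / 3 - y) (h3 : C (0, 1) (0, 1) = lam / 3 + y)
    (h4 : C (0, 1) (1, 0) = lam / 3 + y) (h5 : C (1, 0) (0, 1) = lam / 3 + y)
    (h6 : C (1, 0) (1, 0) = lam / 3 + y) (k1 : C (0, 0) (0, 1) = 0) (k2 : C (0, 0) (1, 0) = 0)
    (k3 : C (0, 0) (1, 1) = 0) (k4 : C (0, 1) (0, 0) = 0) (k5 : C (1, 0) (0, 0) = 0)
    (k6 : C (1, 1) (0, 0) = 0) (k7 : C (0, 1) (1, 1) = 0) (k8 : C (1, 0) (1, 1) = 0)
    (k9 : C (1, 1) (0, 1) = 0) (k10 : C (1, 1) (1, 0) = 0) :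
    I2 C = 4 / 3 * lam ^ 2 + 6 * y ^ 2 := by
  unfold I2
  simp only [Matrix.trace, Matrix.diag_apply, Matrix.mul_apply, Fintype.sum_prod_type,
    Fin.sum_univ_two, h1, h2, h3, h4, h5, h6, k1, k2, k3, k4, k5, k6, k7, k8, k9, k10]
  ring

/-- the value of `Fz` on the image of a diagonal tensor -/
theorem Fz_act {lam y : ℝ} {B S : M2} (hBS : B⁻¹ = S) {C : TM}
    (h1 : C (0, 0) (0, 0) = 2 * lam / 3 - y)
    (h2 : C (1, 1) (1, 1) = 2 * lam / 3 - y) (h3 : C (0, 1) (0, 1) = lam / 3 + y)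
    (h4 : C (0, 1) (1, 0) = lam / 3 + y) (h5 : C (1, 0) (0, 1) = lam / 3 + y)
    (h6 : C (1, 0) (1, 0) = lam / 3 + y) (k1 : C (0, 0) (0, 1) = 0) (k2 : C (0, 0) (1, 0) = 0)
    (k3 : C (0, 0) (1, 1) = 0) (k4 : C (0, 1) (0, 0) = 0) (k5 : C (1, 0) (0, 0) = 0)
    (k6 : C (1, 1) (0, 0) = 0) (k7 : C (0, 1) (1, 1) = 0) (k8 : C (1, 0) (1, 1) = 0)
    (k9 : C (1, 1) (0, 1) = 0) (k10 : C (1, 1) (1, 0) = 0) :
    Fz (act B C) = (((B 0 0 + B 0 1 * Complex.I) ^ 2 * (S 0 0 + S 1 0 * Complex.I) ^ 2 +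
      (B 1 0 + B 1 1 * Complex.I) ^ 2 * (S 0 1 + S 1 1 * Complex.I) ^ 2) *
      (2 * lam / 3 - y) + 4 * (B 0 0 + B 0 1 * Complex.I) * (B 1 0 + B 1 1 * Complex.I) *
      (S 0 0 + S 1 0 * Complex.I) * (S 0 1 + S 1 1 * Complex.I) * (lam / 3 + y) : ℂ) := by
  have e : ∀ i j k l, act B C (i, j) (k, l) = (B 0 i * B 0 j * (S k 0 * S l 0) +
      B 1 i * B 1 j * (S k 1 * S l 1)) * (2 * lam / 3 - y) +
      (B 0 i * B 1 j + B 1 i * B 0 j) * (S k 0 * S l 1 + S k 1 * S l 0) * (lam / 3 + y) := by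
    intro i j k l
    rw [act_apply, hBS]
    simp only [Fin.sum_univ_two, h1, h2, h3, h4, h5, h6, k1, k2, k3, k4, k5, k6, k7, k8, k9, k10]
    ring
  unfold Fz zz
  simp only [Fintype.sum_prod_type, Fin.sum_univ_two, e, Matrix.cons_val_zero,
    Matrix.cons_val_one, one_mul, mul_one]
  push_cast
  ring

theorem norm_ineq (a b c d : ℝ) : |a * d - b * c| ≤
    ‖(a + c * Complex.I : ℂ)‖ * ‖(b + d * Complex.I : ℂ)‖ := by
  refine abs_le_of_sq_le_sq ?_ (by positivity)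
  rw [mul_pow, ← Complex.normSq_eq_norm_sq, ← Complex.normSq_eq_norm_sq,
    Complex.normSq_add_mul_I, Complex.normSq_add_mul_I]
  nlinarith [sq_nonneg (a * b + c * d)]

/-- **A fixed point with two different exponents.** -/
theorem hyp_cons {A : M2} (hA : IsUnit A.det) (hh : Hyp A) {lam : ℝ} {C : TM} (h : Sy lam C)
    (hC : act A C = C) : ∃ y : ℝ, I2 C = 4 / 3 * lam ^ 2 + 6 * y ^ 2 ∧ 6 * |y| ≤ ‖Fz C‖ ∧
      (y = 0 → C = Pu lam) := by
  obtain ⟨S, μ, hS, hAS, hne⟩ := hh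
  have hdet : A.det = μ 0 * μ 1 := by
    have h1 := congrArg Matrix.det hAS
    rw [Matrix.det_mul, Matrix.det_mul, Matrix.det_diagonal, Fin.prod_univ_two,
      mul_comm S.det] at h1
    exact mul_right_cancel₀ hS.ne_zero h1
  have hD : IsUnit (diagonal μ : M2).det := by
    rw [Matrix.det_diagonal, Fin.prod_univ_two, ← hdet]
    exact hA
  have hμ : μ 0 * μ 1 ≠ 0 := by rw [← hdet]; exact hA.ne_zero
  have h0 : ∀ i, μ i ≠ 0 := by
    intro i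
    fin_cases i
    · exact left_ne_zero_of_mul hμ
    · exact right_ne_zero_of_mul hμ
  have hC' : act (diagonal μ) (act S C) = act S C := by
    rw [← act_mul, ← hAS, act_mul, hC]
  have hSy := h.act hS
  have hcomm := comm_of_act hD hC'
  have hent : ∀ i j k l, μ i * μ j * act S C (i, j) (k, l) =
      act S C (i, j) (k, l) * (μ k * μ l) := by
    intro i j k l
    have h1 := congrFun (congrFun hcomm (i, j)) (k, l)
    have e1 : ((diagonal μ : M2) ⊗ₖ (diagonal μ : M2))ᵀ =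
        diagonal fun p : Fin 2 × Fin 2 => μ p.1 * μ p.2 := by
      rw [Matrix.diagonal_kronecker_diagonal, Matrix.diagonal_transpose]
    rw [e1, Matrix.diagonal_mul, Matrix.mul_diagonal] at h1
    exact h1
  obtain ⟨y, c1, c2, c3, c4, c5, c6, k1, k2, k3, k4, k5, k6, k7, k8, k9, k10⟩ :=
    diag_type hSy h0 hne hent
  have hback : act S⁻¹ (act S C) = C := act_inv hS C
  refine ⟨y, ?_, ?_, ?_⟩
  · rw [← I2_act hS C]
    exact I2_diag c1 c2 c3 c4 c5 c6 k1 k2 k3 k4 k5 k6 k7 k8 k9 k10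
  · have hSS : (S⁻¹)⁻¹ = S := Matrix.nonsing_inv_nonsing_inv S hS
    have hF := Fz_act hSS c1 c2 c3 c4 c5 c6 k1 k2 k3 k4 k5 k6 k7 k8 k9 k10
    rw [hback] at hF
    have hΔ : S.det ≠ 0 := hS.ne_zero
    have hinv : S⁻¹ = (S.det)⁻¹ • S.adjugate := by
      rw [Matrix.inv_def, Ring.inverse_eq_inv']
    have b00 : S⁻¹ 0 0 = (S.det)⁻¹ * S 1 1 := by rw [hinv, Matrix.adjugate_fin_two]; simp
    have b01 : S⁻¹ 0 1 = -((S.det)⁻¹ * S 0 1) := by rw [hinv, Matrix.adjugate_fin_two]; simp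
    have b10 : S⁻¹ 1 0 = -((S.det)⁻¹ * S 1 0) := by rw [hinv, Matrix.adjugate_fin_two]; simp
    have b11 : S⁻¹ 1 1 = (S.det)⁻¹ * S 0 0 := by rw [hinv, Matrix.adjugate_fin_two]; simp
    set w0 : ℂ := S 0 0 + S 1 0 * Complex.I with hw0
    set w1 : ℂ := S 0 1 + S 1 1 * Complex.I with hw1
    have v0 : (S⁻¹ 0 0 + S⁻¹ 0 1 * Complex.I : ℂ) = -(S.det : ℂ)⁻¹ * (Complex.I * w1) := by
      rw [b00, b01, hw1]
      push_cast
      linear_combination ((S.det : ℂ)⁻¹ * (S 1 1 : ℂ)) * Complex.I_mul_I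
    have v1 : (S⁻¹ 1 0 + S⁻¹ 1 1 * Complex.I : ℂ) = (S.det : ℂ)⁻¹ * (Complex.I * w0) := by
      rw [b10, b11, hw0]
      push_cast
      linear_combination (-(S.det : ℂ)⁻¹ * (S 1 0 : ℂ)) * Complex.I_mul_I
    have hF2 : Fz C = 6 * y * (w0 * w1) ^ 2 * ((S.det : ℂ)⁻¹) ^ 2 := by
      rw [hF, v0, v1]
      linear_combination ((S.det : ℂ)⁻¹) ^ 2 * (w0 * w1) ^ 2 * (2 * (2 * lam / 3 - y) -
        4 * (lam / 3 + y)) * Complex.I_mul_I
    have hn : |S.det| ≤ ‖w0‖ * ‖w1‖ := by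
      rw [Matrix.det_fin_two]
      exact norm_ineq _ _ _ _
    rw [hF2]
    simp only [norm_mul, norm_pow, norm_inv, Complex.norm_real, Complex.norm_ofNat,
      Real.norm_eq_abs]
    have h3 : 1 ≤ (‖w0‖ * ‖w1‖) ^ 2 * (|S.det|⁻¹) ^ 2 := by
      rw [← mul_pow]
      refine one_le_pow₀ ?_
      rw [← div_eq_mul_inv, one_le_div (abs_pos.2 hΔ)]
      exact hn
    calc 6 * |y| = 6 * |y| * 1 := by ring
      _ ≤ 6 * |y| * ((‖w0‖ * ‖w1‖) ^ 2 * (|S.det|⁻¹) ^ 2) := by gcongr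
      _ = 6 * |y| * (‖w0‖ * ‖w1‖) ^ 2 * (|S.det|⁻¹) ^ 2 := by ring
  · intro hy
    have hP : act S C = Pu lam := by
      ext ⟨i, j⟩ ⟨k, l⟩
      simp only [Pu, Matrix.smul_apply, Matrix.add_apply, Matrix.one_apply, swp, smul_eq_mul,
        Prod.mk.injEq]
      fin_cases i <;> fin_cases j <;> fin_cases k <;> fin_cases l <;>
        simp [c1, c2, c3, c4, c5, c6, k1, k2, k3, k4, k5, k6, k7, k8, k9, k10, hy] <;> ring
    rw [← hback, hP]
    exact act_Pu (by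
      rw [Matrix.det_nonsing_inv]
      exact hS.ringInverse) lam

end Vale.Agent.P207.N3.H442
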