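import Vale.Agent.P207.N3.H442.Alg2

/-!
# P207, N3, P12: powers of a `2 × 2` matrix whose eigenvalues have the same modulus
-/

open Matrix
open scoped Kronecker

noncomputable section

namespace Vale.Agent.P207.N3.H442

/-- the sequence `b (n+2) = t b (n+1) - d b n`, `b 0 = 1`, `b 1 = t` -/
def chb (t d : ℝ) : ℕ → ℝ
  | 0 => 1
  | 1 => t
  | n + 2 => t * chb t d (n + 1) - d * chb t d n

theorem cayley (A : M2) : A * A = A.trace • A - A.det • (1 : M2) := by
  ext i j
  simp only [Matrix.mul_apply, Fin.sum_univ_two, Matrix.sub_apply, Matrix.smul_apply,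
    Matrix.one_apply, smul_eq_mul, Matrix.trace_fin_two, Matrix.det_fin_two]
  fin_cases i <;> fin_cases j <;> simp <;> ring

theorem pow_chb (A : M2) (n : ℕ) :
    A ^ (n + 2) = chb A.trace A.det (n + 1) • A - (A.det * chb A.trace A.det n) • (1 : M2) := by
  induction n with
  | zero =>
    simp only [zero_add, chb, mul_one]
    rw [pow_two, cayley]
  | succ n ih =>
    rw [pow_succ, ih, Matrix.sub_mul, Matrix.smul_mul, cayley]
    simp only [Matrix.smul_mul, one_mul, chb, smul_sub, smul_smul, sub_smul]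
    ext i j
    simp only [Matrix.sub_apply, Matrix.smul_apply, smul_eq_mul, Matrix.one_apply]
    ring

theorem chb_inv (t d : ℝ) (n : ℕ) :
    chb t d (n + 1) ^ 2 - t * chb t d (n + 1) * chb t d n + d * chb t d n ^ 2 = d ^ (n + 1) := by
  induction n with
  | zero => simp [chb]; ring
  | succ n ih =>
    have e : chb t d (n + 1 + 1) = t * chb t d (n + 1) - d * chb t d n := rfl
    rw [e, pow_succ d (n + 1), ← ih]
    ring

theorem chb_bound {t d s : ℝ} (hs : 0 ≤ s) (hsd : s ^ 2 = |d|) (h : t = 0 ∨ t ^ 2 ≤ 4 * d) (n : ℕ) :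
    |chb t d n| ≤ (n + 1) * s ^ n := by
  rcases h with h | h
  · subst h
    induction n using Nat.twoStepInduction with
    | zero => simp [chb]
    | one => simp [chb]; positivity
    | more n ih _ =>
      have e : chb 0 d (n + 2) = 0 * chb 0 d (n + 1) - d * chb 0 d n := rfl
      rw [e, zero_mul, zero_sub, abs_neg, abs_mul, ← hsd]
      calc s ^ 2 * |chb 0 d n| ≤ s ^ 2 * ((n + 1) * s ^ n) := by gcongr
        _ = (n + 1) * s ^ (n + 2) := by ring
        _ ≤ _ := by
          push_cast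
          gcongr
          linarith
  · have hd : 0 ≤ d := by nlinarith [sq_nonneg t]
    have hsd' : s ^ 2 = d := by rw [hsd, abs_of_nonneg hd]
    have ht : |t| ≤ 2 * s := by
      refine abs_le_of_sq_le_sq ?_ (by positivity)
      rw [mul_pow, hsd']
      linarith
    induction n with
    | zero => simp [chb]
    | succ n ih =>
      have h1 := chb_inv t d n
      have h2 : (chb t d (n + 1) - t / 2 * chb t d n) ^ 2 ≤ (s ^ (n + 1)) ^ 2 := by
        rw [← pow_mul, mul_comm (n + 1) 2, pow_mul, hsd', ← h1]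
        nlinarith [sq_nonneg (chb t d n)]
      have h3 : |chb t d (n + 1) - t / 2 * chb t d n| ≤ s ^ (n + 1) :=
        abs_le_of_sq_le_sq h2 (by positivity)
      have h4 : |chb t d (n + 1)| ≤ s ^ (n + 1) + |t / 2 * chb t d n| := by
        have := abs_sub_abs_le_abs_sub (chb t d (n + 1)) (t / 2 * chb t d n)
        linarith
      have h5 : |t / 2 * chb t d n| ≤ s * ((n + 1) * s ^ n) := by
        rw [abs_mul]
        refine mul_le_mul ?_ ih (abs_nonneg _) hs
        rw [abs_div, abs_two]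
        linarith
      calc |chb t d (n + 1)| ≤ s ^ (n + 1) + s * ((n + 1) * s ^ n) := h4.trans (by gcongr)
        _ = _ := by push_cast; ring

/-- powers of a matrix whose eigenvalues have the same modulus `s` -/
theorem pow_entry {A : M2} {s : ℝ} (hs : 0 < s) (hsd : s ^ 2 = |A.det|)
    (h : A.trace = 0 ∨ A.trace ^ 2 ≤ 4 * A.det) :
    ∃ K, 0 ≤ K ∧ ∀ (n : ℕ) (i j : Fin 2), |(A ^ n) i j| ≤ K * (n + 1) * s ^ n := by
  have hA : ∃ a, 0 ≤ a ∧ ∀ i j, |A i j| ≤ a := by
    refine ⟨∑ i, ∑ j, |A i j|, by positivity, fun i j => ?_⟩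
    calc |A i j| ≤ ∑ j, |A i j| := Finset.single_le_sum (f := fun j => |A i j|)
          (fun j _ => abs_nonneg _) (Finset.mem_univ j)
      _ ≤ _ := Finset.single_le_sum (f := fun i => ∑ j, |A i j|)
          (fun i _ => Finset.sum_nonneg fun j _ => abs_nonneg _) (Finset.mem_univ i)
  obtain ⟨a, ha, hA⟩ := hA
  refine ⟨1 + a / s, by positivity, fun n i j => ?_⟩
  have h1 : ∀ i j : Fin 2, |(1 : M2) i j| ≤ 1 := by
    intro i j
    rw [Matrix.one_apply]
    split_ifs <;> simp
  match n with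
  | 0 =>
    have := h1 i j
    simp only [pow_zero, Nat.cast_zero, zero_add, mul_one]
    have h2 : 0 ≤ a / s := by positivity
    linarith
  | 1 =>
    simp only [pow_one, Nat.cast_one]
    have := hA i j
    have e : (1 + a / s) * (1 + 1) * s = 2 * s + 2 * a := by field_simp; ring
    rw [e]
    linarith
  | n + 2 =>
    rw [pow_chb, Matrix.sub_apply, Matrix.smul_apply, Matrix.smul_apply, smul_eq_mul, smul_eq_mul]
    have b1 := chb_bound hs.le hsd h (n + 1)
    have b0 := chb_bound hs.le hsd h n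
    have b2 : |chb A.trace A.det (n + 1) * A i j| ≤ ((n + 1 : ℕ) + 1) * s ^ (n + 1) * a := by
      rw [abs_mul]
      exact mul_le_mul b1 (hA i j) (abs_nonneg _) (by positivity)
    have b3 : |A.det * chb A.trace A.det n * (1 : M2) i j| ≤ s ^ 2 * ((n + 1) * s ^ n) * 1 := by
      rw [abs_mul, abs_mul, ← hsd]
      exact mul_le_mul (mul_le_mul le_rfl b0 (abs_nonneg _) (by positivity)) (h1 i j)
        (abs_nonneg _) (by positivity)
    have b4 := abs_sub (chb A.trace A.det (n + 1) * A i j)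
      (A.det * chb A.trace A.det n * (1 : M2) i j)
    refine (b4.trans (add_le_add b2 b3)).trans ?_
    have e : (1 + a / s) * ((n + 2 : ℕ) + 1) * s ^ (n + 2) =
        (n + 3) * s ^ (n + 2) + (n + 3) * s ^ (n + 1) * a := by
      push_cast
      field_simp
      ring
    rw [e]
    have e1 : ((n + 1 : ℕ) + 1 : ℝ) * s ^ (n + 1) * a ≤ (n + 3) * s ^ (n + 1) * a := by
      have h3 : ((n + 1 : ℕ) : ℝ) + 1 ≤ n + 3 := by push_cast; linarith
      exact mul_le_mul_of_nonneg_right (mul_le_mul_of_nonneg_right h3 (by positivity)) ha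
    have e2 : s ^ 2 * ((n + 1) * s ^ n) * 1 ≤ (n + 3) * s ^ (n + 2) := by
      calc s ^ 2 * ((n + 1) * s ^ n) * 1 = (n + 1) * s ^ (n + 2) := by ring
        _ ≤ _ := by gcongr; linarith
    linarith

/-- **Dichotomy.** Either two real eigenvalues of different modulus, or the conjugation by the
powers grows polynomially. -/
theorem dich {A : M2} (hA : IsUnit A.det) : Hyp A ∨ ∃ K, 0 ≤ K ∧ ∀ (n : ℕ) (i j k l : Fin 2),
    |(A ^ n) i j| * |(A⁻¹ ^ n) k l| ≤ K * (n + 1) ^ 2 := by
  have hd : A.det ≠ 0 := hA.ne_zero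
  by_cases h : A.trace = 0 ∨ A.trace ^ 2 ≤ 4 * A.det
  · right
    set s := Real.sqrt |A.det| with hs
    have hs0 : 0 < s := Real.sqrt_pos.2 (abs_pos.2 hd)
    have hsd : s ^ 2 = |A.det| := Real.sq_sqrt (abs_nonneg _)
    obtain ⟨K1, hK1, h1⟩ := pow_entry hs0 hsd h
    have hdi : A⁻¹.det = (A.det)⁻¹ := by rw [Matrix.det_nonsing_inv, Ring.inverse_eq_inv']
    have hti : A⁻¹.trace = (A.det)⁻¹ * A.trace := by
      rw [Matrix.inv_def, Ring.inverse_eq_inv', Matrix.adjugate_fin_two, Matrix.trace_fin_two,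
        Matrix.trace_fin_two]
      simp
      ring
    have h' : A⁻¹.trace = 0 ∨ A⁻¹.trace ^ 2 ≤ 4 * A⁻¹.det := by
      rcases h with h | h
      · left
        rw [hti, h, mul_zero]
      · right
        rw [hti, hdi, mul_pow]
        calc (A.det)⁻¹ ^ 2 * A.trace ^ 2 ≤ (A.det)⁻¹ ^ 2 * (4 * A.det) := by gcongr
          _ = 4 * (A.det)⁻¹ := by field_simp
    have hsd' : (s⁻¹) ^ 2 = |A⁻¹.det| := by rw [hdi, abs_inv, ← hsd, inv_pow]
    obtain ⟨K2, hK2, h2⟩ := pow_entry (inv_pos.2 hs0) hsd' h'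
    refine ⟨K1 * K2, by positivity, fun n i j k l => ?_⟩
    calc |(A ^ n) i j| * |(A⁻¹ ^ n) k l| ≤
        (K1 * (n + 1) * s ^ n) * (K2 * (n + 1) * s⁻¹ ^ n) :=
          mul_le_mul (h1 n i j) (h2 n k l) (abs_nonneg _) (by positivity)
      _ = K1 * K2 * (n + 1) ^ 2 * (s * s⁻¹) ^ n := by rw [mul_pow]; ring
      _ = _ := by rw [mul_inv_cancel₀ hs0.ne', one_pow, mul_one]
  · left
    push Not at h
    obtain ⟨ht, hq⟩ := h
    set t := A.trace with htd
    set d := A.det with hdd
    set r := Real.sqrt (t ^ 2 - 4 * d) with hr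
    have hr0 : 0 < r := Real.sqrt_pos.2 (by linarith)
    have hr2 : r ^ 2 = t ^ 2 - 4 * d := Real.sq_sqrt (by linarith)
    have e1 : t = A 0 0 + A 1 1 := Matrix.trace_fin_two A
    have e2 : d = A 0 0 * A 1 1 - A 0 1 * A 1 0 := Matrix.det_fin_two A
    have hmod : |(t + r) / 2| ≠ |(t - r) / 2| := by
      intro h
      rcases abs_eq_abs.1 h with h | h
      · linarith
      · exact ht (by linarith)
    have q1 : ((t + r) / 2) ^ 2 = t * ((t + r) / 2) - d := by nlinarith
    have q2 : ((t - r) / 2) ^ 2 = t * ((t - r) / 2) - d := by nlinarith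
    by_cases hb : A 0 1 = 0
    · by_cases hc : A 1 0 = 0
      · refine ⟨1, ![A 0 0, A 1 1], by simp, ?_, ?_⟩
        · ext i j
          fin_cases i <;> fin_cases j <;> simp [hb, hc]
        · simp only [Matrix.cons_val_zero, Matrix.cons_val_one]
          intro h
          rcases abs_eq_abs.1 h with h | h
          · rw [e1, e2, hb, h] at hq
            nlinarith
          · exact ht (by rw [e1, h]; ring)
      · refine ⟨!![(t + r) / 2 - A 1 1, (t - r) / 2 - A 1 1; A 1 0, A 1 0],
          ![(t + r) / 2, (t - r) / 2], ?_, ?_, hmod⟩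
        · rw [Matrix.det_fin_two_of, isUnit_iff_ne_zero]
          have : ((t + r) / 2 - A 1 1) * A 1 0 - ((t - r) / 2 - A 1 1) * A 1 0 = r * A 1 0 := by
            ring
          rw [this]
          exact mul_ne_zero hr0.ne' hc
        · ext i j
          fin_cases i <;> fin_cases j <;>
            simp [Matrix.mul_apply, Fin.sum_univ_two, Matrix.diagonal_apply]
          · linear_combination -q1 - (t + r) / 2 * e1 + e2
          · linear_combination -q2 - (t - r) / 2 * e1 + e2
          · ring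
          · ring
    · refine ⟨!![A 0 1, A 0 1; (t + r) / 2 - A 0 0, (t - r) / 2 - A 0 0],
          ![(t + r) / 2, (t - r) / 2], ?_, ?_, hmod⟩
      · rw [Matrix.det_fin_two_of, isUnit_iff_ne_zero]
        have : A 0 1 * ((t - r) / 2 - A 0 0) - A 0 1 * ((t + r) / 2 - A 0 0) = -(r * A 0 1) := by
          ring
        rw [this]
        exact neg_ne_zero.2 (mul_ne_zero hr0.ne' hb)
      · ext i j
        fin_cases i <;> fin_cases j <;>
          simp [Matrix.mul_apply, Fin.sum_univ_two, Matrix.diagonal_apply]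
        · ring
        · ring
        · linear_combination -q1 - (t + r) / 2 * e1 + e2
        · linear_combination -q2 - (t - r) / 2 * e1 + e2

theorem act_bound {A : M2} {K : ℝ} (hK : 0 ≤ K) {n : ℕ}
    (h : ∀ i j k l : Fin 2, |(A ^ n) i j| * |(A⁻¹ ^ n) k l| ≤ K * (n + 1) ^ 2) {C : TM} {c : ℝ}
    (hc : ∀ p q, |C p q| ≤ c) (p q : Fin 2 × Fin 2) :
    |act (A ^ n) C p q| ≤ 16 * K ^ 2 * (n + 1) ^ 4 * c := by
  obtain ⟨i, j⟩ := p
  obtain ⟨k, l⟩ := q
  have hc0 : 0 ≤ c := (abs_nonneg _).trans (hc (0, 0) (0, 0))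
  rw [act_apply, ← Matrix.inv_pow']
  have hterm : ∀ a b m e : Fin 2, |(A ^ n) a i * (A ^ n) b j * C (a, b) (m, e) *
      ((A⁻¹ ^ n) k m * (A⁻¹ ^ n) l e)| ≤ K ^ 2 * (n + 1) ^ 4 * c := by
    intro a b m e
    have e1 : |(A ^ n) a i * (A ^ n) b j * C (a, b) (m, e) * ((A⁻¹ ^ n) k m * (A⁻¹ ^ n) l e)| =
        (|(A ^ n) a i| * |(A⁻¹ ^ n) k m|) * (|(A ^ n) b j| * |(A⁻¹ ^ n) l e|) *
        |C (a, b) (m, e)| := by
      rw [abs_mul, abs_mul, abs_mul, abs_mul]
      ring
    rw [e1]
    calc _ ≤ (K * (n + 1) ^ 2) * (K * (n + 1) ^ 2) * c :=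
          mul_le_mul (mul_le_mul (h a i k m) (h b j l e) (by positivity) (by positivity))
            (hc _ _) (abs_nonneg _) (by positivity)
      _ = _ := by ring
  refine (Finset.abs_sum_le_sum_abs _ _).trans ?_
  refine (Finset.sum_le_sum fun a _ => (Finset.abs_sum_le_sum_abs _ _).trans
    (Finset.sum_le_sum fun b _ => (Finset.abs_sum_le_sum_abs _ _).trans
    (Finset.sum_le_sum fun m _ => (Finset.abs_sum_le_sum_abs _ _).trans
    (Finset.sum_le_sum fun e _ => hterm a b m e)))).trans ?_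
  simp only [Finset.sum_const, Finset.card_univ, Fintype.card_fin, nsmul_eq_mul]
  push_cast
  linarith

end Vale.Agent.P207.N3.H442
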