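import Mathlib.Analysis.Calculus.ContDiff.Basic
import Mathlib.Analysis.Calculus.ContDiff.Operations
import Mathlib.Analysis.Calculus.FDeriv.Symmetric
import Mathlib.Analysis.Calculus.FDeriv.CompCLM
import Mathlib.Analysis.Calculus.InverseFunctionTheorem.ContDiff

/-!
# P207, N3, P12: derivatives with respect to a local coordinate

`DQ q f` is the derivative of `f` with respect to the local coordinate `q`.
-/

open Set Filter Topology ContinuousLinearMap
open scoped ContDiff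

noncomputable section

namespace Vale.Agent.P207.N3.H442

section One

variable {W W' G G' F F' : Type*} [NormedAddCommGroup W] [NormedSpace ℝ W]
  [NormedAddCommGroup W'] [NormedSpace ℝ W'] [NormedAddCommGroup G] [NormedSpace ℝ G]
  [NormedAddCommGroup G'] [NormedSpace ℝ G'] [NormedAddCommGroup F] [NormedSpace ℝ F]
  [NormedAddCommGroup F'] [NormedSpace ℝ F']

/-- The derivative of `f` with respect to the local coordinate `q`. -/
def DQ (q : W → G) (f : W → F) (b : W) : G →L[ℝ] F := (fderiv ℝ f b).comp (fderiv ℝ q b).inverse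

theorem DQ_congr {q q' : W → G} {f f' : W → F} {b : W} (hq : q =ᶠ[𝓝 b] q') (hf : f =ᶠ[𝓝 b] f') :
    DQ q f b = DQ q' f' b := by
  unfold DQ
  rw [hq.fderiv_eq, hf.fderiv_eq]

theorem DQ_congr_ev {q q' : W → G} {f f' : W → F} {b : W} (hq : q =ᶠ[𝓝 b] q')
    (hf : f =ᶠ[𝓝 b] f') : DQ q f =ᶠ[𝓝 b] DQ q' f' := by
  filter_upwards [hq.eventuallyEq_nhds, hf.eventuallyEq_nhds] with c h1 h2 using DQ_congr h1 h2

theorem DQ_const (q : W → G) (c : F) : DQ q (fun _ => c) = 0 := by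
  funext b
  simp [DQ]

theorem DQ_add {q : W → G} {f f' : W → F} {b : W} (hf : DifferentiableAt ℝ f b)
    (hf' : DifferentiableAt ℝ f' b) : DQ q (fun b => f b + f' b) b = DQ q f b + DQ q f' b := by
  unfold DQ
  rw [show (fun b => f b + f' b) = f + f' from rfl, fderiv_add hf hf', add_comp]

theorem DQ_sub {q : W → G} {f f' : W → F} {b : W} (hf : DifferentiableAt ℝ f b)
    (hf' : DifferentiableAt ℝ f' b) : DQ q (fun b => f b - f' b) b = DQ q f b - DQ q f' b := by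
  unfold DQ
  rw [show (fun b => f b - f' b) = f - f' from rfl, fderiv_sub hf hf', sub_comp]

theorem DQ_clm {q : W → G} {f : W → F} {b : W} (L : F →L[ℝ] F') (hf : DifferentiableAt ℝ f b) :
    DQ q (fun b => L (f b)) b = L ∘L DQ q f b := by
  unfold DQ
  rw [show (fun b => L (f b)) = L ∘ f from rfl, fderiv_comp b L.differentiableAt hf,
    L.fderiv, comp_assoc]

theorem DQ_self {q : W → G} {b : W} (hi : (fderiv ℝ q b).IsInvertible) :
    DQ q q b = .id ℝ G := hi.self_comp_inverse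

theorem DQ_comp_fderiv {q : W → G} {f : W → F} {b : W} (hi : (fderiv ℝ q b).IsInvertible) :
    DQ q f b ∘L fderiv ℝ q b = fderiv ℝ f b := by
  unfold DQ
  rw [comp_assoc, hi.inverse_comp_self, comp_id]

/-- invertibility is an open condition -/
theorem invertible_ev [CompleteSpace W] {q : W → G} {b : W} (hq : ContDiffAt ℝ ∞ q b)
    (hi : (fderiv ℝ q b).IsInvertible) : ∀ᶠ c in 𝓝 b, (fderiv ℝ q c).IsInvertible := by
  have h1 : ContinuousAt (fderiv ℝ q) b :=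
    (hq.fderiv_right (m := ∞) le_rfl).continuousAt
  obtain ⟨e, he⟩ := hi
  have h2 : range ((↑) : (W ≃L[ℝ] G) → W →L[ℝ] G) ∈ 𝓝 (fderiv ℝ q b) := by
    rw [← he]
    exact ContinuousLinearEquiv.nhds e
  filter_upwards [h1 h2] with c hc
  exact hc

theorem contDiffAt_ev {f : W → F} {b : W} (hf : ContDiffAt ℝ ∞ f b) :
    ∀ᶠ c in 𝓝 b, DifferentiableAt ℝ f c := by
  have h1 : ContDiffAt ℝ 1 f b := hf.of_le (by exact_mod_cast le_top)
  filter_upwards [h1.eventually (by simp)] with c hc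
  exact hc.differentiableAt one_ne_zero

theorem DQ_contDiffAt [CompleteSpace W] {q : W → G} {f : W → F} {b : W}
    (hq : ContDiffAt ℝ ∞ q b) (hi : (fderiv ℝ q b).IsInvertible) (hf : ContDiffAt ℝ ∞ f b) :
    ContDiffAt ℝ ∞ (DQ q f) b := by
  have h1 : ContDiffAt ℝ ∞ (fderiv ℝ q) b := hq.fderiv_right (m := ∞) le_rfl
  have h2 : ContDiffAt ℝ ∞ (fderiv ℝ f) b := hf.fderiv_right (m := ∞) le_rfl
  have h3 : ContDiffAt ℝ ∞ (fun c => (fderiv ℝ q c).inverse) b :=
    ContDiffAt.comp (g := ContinuousLinearMap.inverse) b hi.contDiffAt_map_inverse h1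
  exact h2.clm_comp h3

/-- **Change of variables** for the derivative with respect to a local coordinate. -/
theorem DQ_change {q : W → G} {q' : W' → G'} {f : W → F} {f' : W' → F'} {β : W' → W} {b₀ : W'}
    (P : G ≃L[ℝ] G') (ρ : F →L[ℝ] F') (L : G →L[ℝ] F') (v : G') (w : F')
    (hβc : ContinuousAt β b₀)
    (hβ : ∀ᶠ b in 𝓝 b₀, DifferentiableAt ℝ β b ∧ (fderiv ℝ β b).IsInvertible)
    (hq : ∀ᶠ c in 𝓝 (β b₀), DifferentiableAt ℝ q c ∧ (fderiv ℝ q c).IsInvertible)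
    (hf : ∀ᶠ c in 𝓝 (β b₀), DifferentiableAt ℝ f c)
    (hq' : ∀ᶠ b in 𝓝 b₀, q' b = P (q (β b)) + v)
    (hf' : ∀ᶠ b in 𝓝 b₀, f' b = ρ (f (β b)) + L (q (β b)) + w) :
    ∀ᶠ b in 𝓝 b₀, DQ q' f' b = (ρ ∘L DQ q f (β b) + L) ∘L (P.symm : G' →L[ℝ] G) := by
  filter_upwards [hβ, hβc.eventually hq, hβc.eventually hf, hq'.eventually_nhds,
    hf'.eventually_nhds] with b h1 h2 h3 h4 h5
  have e1 : fderiv ℝ q' b = (P : G →L[ℝ] G') ∘L (fderiv ℝ q (β b) ∘L fderiv ℝ β b) := by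
    rw [Filter.EventuallyEq.fderiv_eq h4]
    have a1 : HasFDerivAt (fun b => q (β b)) (fderiv ℝ q (β b) ∘L fderiv ℝ β b) b :=
      h2.1.hasFDerivAt.comp b h1.1.hasFDerivAt
    have a2 : HasFDerivAt (fun b => P (q (β b))) ((P : G →L[ℝ] G') ∘L
      (fderiv ℝ q (β b) ∘L fderiv ℝ β b)) b :=
      (P : G →L[ℝ] G').hasFDerivAt.comp b a1
    exact (a2.add_const v).fderiv
  have e2 : fderiv ℝ f' b = (ρ ∘L fderiv ℝ f (β b) + L ∘L fderiv ℝ q (β b)) ∘L fderiv ℝ β b := by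
    rw [Filter.EventuallyEq.fderiv_eq h5]
    have a1 : HasFDerivAt (fun b => q (β b)) (fderiv ℝ q (β b) ∘L fderiv ℝ β b) b :=
      h2.1.hasFDerivAt.comp b h1.1.hasFDerivAt
    have a2 : HasFDerivAt (fun b => f (β b)) (fderiv ℝ f (β b) ∘L fderiv ℝ β b) b :=
      h3.hasFDerivAt.comp b h1.1.hasFDerivAt
    have a3 : HasFDerivAt (fun b => ρ (f (β b))) (ρ ∘L (fderiv ℝ f (β b) ∘L fderiv ℝ β b)) b :=
      ρ.hasFDerivAt.comp b a2
    have a4 : HasFDerivAt (fun b => L (q (β b))) (L ∘L (fderiv ℝ q (β b) ∘L fderiv ℝ β b)) b :=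
      L.hasFDerivAt.comp b a1
    have a5 := ((a3.add a4).add_const w).fderiv
    rw [show (fun b => ρ (f (β b)) + L (q (β b)) + w) = fun b =>
      ((fun b => ρ (f (β b))) + fun b => L (q (β b))) b + w from rfl, a5, add_comp, comp_assoc,
      comp_assoc]
  unfold DQ
  rw [e1, e2]
  have i1 : ((P : G →L[ℝ] G') ∘L (fderiv ℝ q (β b) ∘L fderiv ℝ β b)).inverse =
      (fderiv ℝ β b).inverse ∘L ((fderiv ℝ q (β b)).inverse ∘L (P.symm : G' →L[ℝ] G)) := by
    rw [IsInvertible.inverse_comp_of_left (isInvertible_equiv (f := P)), inverse_equiv,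
      h1.2.inverse_comp_of_right, comp_assoc]
  rw [i1]
  have i2 : fderiv ℝ β b ∘L ((fderiv ℝ β b).inverse ∘L
      ((fderiv ℝ q (β b)).inverse ∘L (P.symm : G' →L[ℝ] G))) =
      (fderiv ℝ q (β b)).inverse ∘L (P.symm : G' →L[ℝ] G) := by
    rw [← comp_assoc, h1.2.self_comp_inverse, id_comp]
  rw [comp_assoc, i2, ← comp_assoc, add_comp, comp_assoc, comp_assoc, h2.2.self_comp_inverse,
    comp_id]

theorem two_le_infty : (2 : WithTop ℕ∞) ≤ ∞ := by
  have : ((2 : ℕ∞) : WithTop ℕ∞) ≤ ((⊤ : ℕ∞) : WithTop ℕ∞) := WithTop.coe_le_coe.2 le_top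
  exact this

/-- the second derivative with respect to the coordinate is symmetric -/
theorem DQ_symm [CompleteSpace W] {q : W → G} {f : W → F} {b : W}
    (hq : ContDiffAt ℝ ∞ q b) (hi : (fderiv ℝ q b).IsInvertible) (hf : ContDiffAt ℝ ∞ f b)
    (ζ ζ' : G) : DQ q (DQ q f) b ζ ζ' = DQ q (DQ q f) b ζ' ζ := by
  have hD : DifferentiableAt ℝ (DQ q f) b := contDiffAt_ev (DQ_contDiffAt hq hi hf) |>.self_of_nhds
  have hq2 : DifferentiableAt ℝ (fderiv ℝ q) b :=
    contDiffAt_ev (hq.fderiv_right (m := ∞) le_rfl) |>.self_of_nhds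
  have key : ∀ w v : W, fderiv ℝ (DQ q f) b w (fderiv ℝ q b v) =
      fderiv ℝ (fderiv ℝ f) b w v - DQ q f b (fderiv ℝ (fderiv ℝ q) b w v) := by
    intro w v
    have h1 : (fun c => (DQ q f c).comp (fderiv ℝ q c)) =ᶠ[𝓝 b] fderiv ℝ f := by
      filter_upwards [invertible_ev hq hi] with c hc using DQ_comp_fderiv hc
    have h3 : HasFDerivAt (fun c => (DQ q f c).comp (fderiv ℝ q c))
        ((compL ℝ W G F (DQ q f b)).comp (fderiv ℝ (fderiv ℝ q) b) +
          ((compL ℝ W G F).flip (fderiv ℝ q b)).comp (fderiv ℝ (DQ q f) b)) b :=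
      hD.hasFDerivAt.clm_comp hq2.hasFDerivAt
    have h2 := h1.fderiv_eq (𝕜 := ℝ)
    rw [h3.fderiv] at h2
    have h4 := congrArg (fun A : W →L[ℝ] W →L[ℝ] F => A w v) h2
    have h5 : DQ q f b (fderiv ℝ (fderiv ℝ q) b w v) +
        fderiv ℝ (DQ q f) b w (fderiv ℝ q b v) = fderiv ℝ (fderiv ℝ f) b w v := h4
    rw [← h5]
    abel
  have s1 : IsSymmSndFDerivAt ℝ f b :=
    hf.isSymmSndFDerivAt (by simpa using two_le_infty)
  have s2 : IsSymmSndFDerivAt ℝ q b :=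
    hq.isSymmSndFDerivAt (by simpa using two_le_infty)
  have e1 : ∀ ζ ζ' : G, DQ q (DQ q f) b ζ ζ' =
      fderiv ℝ (DQ q f) b ((fderiv ℝ q b).inverse ζ) (fderiv ℝ q b ((fderiv ℝ q b).inverse ζ')) := by
    intro ζ ζ'
    rw [hi.self_apply_inverse]
    rfl
  rw [e1, e1, key, key, s1.eq, s2.eq]

end One

end Vale.Agent.P207.N3.H442
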