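import Vale.Agent.P207.N3.H442.Inv

/-!
# P207, N3, P12: the curvature along an axis
-/

open Set Filter Topology Metric MeasureTheory
open scoped ContDiff

set_option maxSynthPendingDepth 3
set_option linter.unusedSectionVars false

noncomputable section

namespace Vale.Agent.P207.N3.H442

open H662 (tau_mem e_tau dm_open)
open H147 (ep_cont ep_smul ep_φ ep_rot)

theorem act_sub (A : M2) (C C' : TM) : act A (C - C') = act A C - act A C' := by
  unfold act
  rw [Matrix.mul_sub, Matrix.sub_mul]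

variable {Γ X B : Type} [Group Γ] [MetricSpace X] [ProperSpace X] [MulAction Γ X]
  [IsIsometricSMul Γ X] [TopologicalSpace B] [CompactSpace B] [T2Space B] [MulAction Γ B]
  [ContinuousConstSMul Γ B] {L : Leaf Γ X B} {D : B → B → ℝ}

theorem ep_flip' (L : Leaf Γ X B) (x : X) : L.ep (L.flip x) = L.em x := by
  rw [L.ep_flip, L.flip_flip]

/-- the linear part at the attracting point -/
def LA (L : Leaf Γ X B) (β : Γ) (x : X) : M2 := mt (fderiv ℝ (L.τ (β • x) x) 0)

theorem frame_isUnit (S : Smooth L D) {x x' : X} (hx : L.ep x' = L.ep x) :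
    IsUnit (mt (fderiv ℝ (L.τ x' x) 0)).det := by
  have h1 : (0 : E2) ∈ L.dm x' x := mem_dm zero_mem zero_mem (by rw [L.e_zero, L.e_zero, hx])
  obtain ⟨P, hP, -⟩ := exists_equiv S h1
  rw [hP]
  exact mt_isUnit P

variable {β : Γ} {x : X} {l : ℝ} {a : O2}

theorem LA_isUnit (S : Smooth L D) (h : L.IsAxis β x l a) : IsUnit (LA L β x).det :=
  frame_isUnit S (by rw [ep_smul, H147.Ax.smul_ep h])

/-- the curvature under the element with the axis -/
theorem Rt_axis (S : Smooth L D) (hD : ∀ x, D (L.em x) (L.ep x) = L.lv x + L.lp x)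
    (h : L.IsAxis β x l a) {η : B} (hne : η ≠ L.ep x) :
    Rt L D x η = act (LA L β x) (Rt L D x (β • η)) := by
  have hne' : β • η ≠ L.ep x := by
    rw [← H147.Ax.smul_ep h]
    exact fun e => hne (smul_left_cancel β e)
  rw [← Rt_smul S hD β hne]
  exact Rt_frame S (by rw [ep_smul, H147.Ax.smul_ep h]) hne'

theorem Rt_axis_inv (S : Smooth L D) (hD : ∀ x, D (L.em x) (L.ep x) = L.lv x + L.lp x)
    (h : L.IsAxis β x l a) {η : B} (hne : η ≠ L.ep x) (n : ℕ) :
    Rt L D x η = act ((LA L β x)⁻¹ ^ n) (Rt L D x ((β⁻¹) ^ n • η)) := by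
  have hu := LA_isUnit S h
  have hne' : ∀ n : ℕ, (β⁻¹) ^ n • η ≠ L.ep x := by
    intro n e
    rw [inv_pow, inv_smul_eq_iff, H147.Ax.pow_smul_ep h] at e
    exact hne e
  have h1 : ∀ n : ℕ, Rt L D x ((β⁻¹) ^ n • η) = act ((LA L β x) ^ n) (Rt L D x η) := by
    intro n
    induction n with
    | zero => simp [act_one]
    | succ n ih =>
      have e1 : (β⁻¹) ^ (n + 1) • η = β⁻¹ • (β⁻¹) ^ n • η := by rw [smul_smul, ← pow_succ']
      have h2 := Rt_axis S hD h (hne' (n + 1))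
      rw [e1, smul_inv_smul, ih] at h2
      rw [e1, h2, pow_succ, act_mul]
  rw [h1 n, ← act_mul, Matrix.inv_pow',
    Matrix.mul_nonsing_inv _ (by rw [Matrix.det_pow]; exact hu.pow n), act_one]

/-- **south, with a rate** (`β⁻¹` contracts to `em x`, in the chart of `flip x`) -/
theorem rate (h : L.IsAxis β x l a) {η : B} (hne : η ≠ L.em x) :
    ∃ (N : ℕ) (C : ℝ), 0 ≤ C ∧ ∀ n ≥ N, ∃ w ∈ ball (0 : E2) 3, β ^ n • η = L.e x w ∧
      ‖w‖ ≤ C * Real.exp (-(L.χ * l) * n) := by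
  obtain ⟨c₀, hc₀⟩ := H662.exhaust L hne
  obtain ⟨m, hm⟩ : ∃ m : ℕ, c₀ ≤ m * l := by
    obtain ⟨m, hm⟩ := exists_nat_ge (c₀ / l)
    exact ⟨m, (div_le_iff₀ h.pos).1 hm⟩
  obtain ⟨u, hu, hue⟩ := hc₀ _ hm
  have hu3 : u ∈ ball (0 : E2) 3 := ball_subset_ball (by norm_num) hu
  have hiso : ∀ (b : O2) (v : E2) (r : ℝ), v ∈ ball (0 : E2) r → b v ∈ ball (0 : E2) r := by
    intro b v r hv
    rw [mem_ball_zero_iff] at hv ⊢
    rwa [b.norm_map]
  -- after `m` steps the point is in the disc of `x`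
  have e1 : β ^ m • L.φ (-(m * l)) x = L.rot (a ^ m) x := by
    rw [← L.φ_smul, H147.Ax.pow_smul h, ← L.φ_add, neg_add_cancel, L.φ_zero]
  have e2 : β ^ m • η = L.e x ((a ^ m) u) := by
    rw [← hue, ← L.e_smul _ _ u (ball_subset_closedBall hu3), e1,
      L.e_rot _ _ u (ball_subset_closedBall hu3)]
  set v := (a ^ m) u with hv
  have hv1 : v ∈ ball (0 : E2) 3 := hiso _ _ _ hu3
  have e3 : ∀ n : ℕ, β ^ (n + m) • η = L.e (L.φ (n * l) x) ((a ^ n) v) := by
    intro n
    rw [pow_add, mul_smul, e2, ← L.e_smul _ _ v (ball_subset_closedBall hv1), H147.Ax.pow_smul h,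
      ← L.rot_φ, L.e_rot _ _ v (ball_subset_closedBall hv1)]
  obtain ⟨C, hC⟩ := L.contract 1 le_rfl
  obtain ⟨k, hk⟩ : ∃ k : ℕ, L.t1 ≤ k * l := by
    obtain ⟨k, hk⟩ := exists_nat_ge (L.t1 / l)
    exact ⟨k, (div_le_iff₀ h.pos).1 hk⟩
  have hC0 : 0 ≤ C := by
    have h1 := (norm_nonneg _).trans (hC x L.t1 le_rfl 0 zero_mem)
    exact nonneg_of_mul_nonneg_left h1 (Real.exp_pos _)
  refine ⟨k + m, C * 3 * Real.exp (L.χ * l * m), by positivity, fun n hn => ?_⟩
  obtain ⟨j, rfl⟩ : ∃ j, n = j + m := ⟨n - m, by omega⟩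
  have hj : k ≤ j := by omega
  have ht : L.t1 ≤ j * l := hk.trans (by
    have : (k : ℝ) ≤ j := by exact_mod_cast hj
    exact mul_le_mul_of_nonneg_right this h.pos.le)
  have hw0 : (a ^ j) v ∈ ball (0 : E2) 3 := hiso _ _ _ hv1
  have hdm : L.dm (L.φ (j * l) x) x = ball 0 3 := by
    ext u
    exact ⟨fun h => h.1, fun h => ⟨h, image_mono (ball_subset_ball (by norm_num))
      (L.engulf x _ ht ⟨u, ball_subset_closedBall h, rfl⟩)⟩⟩
  have hwdm : (a ^ j) v ∈ L.dm (L.φ (j * l) x) x := by rw [hdm]; exact hw0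
  refine ⟨L.τ (L.φ (j * l) x) x ((a ^ j) v), tau_mem L hwdm, ?_, ?_⟩
  · rw [e_tau L hwdm, e3]
  · have hd : ∀ z ∈ ball (0 : E2) 3, DifferentiableAt ℝ (L.τ (L.φ (j * l) x) x) z := by
      intro z hz
      exact H662.tau_diff L (by rw [L.em_φ]) (by rw [hdm]; exact hz)
    have hb : ∀ z ∈ ball (0 : E2) 3, ‖fderiv ℝ (L.τ (L.φ (j * l) x) x) z‖ ≤
        C * Real.exp (-L.χ * (j * l)) := by
      intro z hz
      have h1 := hC x (j * l) ht z hz
      rwa [norm_iteratedFDeriv_one] at h1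
    have h1 := (convex_ball (0 : E2) 3).norm_image_sub_le_of_norm_fderiv_le hd hb zero_mem hw0
    have h0 : L.τ (L.φ (j * l) x) x 0 = 0 := by
      refine tau_of_eq zero_mem ?_
      rw [L.e_zero, L.e_zero, ep_φ]
    rw [h0, sub_zero, sub_zero] at h1
    refine h1.trans ?_
    have h2 : ‖(a ^ j) v‖ ≤ 3 := (mem_ball_zero_iff.1 hw0).le
    have e4 : Real.exp (-L.χ * (j * l)) =
        Real.exp (L.χ * l * m) * Real.exp (-(L.χ * l) * ((j + m : ℕ) : ℝ)) := by
      rw [← Real.exp_add]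
      congr 1
      push_cast
      ring
    calc C * Real.exp (-L.χ * (j * l)) * ‖(a ^ j) v‖ ≤ C * Real.exp (-L.χ * (j * l)) * 3 := by
          gcongr
      _ = _ := by rw [e4]; ring

theorem tendsto_pow_exp {c : ℝ} (hc : 0 < c) (K : ℝ) :
    Tendsto (fun n : ℕ => K * ((n : ℝ) + 1) ^ 4 * Real.exp (-c * n)) atTop (𝓝 0) := by
  have h1 := Real.tendsto_pow_mul_exp_neg_atTop_nhds_zero 4
  have h2 : Tendsto (fun n : ℕ => c * ((n : ℝ) + 1)) atTop atTop :=
    (tendsto_atTop_add_const_right _ _ tendsto_natCast_atTop_atTop).const_mul_atTop hc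
  have h3 := (h1.comp h2).const_mul (K * Real.exp c / c ^ 4)
  rw [mul_zero] at h3
  refine h3.congr fun n => ?_
  simp only [Function.comp]
  have : Real.exp (-c * n) = Real.exp c * Real.exp (-(c * (n + 1))) := by
    rw [← Real.exp_add]
    congr 1
    ring
  rw [this]
  field_simp

/-- **Case B**: without different exponents the curvature at `ep x` is constant. -/
theorem const_of_not_hyp (S : Smooth L D) (hD : ∀ x, D (L.em x) (L.ep x) = L.lv x + L.lp x)
    (h : L.IsAxis β x l a) (hh : ¬ Hyp (LA L β x)) {η η' : B} (hne : η ≠ L.ep x)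
    (hne' : η' ≠ L.ep x) : Rt L D x η = Rt L D x η' := by
  have hu := LA_isUnit S h
  obtain ⟨K, hK, hb⟩ := (dich hu).resolve_left hh
  have hflip := H147.Ax.flip h
  have e1 : L.em (L.flip x) = L.ep x := (L.ep_flip x).symm
  obtain ⟨N, C, hC, h1⟩ := rate hflip (η := η) (by rwa [e1])
  obtain ⟨N', C', hC', h1'⟩ := rate hflip (η := η') (by rwa [e1])
  obtain ⟨K₂, r, hK₂, hr, hr3, hlip⟩ := CM_lip S (x := x) (y := L.flip x) (by
    rw [ep_flip']; exact L.em_ne_ep x)
  have hcl : 0 < L.χ * l := mul_pos L.χ_pos h.pos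
  have hne0 : ∀ {η : B}, η ≠ L.ep x → ∀ n : ℕ, (β⁻¹) ^ n • η ≠ L.ep x := by
    intro η hne n e
    rw [inv_pow, inv_smul_eq_iff, H147.Ax.pow_smul_ep h] at e
    exact hne e
  have hsm : ∀ᶠ n : ℕ in atTop, ∀ c ∈ ({C, C'} : Set ℝ), c * Real.exp (-(L.χ * l) * n) < r := by
    have h2 : ∀ c : ℝ, Tendsto (fun n : ℕ => c * Real.exp (-(L.χ * l) * n)) atTop (𝓝 0) := by
      intro c
      have h3 : Tendsto (fun n : ℕ => (L.χ * l) * (n : ℝ)) atTop atTop :=
        tendsto_natCast_atTop_atTop.const_mul_atTop hcl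
      have h4 := (Real.tendsto_exp_neg_atTop_nhds_zero.comp h3).const_mul c
      rw [mul_zero] at h4
      refine h4.congr fun n => ?_
      simp only [Function.comp, neg_mul]
    filter_upwards [(h2 C).eventually (gt_mem_nhds hr), (h2 C').eventually (gt_mem_nhds hr)]
      with n hn hn' c hc
    rcases hc with rfl | rfl
    · exact hn
    · exact hn'
  have key : ∀ p q, Tendsto (fun _ : ℕ => |(Rt L D x η - Rt L D x η') p q|) atTop (𝓝 0) := by
    intro p q
    refine tendsto_of_tendsto_of_tendsto_of_le_of_le' tendsto_const_nhds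
      (tendsto_pow_exp hcl (16 * K ^ 2 * (K₂ * (C + C')))) (Eventually.of_forall fun _ =>
        abs_nonneg _) ?_
    filter_upwards [eventually_ge_atTop N, eventually_ge_atTop N', hsm] with n hn hn' hns
    obtain ⟨w, hw3, hwe, hwn⟩ := h1 n hn
    obtain ⟨w', hw3', hwe', hwn'⟩ := h1' n hn'
    have r1 := Rt_eq S hw3 hwe.symm (hne0 hne n)
    have r2 := Rt_eq S hw3' hwe'.symm (hne0 hne' n)
    have hwr : w ∈ ball (0 : E2) r :=
      mem_ball_zero_iff.2 (hwn.trans_lt (hns C (by simp)))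
    have hwr' : w' ∈ ball (0 : E2) r :=
      mem_ball_zero_iff.2 (hwn'.trans_lt (hns C' (by simp)))
    have e2 : Rt L D x η - Rt L D x η' = act ((LA L β x)⁻¹ ^ n)
        (Rt L D x ((β⁻¹) ^ n • η) - Rt L D x ((β⁻¹) ^ n • η')) := by
      rw [act_sub, ← Rt_axis_inv S hD h hne n, ← Rt_axis_inv S hD h hne' n]
    rw [e2]
    have hb' : ∀ i j k l : Fin 2, |((LA L β x)⁻¹ ^ n) i j| * |((LA L β x)⁻¹⁻¹ ^ n) k l| ≤
        K * (n + 1) ^ 2 := by
      intro i j k l
      rw [Matrix.nonsing_inv_nonsing_inv _ hu, mul_comm]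
      exact hb n k l i j
    refine (act_bound hK hb' (c := K₂ * ((C + C') * Real.exp (-(L.χ * l) * n))) ?_ p q).trans
      (le_of_eq (by ring))
    intro p q
    rw [Matrix.sub_apply, r1, r2]
    refine (hlip w hwr w' hwr' p q).trans (mul_le_mul_of_nonneg_left ?_ hK₂)
    refine (norm_sub_le _ _).trans ?_
    linarith
  ext p q
  have h3 := tendsto_nhds_unique (key p q) tendsto_const_nhds
  rw [Matrix.sub_apply] at h3
  have h4 := abs_eq_zero.1 h3.symm
  linarith

end Vale.Agent.P207.N3.H442
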