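import Vale.Agent.P207.N3.H442.Glob

/-!
# P207, N3, P12: the frames at one point
-/

open Set Filter Topology Metric MeasureTheory
open scoped ContDiff

set_option maxSynthPendingDepth 3
set_option linter.unusedSectionVars false

noncomputable section

namespace Vale.Agent.P207.N3.H442

open H662 (tau_mem e_tau dm_open)
open H147 (ep_cont ep_smul ep_φ ep_rot)

/-- the rotation matrix -/
def rm (θ : ℝ) : M2 := !![Real.cos θ, -Real.sin θ; Real.sin θ, Real.cos θ]

theorem rm_inv (θ : ℝ) : (rm θ)⁻¹ = !![Real.cos θ, Real.sin θ; -Real.sin θ, Real.cos θ] := by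
  refine Matrix.inv_eq_left_inv ?_
  have h := Real.sin_sq_add_cos_sq θ
  ext i j
  fin_cases i <;> fin_cases j <;>
    simp [rm, Matrix.mul_apply, Fin.sum_univ_two] <;> nlinarith

theorem Fz_act_gen (A : M2) (C : TM) (W V : Fin 2 → ℂ)
    (hW : ∀ a, W a = (A a 0 : ℂ) + (A a 1 : ℂ) * Complex.I)
    (hV : ∀ a, V a = (A⁻¹ 0 a : ℂ) + (A⁻¹ 1 a : ℂ) * Complex.I) :
    Fz (act A C) = ∑ p : Fin 2 × Fin 2, ∑ q : Fin 2 × Fin 2,
      (C p q : ℂ) * (W p.1 * W p.2) * (V q.1 * V q.2) := by
  unfold Fz zz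
  simp only [Fintype.sum_prod_type, Fin.sum_univ_two, act_apply, hW, hV]
  generalize A⁻¹ = A'
  simp only [Matrix.cons_val_zero, Matrix.cons_val_one, Fin.isValue]
  push_cast
  ring

/-- the value on the isotropic vector under rotations -/
theorem Fz_rot (θ : ℝ) (C : TM) :
    Fz (act (rm θ) C) = Complex.exp (((-4 : ℤ) : ℂ) * θ * Complex.I) * Fz C := by
  have he : Complex.exp (((-4 : ℤ) : ℂ) * θ * Complex.I) =
      ((Real.cos θ : ℂ) - Real.sin θ * Complex.I) ^ 4 := by
    have h1 : (Real.cos θ : ℂ) - Real.sin θ * Complex.I = Complex.exp (-(θ * Complex.I)) := by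
      rw [← neg_mul, Complex.exp_mul_I, Complex.cos_neg, Complex.sin_neg]
      push_cast
      ring
    rw [h1, ← Complex.exp_nat_mul]
    congr 1
    push_cast
    ring
  have hI : Complex.I * Complex.I = -1 := Complex.I_mul_I
  set e : ℂ := (Real.cos θ : ℂ) - Real.sin θ * Complex.I with hedef
  rw [he, Fz_act_gen (rm θ) C ![e, e * Complex.I] ![e, e * Complex.I] ?_ ?_]
  · unfold Fz zz
    simp only [Fintype.sum_prod_type, Fin.sum_univ_two, Matrix.cons_val_zero, Matrix.cons_val_one,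
      Fin.isValue]
    ring
  · intro a
    fin_cases a
    · simp [rm, hedef]
      ring
    · simp [rm, hedef]
      linear_combination (-(Complex.sin θ)) * hI
  · intro a
    rw [rm_inv]
    fin_cases a
    · simp [hedef]
      ring
    · simp [hedef]
      linear_combination (-(Complex.sin θ)) * hI

/-! ### orthogonal maps -/

/-- an orthogonal map of the plane -/
def rl (θ : ℝ) : O2 :=
  LinearIsometry.toLinearIsometryEquiv (R₁ := ℝ)
    { toFun := fun x => !₂[Real.cos θ * x 0 - Real.sin θ * x 1, Real.sin θ * x 0 + Real.cos θ * x 1]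
      map_add' := fun x y => by
        ext i
        fin_cases i <;> simp <;> ring
      map_smul' := fun c x => by
        ext i
        fin_cases i <;> simp <;> ring
      norm_map' := fun x => by
        rw [EuclideanSpace.norm_eq, EuclideanSpace.norm_eq]
        congr 1
        simp only [Fin.sum_univ_two, Real.norm_eq_abs, sq_abs]
        change (Real.cos θ * x 0 - Real.sin θ * x 1) ^ 2 +
          (Real.sin θ * x 0 + Real.cos θ * x 1) ^ 2 = _
        have h := Real.sin_sq_add_cos_sq θ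
        linear_combination (x 0 ^ 2 + x 1 ^ 2) * h } rfl

theorem rl_apply (θ : ℝ) (x : E2) :
    rl θ x = !₂[Real.cos θ * x 0 - Real.sin θ * x 1, Real.sin θ * x 0 + Real.cos θ * x 1] := rfl

/-- the orthogonal map of a frame -/
def ofON (p : E3 × E3 × E3) (hp : ON p) : O3 :=
  LinearIsometry.toLinearIsometryEquiv (R₁ := ℝ)
    { toFun := fun x => x 0 • p.1 + x 1 • p.2.1 + x 2 • p.2.2
      map_add' := fun x y => by
        simp only [PiLp.add_apply, add_smul]
        abel
      map_smul' := fun c x => by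
        simp only [PiLp.smul_apply, smul_eq_mul, RingHom.id_apply, smul_add, smul_smul]
      norm_map' := fun x => by
        obtain ⟨h1, h2, h3, h4, h5, h6⟩ := hp
        have h4' : inner ℝ p.2.1 p.1 = 0 := by rw [real_inner_comm]; exact h4
        have h5' : inner ℝ p.2.2 p.1 = 0 := by rw [real_inner_comm]; exact h5
        have h6' : inner ℝ p.2.2 p.2.1 = 0 := by rw [real_inner_comm]; exact h6
        rw [norm_eq_sqrt_real_inner, norm_eq_sqrt_real_inner]
        congr 1
        change inner ℝ (x 0 • p.1 + x 1 • p.2.1 + x 2 • p.2.2)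
          (x 0 • p.1 + x 1 • p.2.1 + x 2 • p.2.2) = inner ℝ x x
        have hR : inner ℝ x x = x 0 * x 0 + x 1 * x 1 + x 2 * x 2 := by
          simp only [PiLp.inner_apply, Fin.sum_univ_three, RCLike.inner_apply, conj_trivial]
        rw [hR]
        simp only [inner_add_left, inner_add_right, real_inner_smul_left, real_inner_smul_right,
          h1, h2, h3, h4, h5, h6, h4', h5', h6']
        ring } rfl

theorem ofON_apply (p : E3 × E3 × E3) (hp : ON p) (x : E3) :
    ofON p hp x = x 0 • p.1 + x 1 • p.2.1 + x 2 • p.2.2 := rfl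

theorem on_rot {p : E3 × E3 × E3} (hp : ON p) (θ : ℝ) : ON (rot θ p) := by
  obtain ⟨h1, h2, h3, h4, h5, h6⟩ := hp
  have h6' : inner ℝ p.2.2 p.2.1 = 0 := by rw [real_inner_comm]; exact h6
  have h := Real.sin_sq_add_cos_sq θ
  unfold ON rot
  simp only [inner_add_left, inner_add_right, real_inner_smul_left, real_inner_smul_right,
    h1, h2, h3, h4, h5, h6, h6']
  refine ⟨trivial, ?_, ?_, ?_, ?_, ?_⟩ <;> nlinarith

variable {Γ X B : Type} [Group Γ] [MetricSpace X] [ProperSpace X] [MulAction Γ X]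
  [IsIsometricSMul Γ X] [TopologicalSpace B] [CompactSpace B] [T2Space B] [MulAction Γ B]
  [ContinuousConstSMul Γ B] {L : Leaf Γ X B} {D : B → B → ℝ}

theorem ofON_rot (Fb : Fiber L) {p : E3 × E3 × E3} (hp : ON p) (θ : ℝ) :
    ofON (rot θ p) (on_rot hp θ) = ofON p hp * Fb.ext (rl θ) := by
  ext1 x
  have e0 : Fb.ext (rl θ) x 0 = x 0 := Fb.ext_zero _ _
  have e1 : Fb.ext (rl θ) x 1 = Real.cos θ * x 1 - Real.sin θ * x 2 := by
    have := Fb.ext_succ (rl θ) x 0
    rw [rl_apply] at this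
    exact this
  have e2 : Fb.ext (rl θ) x 2 = Real.sin θ * x 1 + Real.cos θ * x 2 := by
    have := Fb.ext_succ (rl θ) x 1
    rw [rl_apply] at this
    exact this
  have e3 : (ofON p hp * Fb.ext (rl θ)) x = ofON p hp (Fb.ext (rl θ) x) := rfl
  rw [e3, ofON_apply, ofON_apply, e0, e1, e2]
  unfold rot
  module

/-- the curvature under rotations -/
theorem RX_rot (S : Smooth L D) (a : O2) (x : X) :
    RX L D (L.rot a x) = act (mt (a.toContinuousLinearEquiv : E2 →L[ℝ] E2)) (RX L D x) := by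
  unfold RX
  rw [L.em_rot, Rt_frame S (ep_rot L a x) (L.em_ne_ep x)]
  have h1 : L.τ (L.rot a x) x =ᶠ[𝓝 (0 : E2)] (a.toContinuousLinearEquiv : E2 →L[ℝ] E2) := by
    filter_upwards [isOpen_ball.mem_nhds zero_mem] with u hu
    refine tau_of_eq ?_ ?_
    · change a u ∈ ball (0 : E2) 3
      rw [mem_ball_zero_iff, a.norm_map]
      exact mem_ball_zero_iff.1 hu
    · exact L.e_rot a x u (ball_subset_closedBall hu)
  rw [h1.fderiv_eq, ContinuousLinearMap.fderiv]

theorem mt_rl (θ : ℝ) : mt ((rl θ).toContinuousLinearEquiv : E2 →L[ℝ] E2) = rm θ := by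
  ext i j
  change rl θ (eb j) i = _
  rw [rl_apply]
  fin_cases i <;> fin_cases j <;> simp [eb, rm]

open Classical in
/-- the value on the isotropic vector as a function of the frame -/
def FF (Fb : Fiber L) (D : B → B → ℝ) (p : E3 × E3 × E3) : ℂ :=
  if hp : ON p then Fz (RX L D (Fb.fib (ofON p hp))) else 0

theorem FF_eq (Fb : Fiber L) {p : E3 × E3 × E3} (hp : ON p) :
    FF Fb D p = Fz (RX L D (Fb.fib (ofON p hp))) := dif_pos hp

/-- the orthonormal triples -/
abbrev ONt : Type := {p : E3 × E3 × E3 // ON p}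

theorem ofON_cont : Continuous fun p : ONt × E3 => ofON p.1.1 p.1.2 p.2 := by
  have h2 : ∀ i : Fin 3, Continuous fun p : ONt × E3 => p.2 i :=
    fun i => (EuclideanSpace.proj (𝕜 := ℝ) i).continuous.comp continuous_snd
  have h3 : Continuous fun p : ONt × E3 => (p.1 : E3 × E3 × E3) :=
    continuous_subtype_val.comp continuous_fst
  have h4 : Continuous fun p : ONt × E3 => p.2 0 • p.1.1.1 + p.2 1 • p.1.1.2.1 +
      p.2 2 • p.1.1.2.2 :=
    (((h2 0).smul h3.fst).add ((h2 1).smul h3.snd.fst)).add ((h2 2).smul h3.snd.snd)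
  exact h4

theorem fib_ofON_cont (Fb : Fiber L) : Continuous fun y : ONt => Fb.fib (ofON y.1 y.2) :=
  Fb.fib_cont ONt (fun y => ofON y.1 y.2) ofON_cont

theorem FF_cont (S : Smooth L D) (Fb : Fiber L) :
    ContinuousOn (FF Fb D) {p : E3 × E3 × E3 | ON p} := by
  rw [continuousOn_iff_continuous_domRestrict]
  have h4 := Fz_cont.comp ((RX_cont S).comp (fib_ofON_cont Fb))
  have h5 : (fun y : ONt => FF Fb D y.1) =
      Fz ∘ (RX L D ∘ fun y : ONt => Fb.fib (ofON y.1 y.2)) := by
    funext y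
    exact FF_eq Fb y.2
  have h6 : Continuous fun y : ONt => FF Fb D y.1 := by
    rw [h5]
    exact h4
  exact h6

theorem FF_rot (S : Smooth L D) (Fb : Fiber L) {p : E3 × E3 × E3} (hp : ON p) (θ : ℝ) :
    FF Fb D (rot θ p) = Complex.exp (((-4 : ℤ) : ℂ) * θ * Complex.I) * FF Fb D p := by
  rw [FF_eq Fb hp, FF_eq Fb (on_rot hp θ), ofON_rot Fb hp θ, Fb.fib_rot, RX_rot S, mt_rl, Fz_rot]

/-- **The value on the isotropic vector has a zero.** -/
theorem no_Fz (S : Smooth L D) (Fb : Fiber L) (h : ∀ x, Fz (RX L D x) ≠ 0) : False :=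
  no_section (V := E3) (EuclideanSpace.basisFun (Fin 3) ℝ) (k := -4) (by norm_num) (F := FF Fb D)
    (FF_cont S Fb) (fun p hp => by rw [FF_eq Fb hp]; exact h _) (fun p hp θ => FF_rot S Fb hp θ)

/-- **The curvature is pure trace.** -/
theorem all_Pu (S : Smooth L D) (hD : ∀ x, D (L.em x) (L.ep x) = L.lv x + L.lp x) {lam : ℝ}
    (hMA : MA L D lam) (Fb : Fiber L) {β : Γ} {x : X} {l : ℝ} {a : O2} (h : L.IsAxis β x l a)
    (hh : Hyp (LA L β x)) (y : X) {η : B} (hne : η ≠ L.ep y) : Rt L D y η = Pu lam := by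
  have h1 := (alt S hD hMA h hh).resolve_left fun h0 => no_Fz S Fb h0
  obtain ⟨z, hz1, hz2, -⟩ := L.exists_frame η (L.ep y) hne 0
  have h2 := h1 z
  unfold RX at h2
  rw [hz1] at h2
  rw [Rt_frame S hz2.symm (by rwa [hz2]), h2, act_Pu (frame_isUnit S hz2.symm)]

/-- the curvature in charts -/
theorem all_CM (S : Smooth L D) (hD : ∀ x, D (L.em x) (L.ep x) = L.lv x + L.lp x) {lam : ℝ}
    (hMA : MA L D lam) (Fb : Fiber L) {β : Γ} {x : X} {l : ℝ} {a : O2} (h : L.IsAxis β x l a)
    (hh : Hyp (LA L β x)) {y z : X} {p : E2 × E2} (hp : p ∈ OD L y z) :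
    CM (TT L D y z) p = Pu lam := by
  obtain ⟨w, hw⟩ := H728.exists_ep L (L.e y p.1)
  have h1 : L.e y p.1 = L.e w 0 := by rw [L.e_zero, hw]
  have hne : L.e z p.2 ≠ L.ep w := by
    rw [hw]
    exact hp.2.2.symm
  have h2 := Rt_eq S (x := w) hp.2.1 rfl hne
  rw [all_Pu S hD hMA Fb h hh w hne] at h2
  have h3 := CM_TT S (x := w) (x' := y) (y := z) (y' := z) (a := 0) (a' := p.1) (b := p.2)
    (b' := p.2) zero_mem hp.1 hp.2.1 hp.2.1 h1 rfl (by
      rw [L.e_zero]
      exact hne.symm)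
  rw [← h2] at h3
  rw [show p = (p.1, p.2) from rfl, h3]
  have hdm : p.1 ∈ L.dm y w := mem_dm hp.1 zero_mem h1
  obtain ⟨P, hP, -⟩ := exists_equiv S hdm
  rw [hP]
  exact act_Pu (mt_isUnit P) lam

end Vale.Agent.P207.N3.H442
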