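import Mathlib

/-!
# P207, line N3, row P12T: the tangent bundle of the sphere has no continuous sections

`no_section`: there is no continuous nonvanishing function `F (v, e₁, e₂)` on the orthonormal
frames of a three dimensional Euclidean space with
`F (v, cos θ e₁ + sin θ e₂, - sin θ e₁ + cos θ e₂) = exp (i k θ) F (v, e₁, e₂)`, `k ≠ 0`.
(`k = 1`: vector fields; `k = 2`: line fields; `k = 4`: pairs of lines, squares of indefinite
quadratic forms.)
-/

noncomputable section

open Set Complex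
open scoped Topology RealInnerProductSpace

namespace Vale.Agent.P207.N3.H442

/-- a continuous function whose exponential is one is constant -/
theorem const_of_exp {u : ℝ → ℂ} (hu : Continuous u) (h : ∀ t, exp (u t) = 1) (s t : ℝ) :
    u s = u t := by
  have h1 : ∀ t, ∃ n : ℤ, u t = n * (2 * Real.pi * I) := fun t => Complex.exp_eq_one_iff.1 (h t)
  choose n hn using h1
  have h2 : Continuous fun t => ((n t : ℤ) : ℝ) := by
    have h3 : (fun t => ((n t : ℤ) : ℝ)) = fun t => (u t).im / (2 * Real.pi) := by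
      funext t
      rw [hn t]
      have : (((n t : ℤ) : ℂ) * (2 * Real.pi * I)).im = (n t : ℝ) * (2 * Real.pi) := by
        simp
      rw [this]
      field_simp
    rw [h3]
    exact (Complex.continuous_im.comp hu).div_const _
  have h4 : Continuous n := by
    exact Int.isClosedEmbedding_coe_real.isEmbedding.continuous_iff.2 h2
  have h5 : n s = n t := by
    have := PreconnectedSpace.constant (inferInstance : PreconnectedSpace ℝ) h4 (x := s) (y := t)
    exact this
  rw [hn s, hn t, h5]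

/-- a nonvanishing continuous function of the plane has a continuous logarithm -/
theorem exists_log {g : ℂ → ℂ} (hg : Continuous g) (h0 : ∀ z, g z ≠ 0) :
    ∃ f : ℂ → ℂ, Continuous f ∧ ∀ z, exp (f z) = g z := by
  have hU : IsSimplyConnected (univ : Set ℂ) := by
    have h1 : ContractibleSpace (univ : Set ℂ) := convex_univ.contractibleSpace univ_nonempty
    exact (inferInstance : SimplyConnectedSpace (univ : Set ℂ))
  obtain ⟨f, hf, hfe⟩ := Complex.exists_continuousOn_eqOn_exp_comp hU isOpen_univ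
    (continuousOn_univ.2 hg) (by rintro ⟨z, -, hz⟩; exact h0 z hz)
  exact ⟨f, continuousOn_univ.1 hf, fun z => hfe (mem_univ z)⟩

/-- two nonvanishing functions of the plane cannot differ by `z ^ n`, `n ≠ 0`, on the circle -/
theorem no_transition {n : ℤ} (hn : n ≠ 0) {g₁ g₂ : ℂ → ℂ} (h1 : Continuous g₁)
    (h2 : Continuous g₂) (h10 : ∀ z, g₁ z ≠ 0) (h20 : ∀ z, g₂ z ≠ 0)
    (h : ∀ θ : ℝ, g₂ (exp (θ * I)) = exp (n * θ * I) * g₁ (exp (θ * I))) : False := by
  obtain ⟨f₁, hf1, e1⟩ := exists_log h1 h10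
  obtain ⟨f₂, hf2, e2⟩ := exists_log h2 h20
  set u : ℝ → ℂ := fun θ => f₂ (exp (θ * I)) - f₁ (exp (θ * I)) - n * θ * I with hu
  have hc : Continuous u := by
    have h3 : Continuous fun θ : ℝ => exp ((θ : ℂ) * I) := by fun_prop
    exact ((hf2.comp h3).sub (hf1.comp h3)).sub (by fun_prop)
  have he : ∀ θ, exp (u θ) = 1 := by
    intro θ
    rw [hu]
    simp only
    rw [exp_sub, exp_sub, e1, e2, h θ]
    have h4 : g₁ (exp (θ * I)) ≠ 0 := h10 _
    have h5 := exp_ne_zero ((n : ℂ) * θ * I)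
    field_simp
  have h6 := const_of_exp hc he 0 (2 * Real.pi)
  rw [hu] at h6
  simp only [ofReal_zero, zero_mul, exp_zero, mul_zero, sub_zero, ofReal_mul, ofReal_ofNat,
    exp_two_pi_mul_I] at h6
  have h7 : (n : ℂ) * (2 * Real.pi) * I = 0 := by linear_combination h6
  have h8 : (n : ℂ) ≠ 0 := Int.cast_ne_zero.2 hn
  have h9 : (Real.pi : ℂ) ≠ 0 := ofReal_ne_zero.2 Real.pi_ne_zero
  simp [h8, h9, I_ne_zero] at h7

section Frames

variable {V : Type*} [NormedAddCommGroup V] [InnerProductSpace ℝ V]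

/-- the vector with the coordinates `x, y, z` -/
def vec (b : OrthonormalBasis (Fin 3) ℝ V) (x y z : ℝ) : V := x • b 0 + y • b 1 + z • b 2

theorem inner_vec (b : OrthonormalBasis (Fin 3) ℝ V) (x y z x' y' z' : ℝ) :
    ⟪vec b x y z, vec b x' y' z'⟫ = x * x' + y * y' + z * z' := by
  have h : ∀ i j, ⟪b i, b j⟫ = if i = j then (1 : ℝ) else 0 :=
    orthonormal_iff_ite.1 b.orthonormal
  unfold vec
  simp only [inner_add_left, inner_add_right, real_inner_smul_left, real_inner_smul_right, h,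
    Fin.isValue, if_true]
  simp
  try ring

/-- orthonormal triples -/
def ON (p : V × V × V) : Prop :=
  ⟪p.1, p.1⟫ = 1 ∧ ⟪p.2.1, p.2.1⟫ = 1 ∧ ⟪p.2.2, p.2.2⟫ = 1 ∧ ⟪p.1, p.2.1⟫ = 0 ∧
    ⟪p.1, p.2.2⟫ = 0 ∧ ⟪p.2.1, p.2.2⟫ = 0

/-- the frames over the upper hemisphere -/
def up (b : OrthonormalBasis (Fin 3) ℝ V) (z : ℂ) : V × V × V :=
  ((1 + z.re ^ 2 + z.im ^ 2)⁻¹ • vec b (1 - z.re ^ 2 - z.im ^ 2) (2 * z.im) (-(2 * z.re)),
   (1 + z.re ^ 2 + z.im ^ 2)⁻¹ • vec b (-(2 * z.im)) (1 + z.re ^ 2 - z.im ^ 2)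
    (2 * z.re * z.im),
   (1 + z.re ^ 2 + z.im ^ 2)⁻¹ • vec b (2 * z.re) (2 * z.re * z.im)
    (1 - z.re ^ 2 + z.im ^ 2))

/-- the frames over the lower hemisphere -/
def dn (b : OrthonormalBasis (Fin 3) ℝ V) (z : ℂ) : V × V × V :=
  ((1 + z.re ^ 2 + z.im ^ 2)⁻¹ • vec b (z.re ^ 2 + z.im ^ 2 - 1) (2 * z.im) (-(2 * z.re)),
   (1 + z.re ^ 2 + z.im ^ 2)⁻¹ • vec b (2 * z.im) (z.re ^ 2 - z.im ^ 2 + 1)
    (2 * z.re * z.im),
   (1 + z.re ^ 2 + z.im ^ 2)⁻¹ • vec b (2 * z.re) (-(2 * z.re * z.im))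
    (z.re ^ 2 - z.im ^ 2 - 1))

theorem on_up (b : OrthonormalBasis (Fin 3) ℝ V) (z : ℂ) : ON (up b z) := by
  have hN : (1 + z.re ^ 2 + z.im ^ 2 : ℝ) ≠ 0 := by positivity
  unfold ON up
  simp only [real_inner_smul_left, real_inner_smul_right, inner_vec]
  refine ⟨?_, ?_, ?_, ?_, ?_, ?_⟩ <;> field_simp <;> ring

theorem on_dn (b : OrthonormalBasis (Fin 3) ℝ V) (z : ℂ) : ON (dn b z) := by
  have hN : (1 + z.re ^ 2 + z.im ^ 2 : ℝ) ≠ 0 := by positivity
  unfold ON dn
  simp only [real_inner_smul_left, real_inner_smul_right, inner_vec]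
  refine ⟨?_, ?_, ?_, ?_, ?_, ?_⟩ <;> field_simp <;> ring

theorem continuous_up (b : OrthonormalBasis (Fin 3) ℝ V) : Continuous (up b) := by
  have hN : ∀ z : ℂ, (1 + z.re ^ 2 + z.im ^ 2 : ℝ) ≠ 0 := fun z => by positivity
  unfold up vec
  have h1 : Continuous fun z : ℂ => (1 + z.re ^ 2 + z.im ^ 2 : ℝ)⁻¹ :=
    Continuous.inv₀ (by fun_prop) hN
  refine Continuous.prodMk (h1.smul (by fun_prop)) (Continuous.prodMk (h1.smul (by fun_prop))
    (h1.smul (by fun_prop)))

theorem continuous_dn (b : OrthonormalBasis (Fin 3) ℝ V) : Continuous (dn b) := by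
  have hN : ∀ z : ℂ, (1 + z.re ^ 2 + z.im ^ 2 : ℝ) ≠ 0 := fun z => by positivity
  unfold dn vec
  have h1 : Continuous fun z : ℂ => (1 + z.re ^ 2 + z.im ^ 2 : ℝ)⁻¹ :=
    Continuous.inv₀ (by fun_prop) hN
  refine Continuous.prodMk (h1.smul (by fun_prop)) (Continuous.prodMk (h1.smul (by fun_prop))
    (h1.smul (by fun_prop)))

/-- rotation of the last two vectors -/
def rot (θ : ℝ) (p : V × V × V) : V × V × V :=
  (p.1, Real.cos θ • p.2.1 + Real.sin θ • p.2.2, -(Real.sin θ) • p.2.1 + Real.cos θ • p.2.2)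

theorem smul_vec (b : OrthonormalBasis (Fin 3) ℝ V) (c x y z : ℝ) :
    c • vec b x y z = vec b (c * x) (c * y) (c * z) := by
  unfold vec
  simp only [smul_add, smul_smul]

theorem add_vec (b : OrthonormalBasis (Fin 3) ℝ V) (x y z x' y' z' : ℝ) :
    vec b x y z + vec b x' y' z' = vec b (x + x') (y + y') (z + z') := by
  unfold vec
  simp only [add_smul]
  abel

theorem vec_congr (b : OrthonormalBasis (Fin 3) ℝ V) {x y z x' y' z' : ℝ} (h1 : x = x')
    (h2 : y = y') (h3 : z = z') : vec b x y z = vec b x' y' z' := by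
  rw [h1, h2, h3]

theorem dn_eq (b : OrthonormalBasis (Fin 3) ℝ V) (θ : ℝ) :
    dn b (exp (θ * I)) = rot (2 * θ) (up b (exp (θ * I))) := by
  have hre : (exp (θ * I)).re = Real.cos θ := Complex.exp_ofReal_mul_I_re θ
  have him : (exp (θ * I)).im = Real.sin θ := Complex.exp_ofReal_mul_I_im θ
  unfold dn up rot
  rw [hre, him]
  have h1 := Real.sin_sq_add_cos_sq θ
  have hN : (1 + Real.cos θ ^ 2 + Real.sin θ ^ 2 : ℝ) = 2 := by linarith
  rw [hN, Real.cos_two_mul, Real.sin_two_mul]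
  simp only [smul_vec, add_vec]
  refine Prod.ext ?_ (Prod.ext ?_ ?_)
  · refine vec_congr b ?_ ?_ ?_
    · linear_combination h1
    · ring
    · ring
  · refine vec_congr b ?_ ?_ ?_
    · ring
    · linear_combination (-(1 + Real.cos θ ^ 2)) * h1
    · linear_combination (-(Real.cos θ * Real.sin θ)) * h1
  · refine vec_congr b ?_ ?_ ?_
    · linear_combination (-(2 * Real.cos θ)) * h1
    · linear_combination (-(Real.cos θ * Real.sin θ)) * h1
    · linear_combination (Real.cos θ ^ 2) * h1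

/-- **the powers of the tangent bundle of the sphere have no nonvanishing sections**: there is no
continuous nonvanishing function of the orthonormal frames of a Euclidean space of dimension
three which is multiplied by `exp (i k θ)`, `k ≠ 0`, under the rotations by the angle `θ` in the
plane of the last two vectors. -/
theorem no_section (b : OrthonormalBasis (Fin 3) ℝ V) {k : ℤ} (hk : k ≠ 0)
    {F : V × V × V → ℂ} (hF : ContinuousOn F {p | ON p}) (h0 : ∀ p, ON p → F p ≠ 0)
    (hr : ∀ p, ON p → ∀ θ : ℝ, F (rot θ p) = exp (k * θ * I) * F p) : False := by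
  refine no_transition (n := 2 * k) (by omega) (g₁ := fun z => F (up b z))
    (g₂ := fun z => F (dn b z)) ?_ ?_ (fun z => h0 _ (on_up b z)) (fun z => h0 _ (on_dn b z)) ?_
  · exact hF.comp_continuous (continuous_up b) (on_up b)
  · exact hF.comp_continuous (continuous_dn b) (on_dn b)
  · intro θ
    have h1 : F (dn b (exp (θ * I))) = exp (k * (2 * θ : ℝ) * I) * F (up b (exp (θ * I))) := by
      rw [dn_eq, hr _ (on_up b _)]
    refine h1.trans ?_
    rw [show (k : ℂ) * ((2 * θ : ℝ) : ℂ) * I = ((2 * k : ℤ) : ℂ) * θ * I by push_cast; ring]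

/-- a symmetric `2 × 2` matrix with negative determinant does not vanish at the isotropic vector
`(1, i)` -/
theorem form_ne {q11 q12 q22 : ℝ} (h : q11 * q22 - q12 ^ 2 < 0) :
    ((q11 - q22 : ℝ) : ℂ) + (2 * q12 : ℝ) * I ≠ 0 := by
  intro h0
  have h1 := congrArg Complex.re h0
  have h2 := congrArg Complex.im h0
  simp only [add_re, ofReal_re, mul_re, I_re, mul_zero, ofReal_im, I_im,
    sub_zero, add_zero, add_im, mul_im, mul_one, zero_add, zero_re, zero_im] at h1 h2
  have h3 : q11 = q22 := by linarith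
  have h4 : q12 = 0 := by linarith
  rw [h3, h4] at h
  nlinarith [mul_self_nonneg q22]

/-- **no field of indefinite quadratic forms up to sign** (3.6 (b)): `A, B, C` are the entries
`Q(e₁,e₁), Q(e₁,e₂), Q(e₂,e₂)` of a form on the plane of the last two vectors of the frame; the
products of the entries (i.e. `Q ⊗ Q`, in particular `Q` itself if it is a continuous field)
are continuous functions of the frame, `Q ⊗ Q` depends only on the plane; then `det Q < 0` is
impossible everywhere. -/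
theorem no_form_field (b : OrthonormalBasis (Fin 3) ℝ V) {A B C : V × V × V → ℝ}
    (hc : ContinuousOn (fun p => (((A p - C p : ℝ) : ℂ) + (2 * B p : ℝ) * I) ^ 2) {p | ON p})
    (hdet : ∀ p, ON p → A p * C p - B p ^ 2 < 0)
    (hr : ∀ p, ON p → ∀ θ : ℝ, ∃ s : ℝ, s ^ 2 = 1 ∧
      A (rot θ p) = s * (Real.cos θ ^ 2 * A p + 2 * (Real.cos θ * Real.sin θ) * B p +
        Real.sin θ ^ 2 * C p) ∧
      B (rot θ p) = s * (-(Real.cos θ * Real.sin θ) * A p +
        (Real.cos θ ^ 2 - Real.sin θ ^ 2) * B p + (Real.cos θ * Real.sin θ) * C p) ∧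
      C (rot θ p) = s * (Real.sin θ ^ 2 * A p - 2 * (Real.cos θ * Real.sin θ) * B p +
        Real.cos θ ^ 2 * C p)) : False := by
  refine no_section b (k := -4) (by norm_num) hc (fun p hp => pow_ne_zero 2 (form_ne (hdet p hp)))
    (fun p hp θ => ?_)
  obtain ⟨s, hs, h1, h2, h3⟩ := hr p hp θ
  have e1 : (((A (rot θ p) - C (rot θ p) : ℝ) : ℂ) + (2 * B (rot θ p) : ℝ) * I) =
      s * exp (-(2 * θ) * I) * (((A p - C p : ℝ) : ℂ) + (2 * B p : ℝ) * I) := by
    rw [h1, h2, h3, Complex.exp_mul_I, Complex.cos_neg, Complex.sin_neg, Complex.cos_two_mul,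
      Complex.sin_two_mul]
    have hI : I ^ 2 = -1 := Complex.I_sq
    have hcs : Complex.sin θ ^ 2 = 1 - Complex.cos θ ^ 2 := by
      linear_combination Complex.sin_sq_add_cos_sq θ
    push_cast
    ring_nf
    rw [hI, hcs]
    ring
  rw [e1, mul_pow, mul_pow, ← Complex.exp_nat_mul, ← ofReal_pow, hs, ofReal_one, one_mul]
  congr 2
  push_cast
  ring

end Frames

end Vale.Agent.P207.N3.H442
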