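import Vale.Agent.P207.N3.H442.Dyn
import Vale.Agent.P207.N3.H442.Hairy
import Vale.Agent.P207.N3.H732.Liv

/-!
# P207, N3, P12: the curvature is pure trace
-/

open Set Filter Topology Metric MeasureTheory
open scoped ContDiff

set_option maxSynthPendingDepth 3
set_option linter.unusedSectionVars false

noncomputable section

namespace Vale.Agent.P207.N3.H442

open H662 (tau_mem e_tau dm_open)
open H147 (ep_cont ep_smul ep_φ ep_rot)

/-! ### algebra -/

theorem Hyp.conj {A P : M2} (hA : Hyp A) (hP : IsUnit P.det) : Hyp (P⁻¹ * A * P) := by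
  obtain ⟨S, μ, hS, h1, h2⟩ := hA
  refine ⟨P⁻¹ * S, μ, ?_, ?_, h2⟩
  · rw [Matrix.det_mul]
    exact (Matrix.isUnit_nonsing_inv_det P hP).mul hS
  · calc P⁻¹ * A * P * (P⁻¹ * S) = P⁻¹ * A * (P * P⁻¹) * S := by simp only [Matrix.mul_assoc]
      _ = P⁻¹ * (A * S) := by rw [Matrix.mul_nonsing_inv P hP, mul_one, Matrix.mul_assoc]
      _ = _ := by rw [h1, Matrix.mul_assoc]

theorem conj_fix {A P : M2} (hP : IsUnit P.det) {C : TM} (hC : act A C = C) :
    act (P⁻¹ * A * P) (act P C) = act P C := by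
  rw [← act_mul]
  have : P * (P⁻¹ * A * P) = A * P := by
    rw [← Matrix.mul_assoc, ← Matrix.mul_assoc, Matrix.mul_nonsing_inv P hP, one_mul]
  rw [this, act_mul, hC]

theorem conj_isUnit {A P : M2} (hA : IsUnit A.det) (hP : IsUnit P.det) :
    IsUnit (P⁻¹ * A * P).det := by
  rw [Matrix.det_mul, Matrix.det_mul]
  exact ((Matrix.isUnit_nonsing_inv_det P hP).mul hA).mul hP

theorem I2_cont : Continuous I2 := by
  unfold I2
  exact (Continuous.matrix_mul continuous_id continuous_id).matrix_trace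

theorem Fz_cont : Continuous Fz := by
  unfold Fz
  refine continuous_finsetSum _ fun p _ => continuous_finsetSum _ fun q _ => ?_
  have h1 : Continuous fun C : TM => C p q := (continuous_apply q).comp (continuous_apply p)
  have h2 : Continuous fun C : TM => ((C p q : ℝ) : ℂ) := Complex.continuous_ofReal.comp h1
  exact (h2.mul continuous_const).mul continuous_const

variable {Γ X B : Type} [Group Γ] [MetricSpace X] [ProperSpace X] [MulAction Γ X]
  [IsIsometricSMul Γ X] [TopologicalSpace B] [CompactSpace B] [T2Space B] [MulAction Γ B]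
  [ContinuousConstSMul Γ B] {L : Leaf Γ X B} {D : B → B → ℝ}

/-- the curvature at `ep x` is constant -/
def Cst (L : Leaf Γ X B) (D : B → B → ℝ) (x : X) : Prop :=
  ∀ η η', η ≠ L.ep x → η' ≠ L.ep x → Rt L D x η = Rt L D x η'

theorem Cst_closed (S : Smooth L D) : IsClosed {x | Cst L D x} := by
  refine IsSeqClosed.isClosed fun u x hu hx η η' hne hne' => ?_
  have hep : Tendsto (fun i => L.ep (u i)) atTop (𝓝 (L.ep x)) := ((ep_cont L).tendsto x).comp hx
  have h1 : ∀ {η : B}, η ≠ L.ep x → ∀ᶠ i in atTop, η ≠ L.ep (u i) := by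
    intro η hne
    filter_upwards [hep (isOpen_compl_singleton.mem_nhds (show L.ep x ∈ ({η} : Set B)ᶜ from
      fun h => hne h.symm))] with i hi using fun h => hi h.symm
  have h2 := Rt_tendsto S hx (tendsto_const_nhds (x := η)) hne
  have h3 := Rt_tendsto S hx (tendsto_const_nhds (x := η')) hne'
  refine tendsto_nhds_unique_of_eventuallyEq h2 h3 ?_
  filter_upwards [h1 hne, h1 hne'] with i hi hi'
  exact hu i η η' hi hi'

theorem Cst_frame (S : Smooth L D) {x x' : X} (hx : L.ep x' = L.ep x) (h : Cst L D x) :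
    Cst L D x' := by
  intro η η' hne hne'
  rw [hx] at hne hne'
  rw [Rt_frame S hx hne, Rt_frame S hx hne', h η η' hne hne']

theorem Cst_smul (S : Smooth L D) (hD : ∀ x, D (L.em x) (L.ep x) = L.lv x + L.lp x) (g : Γ)
    {x : X} (h : Cst L D x) : Cst L D (g • x) := by
  intro η η' hne hne'
  have h1 : ∀ {η : B}, η ≠ L.ep (g • x) → g⁻¹ • η ≠ L.ep x := by
    intro η hne e
    rw [inv_smul_eq_iff, ← ep_smul] at e
    exact hne e
  have h2 := Rt_smul S hD g (h1 hne)
  have h3 := Rt_smul S hD g (h1 hne')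
  rw [smul_inv_smul] at h2 h3
  rw [h2, h3]
  exact h _ _ (h1 hne) (h1 hne')

theorem Cst_all (S : Smooth L D) (hD : ∀ x, D (L.em x) (L.ep x) = L.lv x + L.lp x) {x₀ : X}
    (h : Cst L D x₀) (x : X) : Cst L D x := by
  have h1 : IsClosed {x | Cst L D (L.flip x)} := (Cst_closed S).preimage L.flip_cont
  have h2 := H728.of_orbit (L := L) (P := fun x => Cst L D (L.flip x)) h1 (L.ep x₀) (fun y g hy => by
    refine Cst_frame S (x := g • x₀) ?_ (Cst_smul S hD g h)
    rw [ep_flip', hy, ep_smul]) (L.flip x)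
  simpa only [L.flip_flip] using h2

theorem RX_axis (S : Smooth L D) (hD : ∀ x, D (L.em x) (L.ep x) = L.lv x + L.lp x) {β : Γ} {x : X}
    {l : ℝ} {a : O2} (h : L.IsAxis β x l a) : act (LA L β x) (RX L D x) = RX L D x := by
  have h1 := Rt_axis S hD h (L.em_ne_ep x)
  rw [H147.Ax.smul_em h] at h1
  exact h1.symm

/-- **A closed property of the curvature at the pairs with different exponents holds
everywhere.** -/
theorem good_dense (S : Smooth L D) (hD : ∀ x, D (L.em x) (L.ep x) = L.lv x + L.lp x) {β : Γ}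
    {x : X} {l : ℝ} {a : O2} (h : L.IsAxis β x l a) (hh : Hyp (LA L β x)) {Q : TM → Prop}
    (hQ : IsClosed {C | Q C}) (hq : ∀ y A', IsUnit A'.det → Hyp A' →
      act A' (RX L D y) = RX L D y → Q (RX L D y)) (y : X) : Q (RX L D y) := by
  have hcl : IsClosed {y | Q (RX L D y)} := hQ.preimage (RX_cont S)
  by_cases hc : ∀ (θ : Γ) (x : X) (l : ℝ) (a : O2), L.IsAxis θ x l a → Hyp (LA L θ x)
  · exact H728.of_axes (L := L) (P := fun y => Q (RX L D y)) hcl (fun θ y l a hy =>
      hq y (LA L θ y) (LA_isUnit S hy) (hc θ y l a hy) (RX_axis S hD hy)) y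
  · push Not at hc
    obtain ⟨θ, x₀, l₀, a₀, hx₀, hn⟩ := hc
    have hcst : ∀ x, Cst L D x := fun x => Cst_all S hD (x₀ := x₀)
      (fun η η' h1 h2 => const_of_not_hyp S hD hx₀ hn h1 h2) x
    have hcl' : IsClosed {y | Q (RX L D (L.flip y))} := hcl.preimage L.flip_cont
    have h2 := H728.of_orbit (L := L) (P := fun y => Q (RX L D (L.flip y))) hcl' (L.ep x)
      (fun z g hz => by
        have hep : L.ep (L.flip z) = L.ep (g • x) := by rw [ep_flip', hz, ep_smul]
        have hP := frame_isUnit S hep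
        have e1 : RX L D (L.flip z) =
            act (mt (fderiv ℝ (L.τ (L.flip z) (g • x)) 0)) (RX L D x) := by
          have hne : L.em (L.flip z) ≠ L.ep (g • x) := by
            rw [← hep]
            exact L.em_ne_ep _
          unfold RX
          rw [Rt_frame S hep hne, hcst (g • x) _ (L.em (g • x)) hne (L.em_ne_ep _)]
          congr 1
          exact RX_smul S hD g x
        refine hq _ _ (conj_isUnit (LA_isUnit S h) hP) (hh.conj hP) ?_
        rw [e1]
        exact conj_fix hP (RX_axis S hD h)) (L.flip y)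
    simpa only [L.flip_flip] using h2

/-! ### the invariant -/

theorem I2_const (S : Smooth L D) (hD : ∀ x, D (L.em x) (L.ep x) = L.lv x + L.lp x) (x y : X) :
    I2 (RX L D x) = I2 (RX L D y) := by
  refine H732.invariant_const L (F := fun x => I2 (RX L D x)) (I2_cont.comp (RX_cont S)) ?_ ?_ ?_
    x y
  · intro g x
    rw [RX_smul S hD]
  · intro a x
    have h1 : L.ep (L.rot a x) = L.ep x := ep_rot L a x
    have h2 : RX L D (L.rot a x) = act (mt (fderiv ℝ (L.τ (L.rot a x) x) 0)) (RX L D x) := by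
      unfold RX
      rw [L.em_rot]
      exact Rt_frame S h1 (L.em_ne_ep x)
    change I2 (RX L D (L.rot a x)) = I2 (RX L D x)
    rw [h2, I2_act (frame_isUnit S h1)]
  · intro t x
    have h1 : L.ep (L.φ t x) = L.ep x := ep_φ L t x
    have h2 : RX L D (L.φ t x) = act (mt (fderiv ℝ (L.τ (L.φ t x) x) 0)) (RX L D x) := by
      unfold RX
      rw [L.em_φ]
      exact Rt_frame S h1 (L.em_ne_ep x)
    change I2 (RX L D (L.φ t x)) = I2 (RX L D x)
    rw [h2, I2_act (frame_isUnit S h1)]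

/-- the Monge-Ampère equation -/
def MA (L : Leaf Γ X B) (D : B → B → ℝ) (lam : ℝ) : Prop :=
  ∀ (x y : X), ∀ p ∈ OD L x y, ∃ N M : P2 → ℝ, ContDiffAt ℝ ∞ N p.1 ∧ N p.1 ≠ 0 ∧
    (∀ᶠ b in 𝓝 p.2, M b ≠ 0) ∧ ∀ᶠ c in 𝓝 p, det2 (TT L D x y) c ^ 2 =
      Real.exp (2 * lam * TT L D x y c) * N c.1 * M c.2

theorem RX_Sy (S : Smooth L D) {lam : ℝ} (hMA : MA L D lam) (x : X) : Sy lam (RX L D x) := by
  unfold RX Rt
  have hp : ((0 : E2), (0 : E2)) ∈ OD L x (fr L (L.em x)) := by
    refine ⟨zero_mem, zero_mem, ?_⟩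
    rw [L.e_zero, L.e_zero, ep_fr]
    exact (L.em_ne_ep x).symm
  obtain ⟨N, M, h1, h2, h3, h4⟩ := hMA _ _ _ hp
  exact CM_Sy (TT_smooth_ev S hp) (TT_nd S hp) h1 h2 h3 h4

/-- **The alternative.** -/
theorem alt (S : Smooth L D) (hD : ∀ x, D (L.em x) (L.ep x) = L.lv x + L.lp x) {lam : ℝ}
    (hMA : MA L D lam) {β : Γ} {x : X} {l : ℝ} {a : O2} (h : L.IsAxis β x l a)
    (hh : Hyp (LA L β x)) : (∀ x, Fz (RX L D x) ≠ 0) ∨ ∀ x, RX L D x = Pu lam := by
  set i₀ := I2 (RX L D x) with hi₀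
  set Q : TM → Prop := fun C => 6 * Real.sqrt ((i₀ - 4 / 3 * lam ^ 2) / 6) ≤ ‖Fz C‖ ∧
    (i₀ = 4 / 3 * lam ^ 2 → C = Pu lam) with hQ
  have hcl : IsClosed {C | Q C} := by
    have h1 : IsClosed {C : TM | 6 * Real.sqrt ((i₀ - 4 / 3 * lam ^ 2) / 6) ≤ ‖Fz C‖} :=
      isClosed_le continuous_const Fz_cont.norm
    have h2 : IsClosed {C : TM | i₀ = 4 / 3 * lam ^ 2 → C = Pu lam} := by
      by_cases hi : i₀ = 4 / 3 * lam ^ 2
      · have : {C : TM | i₀ = 4 / 3 * lam ^ 2 → C = Pu lam} = {Pu lam} := by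
          ext C
          simp only [mem_ofPred_eq, mem_singleton_iff]
          exact ⟨fun h => h hi, fun h _ => h⟩
        rw [this]
        exact isClosed_singleton
      · have : {C : TM | i₀ = 4 / 3 * lam ^ 2 → C = Pu lam} = univ := by
          ext C
          simp only [mem_ofPred_eq, mem_univ, iff_true]
          exact fun h => absurd h hi
        rw [this]
        exact isClosed_univ
    exact h1.inter h2
  have hq : ∀ y A', IsUnit A'.det → Hyp A' → act A' (RX L D y) = RX L D y → Q (RX L D y) := by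
    intro y A' hu hA' hfix
    obtain ⟨c, h1, h2, h3⟩ := hyp_cons hu hA' (RX_Sy S hMA y) hfix
    rw [I2_const S hD y x, ← hi₀] at h1
    refine ⟨?_, fun hi => h3 ?_⟩
    · have : (i₀ - 4 / 3 * lam ^ 2) / 6 = c ^ 2 := by rw [h1]; ring
      rw [this, Real.sqrt_sq_eq_abs]
      exact h2
    · have : c ^ 2 = 0 := by
        rw [hi] at h1
        linarith
      exact pow_eq_zero_iff (by norm_num) |>.1 this
  have key := good_dense S hD h hh hcl hq
  by_cases hi : i₀ = 4 / 3 * lam ^ 2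
  · exact Or.inr fun y => (key y).2 hi
  · left
    intro y h0
    obtain ⟨c, h1, h2, h3⟩ := hyp_cons (LA_isUnit S h) hh (RX_Sy S hMA x) (RX_axis S hD h)
    rw [← hi₀] at h1
    have hc0 : c ≠ 0 := by
      rintro rfl
      exact hi (by rw [h1]; ring)
    have h4 := (key y).1
    have : (i₀ - 4 / 3 * lam ^ 2) / 6 = c ^ 2 := by rw [h1]; ring
    rw [this, Real.sqrt_sq_eq_abs, h0, norm_zero] at h4
    have := abs_pos.2 hc0
    linarith

end Vale.Agent.P207.N3.H442
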