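import Vale.Agent.P207.N3.H442.TenL

/-!
# P207, N3, P12: invariance and continuity of the curvature
-/

open Set Filter Topology Metric MeasureTheory
open scoped ContDiff

set_option maxSynthPendingDepth 3
set_option linter.unusedSectionVars false

noncomputable section

namespace Vale.Agent.P207.N3.H442

open H662 (tau_mem e_tau dm_open)
open H147 (ep_cont ep_smul ep_φ ep_rot)

/-! ### continuity of the action -/

theorem inv_tendsto_M {ι : Type*} {l : Filter ι} {A : ι → M2} {A₀ : M2}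
    (h : Tendsto A l (𝓝 A₀)) (hd : IsUnit A₀.det) : Tendsto (fun i => (A i)⁻¹) l (𝓝 A₀⁻¹) := by
  have h1 : Continuous fun A : M2 => A.det := Continuous.matrix_det continuous_id
  have h2 : Continuous fun A : M2 => A.adjugate := Continuous.matrix_adjugate continuous_id
  have h3 := (((h1.tendsto A₀).comp h).inv₀ hd.ne_zero).smul ((h2.tendsto A₀).comp h)
  rw [Matrix.inv_def, Ring.inverse_eq_inv']
  refine h3.congr fun i => ?_
  rw [Matrix.inv_def, Ring.inverse_eq_inv']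
  rfl

theorem tendsto_entry {ι : Type*} {l : Filter ι} {α β : Type*} {A : ι → Matrix α β ℝ}
    {A₀ : Matrix α β ℝ} (h : Tendsto A l (𝓝 A₀)) (i : α) (j : β) :
    Tendsto (fun k => A k i j) l (𝓝 (A₀ i j)) :=
  tendsto_pi_nhds.1 (tendsto_pi_nhds.1 h i) j

theorem act_tendsto {ι : Type*} {l : Filter ι} {A : ι → M2} {A₀ : M2} {C : ι → TM} {C₀ : TM}
    (h : Tendsto A l (𝓝 A₀)) (hd : IsUnit A₀.det) (hC : Tendsto C l (𝓝 C₀)) :
    Tendsto (fun i => act (A i) (C i)) l (𝓝 (act A₀ C₀)) := by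
  have hi := inv_tendsto_M h hd
  refine tendsto_pi_nhds.2 fun p => tendsto_pi_nhds.2 fun q => ?_
  obtain ⟨i, j⟩ := p
  obtain ⟨m, k⟩ := q
  simp only [act_apply]
  refine tendsto_finsetSum _ fun a _ => tendsto_finsetSum _ fun b _ =>
    tendsto_finsetSum _ fun c _ => tendsto_finsetSum _ fun d _ => ?_
  exact (((tendsto_entry h a i).mul (tendsto_entry h b j)).mul (tendsto_entry hC (a, b) (c, d))).mul
    ((tendsto_entry hi m c).mul (tendsto_entry hi k d))

variable {Γ X B : Type} [Group Γ] [MetricSpace X] [ProperSpace X] [MulAction Γ X]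
  [IsIsometricSMul Γ X] [TopologicalSpace B] [CompactSpace B] [T2Space B] [MulAction Γ B]
  [ContinuousConstSMul Γ B] {L : Leaf Γ X B} {D : B → B → ℝ}

/-! ### invariance of `D` -/

/-- the cocycle -/
def cc (L : Leaf Γ X B) (g : Γ) (ξ : B) : ℝ :=
  L.lv (g • L.flip (fr L ξ)) - L.lv (L.flip (fr L ξ))

theorem cc_eq (g : Γ) (y : X) : L.lv (g • y) = L.lv y + cc L g (L.em y) := by
  have h : L.em y = L.em (L.flip (fr L (L.em y))) := by rw [← L.ep_flip, ep_fr]
  have h1 := L.lv_smul g y _ h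
  unfold cc
  linarith

theorem D_smul (hD : ∀ x, D (L.em x) (L.ep x) = L.lv x + L.lp x) (g : Γ) {ξ η : B} (h : ξ ≠ η) :
    D (g • ξ) (g • η) = D ξ η + cc L g ξ + cc L g η := by
  obtain ⟨x, rfl, rfl, -⟩ := L.exists_frame ξ η h 0
  have h1 := hD (g • x)
  rw [L.em_smul, ep_smul] at h1
  rw [h1, hD x]
  unfold Leaf.lp
  rw [L.flip_smul, cc_eq g x, cc_eq g (L.flip x), ← L.ep_flip]
  ring

theorem D_symm (hD : ∀ x, D (L.em x) (L.ep x) = L.lv x + L.lp x) {ξ η : B} (h : ξ ≠ η) :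
    D ξ η = D η ξ := by
  obtain ⟨x, rfl, rfl, -⟩ := L.exists_frame ξ η h 0
  have h1 := hD (L.flip x)
  have e1 : L.em (L.flip x) = L.ep x := (L.ep_flip x).symm
  have e2 : L.ep (L.flip x) = L.em x := by rw [L.ep_flip, L.flip_flip]
  rw [e1, e2] at h1
  rw [h1, hD x]
  unfold Leaf.lp
  rw [L.flip_flip, add_comm]

theorem cc_smooth (S : Smooth L D) (hD : ∀ x, D (L.em x) (L.ep x) = L.lv x + L.lp x) (g : Γ)
    (x : X) {a : E2} (ha : a ∈ ball (0 : E2) 3) :
    ContDiffAt ℝ ∞ (fun a => cc L g (L.e x a)) a := by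
  have key : ∀ z : X, L.em z ≠ L.e z a → ContDiffAt ℝ ∞ (fun a => TT L D z (L.flip z) (a, 0)) a := by
    intro z hz
    have hp : (a, (0 : E2)) ∈ OD L z (L.flip z) := by
      refine ⟨ha, zero_mem, ?_⟩
      rw [L.e_zero, L.ep_flip, L.flip_flip]
      exact hz.symm
    exact (TT_smooth S hp).comp a (contDiffAt_id.prodMk contDiffAt_const)
  have hne : ∀ z : X, ∀ b ∈ ball (0 : E2) 3, L.em z ≠ L.e z b := fun z b hb =>
    (L.e_ne z b (ball_subset_closedBall hb)).symm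
  have h1 := ((key (g • x) (hne _ _ ha)).sub (key x (hne _ _ ha))).sub
    (contDiffAt_const (c := cc L g (L.em x)))
  refine h1.congr_of_eventuallyEq ?_
  filter_upwards [isOpen_ball.mem_nhds ha] with b hb
  have h2 := D_smul hD g (hne x b hb).symm
  have e1 : TT L D (g • x) (L.flip (g • x)) (b, 0) = D (g • L.e x b) (g • L.em x) := by
    unfold TT
    rw [L.e_smul g x b (ball_subset_closedBall hb), L.e_zero, L.ep_flip, L.flip_flip, L.em_smul]
  have e2 : TT L D x (L.flip x) (b, 0) = D (L.e x b) (L.em x) := by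
    unfold TT
    rw [L.e_zero, L.ep_flip, L.flip_flip]
  rw [e1, e2, h2]
  ring

/-- **The curvature is invariant.** -/
theorem Rt_smul (S : Smooth L D) (hD : ∀ x, D (L.em x) (L.ep x) = L.lv x + L.lp x) (g : Γ)
    {x : X} {η : B} (hne : η ≠ L.ep x) : Rt L D (g • x) (g • η) = Rt L D x η := by
  set y := fr L η with hy
  have hyη : L.ep y = η := ep_fr η
  have hne' : g • η ≠ L.ep (g • x) := by
    rw [ep_smul]
    exact fun h => hne (smul_left_cancel g h)
  rw [Rt_eq S (y := g • y) (b := 0) zero_mem (by rw [L.e_zero, ep_smul, hyη]) hne']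
  change _ = CM (TT L D x y) (0, 0)
  have hp : ((0 : E2), (0 : E2)) ∈ OD L x y := by
    refine ⟨zero_mem, zero_mem, ?_⟩
    rw [L.e_zero, L.e_zero, hyη]
    exact hne.symm
  have hid : fderiv ℝ (fun a : P2 => a) (0 : P2) = (ContinuousLinearEquiv.refl ℝ P2 : P2 →L[ℝ] P2) :=
    fderiv_fun_id
  have hid' : (fderiv ℝ (fun a : P2 => a) (0 : P2)).IsInvertible := ⟨_, hid.symm⟩
  have h3 : ∀ᶠ c : P2 × P2 in 𝓝 ((0 : P2), (0 : P2)), TT L D (g • x) (g • y) c =
      TT L D x y ((fun a : P2 => a) c.1, (fun a : P2 => a) c.2) +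
        (fun a : P2 => cc L g (L.e x a)) c.1 + (fun a : P2 => cc L g (L.e y a)) c.2 := by
    filter_upwards [(OD_open L x y).mem_nhds hp] with c hc
    have h4 := D_smul hD g hc.2.2
    change D (L.e (g • x) c.1) (L.e (g • y) c.2) = _
    rw [L.e_smul g x _ (ball_subset_closedBall hc.1),
      L.e_smul g y _ (ball_subset_closedBall hc.2.1), h4]
    rfl
  have h5 := CM_change (T := TT L D x y) (T' := TT L D (g • x) (g • y))
    (p' := ((0 : P2), (0 : P2))) (p := ((0 : P2), (0 : P2)))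
    (α := fun a : P2 => a) (β := fun a : P2 => a) (f := fun a : P2 => cc L g (L.e x a))
    (k := fun a : P2 => cc L g (L.e y a)) contDiffAt_id (ContinuousLinearEquiv.refl ℝ P2)
    hid contDiffAt_id hid' (cc_smooth S hD g x zero_mem) rfl (TT_smooth S hp) (TT_nd S hp) h3
  rw [h5]
  have h6 : mt ((ContinuousLinearEquiv.refl ℝ P2 : P2 ≃L[ℝ] P2) : P2 →L[ℝ] P2) = 1 := mt_id
  rw [h6, act_one]

/-! ### continuity -/

theorem tau_fderiv_tendsto (S : Smooth L D) {ι : Type*} {l : Filter ι} {x y : ι → X} {u : ι → E2}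
    {x₀ y₀ : X} {u₀ : E2} (hx : Tendsto x l (𝓝 x₀)) (hy : Tendsto y l (𝓝 y₀))
    (hu : Tendsto u l (𝓝 u₀)) (h0 : u₀ ∈ L.dm x₀ y₀) (hd : ∀ᶠ i in l, u i ∈ L.dm (x i) (y i)) :
    Tendsto (fun i => fderiv ℝ (L.τ (x i) (y i)) (u i)) l (𝓝 (fderiv ℝ (L.τ x₀ y₀) u₀)) := by
  have h1 := S.tau_cont ((x₀, y₀), u₀) h0
  have h2 : Tendsto (fun i => ((x i, y i), u i)) l
      (𝓝[{p : (X × X) × E2 | p.2 ∈ L.dm p.1.1 p.1.2}] ((x₀, y₀), u₀)) := by
    refine tendsto_nhdsWithin_iff.2 ⟨(hx.prodMk_nhds hy).prodMk_nhds hu, hd⟩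
  exact h1.tendsto.comp h2

theorem dm_ev {ι : Type*} {l : Filter ι} {x y : ι → X} {u : ι → E2}
    {x₀ y₀ : X} {u₀ : E2} (hx : Tendsto x l (𝓝 x₀)) (hy : Tendsto y l (𝓝 y₀))
    (hu : Tendsto u l (𝓝 u₀)) (h0 : u₀ ∈ L.dm x₀ y₀) : ∀ᶠ i in l, u i ∈ L.dm (x i) (y i) := by
  have h1 : Tendsto (fun i => L.e (x i) (u i)) l (𝓝 (L.e x₀ u₀)) := by
    have h2 := L.e_cont (x₀, u₀) ⟨mem_univ _, ball_subset_closedBall h0.1⟩
    have h3 : Tendsto (fun i => (x i, u i)) l (𝓝[univ ×ˢ closedBall (0 : E2) 3] (x₀, u₀)) := by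
      refine tendsto_nhdsWithin_iff.2 ⟨hx.prodMk_nhds hu, ?_⟩
      filter_upwards [hu (isOpen_ball.mem_nhds h0.1)] with i hi
      exact ⟨mem_univ _, ball_subset_closedBall hi⟩
    exact h2.tendsto.comp h3
  obtain ⟨v, hv, hve⟩ := h0.2
  rw [← hve] at h1
  filter_upwards [(L.inv_tendsto hy h1 hv).1, hu (isOpen_ball.mem_nhds h0.1)] with i h2 h3
  exact ⟨h3, h2⟩

/-- **The curvature is continuous.** -/
theorem Rt_tendsto (S : Smooth L D) {ι : Type*} {l : Filter ι} {x : ι → X} {η : ι → B}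
    {x₀ : X} {η₀ : B} (hx : Tendsto x l (𝓝 x₀)) (hη : Tendsto η l (𝓝 η₀)) (hne : η₀ ≠ L.ep x₀) :
    Tendsto (fun i => Rt L D (x i) (η i)) l (𝓝 (Rt L D x₀ η₀)) := by
  have hep : Tendsto (fun i => L.ep (x i)) l (𝓝 (L.ep x₀)) := ((ep_cont L).tendsto x₀).comp hx
  have hep' : Tendsto (fun i => L.ep (x i)) l (𝓝 (L.e x₀ 0)) := by rwa [L.e_zero]
  have hη' : Tendsto η l (𝓝 (L.e (fr L η₀) 0)) := by rwa [L.e_zero, ep_fr]
  obtain ⟨a1, a2⟩ := L.inv_tendsto (tendsto_const_nhds (x := x₀)) hep' zero_mem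
  obtain ⟨b1, b2⟩ := L.inv_tendsto (tendsto_const_nhds (x := fr L η₀)) hη' zero_mem
  have hne' : ∀ᶠ i in l, η i ≠ L.ep (x i) := by
    have h1 : Tendsto (fun i => (η i, L.ep (x i))) l (𝓝 (η₀, L.ep x₀)) := hη.prodMk_nhds hep
    exact h1.eventually ((isClosed_diagonal (X := B)).isOpen_compl.mem_nhds
      (show (η₀, L.ep x₀) ∈ (diagonal B)ᶜ from hne))
  have h0 : (0 : E2) ∈ L.dm x₀ x₀ := mem_dm zero_mem zero_mem rfl
  have h1 := tau_fderiv_tendsto S hx (tendsto_const_nhds (x := x₀))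
    (tendsto_const_nhds (x := (0 : E2))) h0 (dm_ev hx tendsto_const_nhds tendsto_const_nhds h0)
  rw [fderiv_tau_self zero_mem] at h1
  have h2 := (mt_cont.tendsto _).comp h1
  rw [mt_id] at h2
  have hp : ((0 : E2), (0 : E2)) ∈ OD L x₀ (fr L η₀) := by
    refine ⟨zero_mem, zero_mem, ?_⟩
    rw [L.e_zero, L.e_zero, ep_fr]
    exact hne.symm
  have h3 := (CM_continuousAt (TT_smooth S hp) (TT_nd S hp)).tendsto.comp (a2.prodMk_nhds b2)
  have h4 := act_tendsto h2 (by rw [Matrix.det_one]; exact isUnit_one) h3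
  rw [act_one] at h4
  refine h4.congr' ?_
  filter_upwards [a1, b1, hne'] with i ha hb hi
  exact (Rt_chart S (x := x₀) (x' := x i) (y := fr L η₀) (L.inv_mem_ball le_rfl ha)
    (L.inv_mem_ball le_rfl hb) (L.e_inv (image_mono ball_subset_closedBall ha)).symm
    (L.e_inv (image_mono ball_subset_closedBall hb)) hi).symm

/-- the curvature at the end points of a frame -/
def RX (L : Leaf Γ X B) (D : B → B → ℝ) (x : X) : TM := Rt L D x (L.em x)

theorem RX_cont (S : Smooth L D) : Continuous (RX L D) :=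
  continuous_iff_continuousAt.2 fun x =>
    Rt_tendsto S tendsto_id (L.em_cont.tendsto x) (L.em_ne_ep x)

theorem RX_smul (S : Smooth L D) (hD : ∀ x, D (L.em x) (L.ep x) = L.lv x + L.lp x) (g : Γ)
    (x : X) : RX L D (g • x) = RX L D x := by
  unfold RX
  rw [L.em_smul, Rt_smul S hD g (L.em_ne_ep x)]

/-- Lipschitz continuity in a chart -/
theorem CM_lip (S : Smooth L D) {x y : X} (hne : L.ep y ≠ L.ep x) :
    ∃ K r : ℝ, 0 ≤ K ∧ 0 < r ∧ r ≤ 3 ∧ ∀ b ∈ ball (0 : E2) r, ∀ b' ∈ ball (0 : E2) r, ∀ p q,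
      |CM (TT L D x y) (0, b) p q - CM (TT L D x y) (0, b') p q| ≤ K * ‖b - b'‖ := by
  have hp : ((0 : E2), (0 : E2)) ∈ OD L x y := by
    refine ⟨zero_mem, zero_mem, ?_⟩
    rw [L.e_zero, L.e_zero]
    exact hne.symm
  have h1 : ∀ p q, ∃ K : NNReal, ∃ t ∈ 𝓝 (0 : E2), LipschitzOnWith K
      (fun b : E2 => CM (TT L D x y) (0, b) p q) t := by
    intro p q
    have h2 : ContDiffAt ℝ ∞ (fun b : E2 => CM (TT L D x y) (0, b) p q) 0 :=
      (CM_contDiffAt (TT_smooth S hp) (TT_nd S hp) p q).comp (0 : E2)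
        (contDiffAt_const.prodMk contDiffAt_id)
    exact (h2.of_le (by simp : (1 : WithTop ℕ∞) ≤ ∞)).exists_lipschitzOnWith
  choose K t ht hK using h1
  have h3 : (⋂ p, ⋂ q, t p q) ∈ 𝓝 (0 : E2) :=
    (Filter.iInter_mem).2 fun p => (Filter.iInter_mem).2 fun q => ht p q
  obtain ⟨r, hr, hb⟩ := Metric.mem_nhds_iff.1 h3
  refine ⟨∑ p, ∑ q, (K p q : ℝ), min r 3, by positivity, lt_min hr (by norm_num), min_le_right _ _,
    fun b hb1 b' hb2 p q => ?_⟩
  have e1 : b ∈ t p q := mem_iInter.1 (mem_iInter.1 (hb (ball_subset_ball (min_le_left _ _) hb1)) p) q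
  have e2 : b' ∈ t p q :=
    mem_iInter.1 (mem_iInter.1 (hb (ball_subset_ball (min_le_left _ _) hb2)) p) q
  have h4 := (hK p q).dist_le_mul b e1 b' e2
  rw [Real.dist_eq, dist_eq_norm] at h4
  refine h4.trans (mul_le_mul_of_nonneg_right ?_ (norm_nonneg _))
  calc (K p q : ℝ) ≤ ∑ q, (K p q : ℝ) :=
        Finset.single_le_sum (f := fun q => (K p q : ℝ)) (fun q _ => NNReal.coe_nonneg _)
          (Finset.mem_univ q)
    _ ≤ _ := Finset.single_le_sum (f := fun p => ∑ q, (K p q : ℝ))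
          (fun p _ => Finset.sum_nonneg fun q _ => NNReal.coe_nonneg _) (Finset.mem_univ p)

end Vale.Agent.P207.N3.H442
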