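import Vale.Agent.P207.N3.H442.DQ

/-!
# P207, N3, P12: the tensor of a function of two variables

For a function `T (a, b)` with nondegenerate mixed derivative, `q = ∂_a T` is, for fixed `a`, a
local coordinate in the variable `b`; the curvature `Cu T` is the second derivative of `∂_a² T` with
respect to this coordinate. It is a tensor.
-/

open Set Filter Topology ContinuousLinearMap
open scoped ContDiff

set_option maxSynthPendingDepth 3
set_option linter.unusedSectionVars false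

noncomputable section

namespace Vale.Agent.P207.N3.H442

section Two

variable {V W F G : Type*} [NormedAddCommGroup V] [NormedSpace ℝ V]
  [NormedAddCommGroup W] [NormedSpace ℝ W] [NormedAddCommGroup F] [NormedSpace ℝ F]
  [NormedAddCommGroup G] [NormedSpace ℝ G]

/-- partial derivative in the first variable -/
def dA (f : V × W → F) (p : V × W) : V →L[ℝ] F := fderiv ℝ (fun a => f (a, p.2)) p.1

/-- partial derivative in the second variable -/
def dB (f : V × W → F) (p : V × W) : W →L[ℝ] F := fderiv ℝ (fun b => f (p.1, b)) p.2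

theorem dA_eq {f : V × W → F} {p : V × W} (h : DifferentiableAt ℝ f p) :
    dA f p = (fderiv ℝ f p).comp (.inl ℝ V W) :=
  (HasFDerivAt.comp (g := f) p.1 h.hasFDerivAt (hasFDerivAt_prodMk_left p.1 p.2)).fderiv

theorem dB_eq {f : V × W → F} {p : V × W} (h : DifferentiableAt ℝ f p) :
    dB f p = (fderiv ℝ f p).comp (.inr ℝ V W) :=
  (HasFDerivAt.comp (g := f) p.2 h.hasFDerivAt (hasFDerivAt_prodMk_right p.1 p.2)).fderiv

theorem hasFDerivAt_dA {f : V × W → F} {p : V × W} (h : DifferentiableAt ℝ f p) :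
    HasFDerivAt (fun a => f (a, p.2)) (dA f p) p.1 := by
  rw [dA_eq h]
  exact HasFDerivAt.comp (g := f) p.1 h.hasFDerivAt (hasFDerivAt_prodMk_left p.1 p.2)

theorem hasFDerivAt_dB {f : V × W → F} {p : V × W} (h : DifferentiableAt ℝ f p) :
    HasFDerivAt (fun b => f (p.1, b)) (dB f p) p.2 := by
  rw [dB_eq h]
  exact HasFDerivAt.comp (g := f) p.2 h.hasFDerivAt (hasFDerivAt_prodMk_right p.1 p.2)

theorem dA_contDiffAt {f : V × W → F} {p : V × W} (h : ContDiffAt ℝ ∞ f p) :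
    ContDiffAt ℝ ∞ (dA f) p := by
  have h1 : ContDiffAt ℝ ∞ (fun p => (fderiv ℝ f p).comp (.inl ℝ V W)) p :=
    (h.fderiv_right (m := ∞) le_rfl).clm_comp contDiffAt_const
  refine h1.congr_of_eventuallyEq ?_
  filter_upwards [contDiffAt_ev h] with q hq using dA_eq hq

theorem dB_contDiffAt {f : V × W → F} {p : V × W} (h : ContDiffAt ℝ ∞ f p) :
    ContDiffAt ℝ ∞ (dB f) p := by
  have h1 : ContDiffAt ℝ ∞ (fun p => (fderiv ℝ f p).comp (.inr ℝ V W)) p :=
    (h.fderiv_right (m := ∞) le_rfl).clm_comp contDiffAt_const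
  refine h1.congr_of_eventuallyEq ?_
  filter_upwards [contDiffAt_ev h] with q hq using dB_eq hq

theorem dA_congr {f f' : V × W → F} {p : V × W} (h : f =ᶠ[𝓝 p] f') : dA f p = dA f' p := by
  unfold dA
  refine Filter.EventuallyEq.fderiv_eq ?_
  have h1 : Tendsto (fun a : V => (a, p.2)) (𝓝 p.1) (𝓝 p) :=
    (Continuous.prodMk_left p.2).tendsto' _ _ rfl
  exact h1.eventually h

theorem dB_congr {f f' : V × W → F} {p : V × W} (h : f =ᶠ[𝓝 p] f') : dB f p = dB f' p := by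
  unfold dB
  refine Filter.EventuallyEq.fderiv_eq ?_
  have h1 : Tendsto (fun b : W => (p.1, b)) (𝓝 p.2) (𝓝 p) :=
    (Continuous.prodMk_right p.1).tendsto' _ _ rfl
  exact h1.eventually h

theorem dA_congr_ev {f f' : V × W → F} {p : V × W} (h : f =ᶠ[𝓝 p] f') :
    dA f =ᶠ[𝓝 p] dA f' := by
  filter_upwards [h.eventuallyEq_nhds] with q hq using dA_congr hq

theorem dB_congr_ev {f f' : V × W → F} {p : V × W} (h : f =ᶠ[𝓝 p] f') :
    dB f =ᶠ[𝓝 p] dB f' := by
  filter_upwards [h.eventuallyEq_nhds] with q hq using dB_congr hq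

/-- mixed derivatives commute -/
theorem dA_dB {f : V × W → F} {p : V × W} (h : ContDiffAt ℝ ∞ f p) (v : V) (w : W) :
    dA (dB f) p v w = dB (dA f) p w v := by
  have hs : IsSymmSndFDerivAt ℝ f p := h.isSymmSndFDerivAt (by simpa using two_le_infty)
  have h2 : DifferentiableAt ℝ (fderiv ℝ f) p :=
    (contDiffAt_ev (h.fderiv_right (m := ∞) le_rfl)).self_of_nhds
  have e1 : dB f =ᶠ[𝓝 p] fun p => (fderiv ℝ f p).comp (.inr ℝ V W) := by
    filter_upwards [contDiffAt_ev h] with q hq using dB_eq hq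
  have e2 : dA f =ᶠ[𝓝 p] fun p => (fderiv ℝ f p).comp (.inl ℝ V W) := by
    filter_upwards [contDiffAt_ev h] with q hq using dA_eq hq
  have a1 : HasFDerivAt (fun p => (fderiv ℝ f p).comp (.inr ℝ V W))
      (((compL ℝ W (V × W) F).flip (.inr ℝ V W)).comp (fderiv ℝ (fderiv ℝ f) p)) p :=
    ((compL ℝ W (V × W) F).flip (.inr ℝ V W)).hasFDerivAt.comp p h2.hasFDerivAt
  have a2 : HasFDerivAt (fun p => (fderiv ℝ f p).comp (.inl ℝ V W))
      (((compL ℝ V (V × W) F).flip (.inl ℝ V W)).comp (fderiv ℝ (fderiv ℝ f) p)) p :=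
    ((compL ℝ V (V × W) F).flip (.inl ℝ V W)).hasFDerivAt.comp p h2.hasFDerivAt
  rw [dA_congr e1, dB_congr e2, dA_eq a1.differentiableAt, dB_eq a2.differentiableAt, a1.fderiv,
    a2.fderiv]
  change fderiv ℝ (fderiv ℝ f) p (v, 0) (0, w) = fderiv ℝ (fderiv ℝ f) p (0, w) (v, 0)
  exact hs.eq _ _

/-- the derivative with respect to the coordinate `q (a, ·)` -/
def D2 (q : V × W → G) (f : V × W → F) (p : V × W) : G →L[ℝ] F :=
  DQ (fun b => q (p.1, b)) (fun b => f (p.1, b)) p.2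

theorem D2_eq (q : V × W → G) (f : V × W → F) (p : V × W) :
    D2 q f p = (dB f p).comp (dB q p).inverse := rfl

theorem D2_congr {q q' : V × W → G} {f f' : V × W → F} {p : V × W} (hq : q =ᶠ[𝓝 p] q')
    (hf : f =ᶠ[𝓝 p] f') : D2 q f p = D2 q' f' p := by
  rw [D2_eq, D2_eq, dB_congr hq, dB_congr hf]

theorem D2_congr_ev {q q' : V × W → G} {f f' : V × W → F} {p : V × W} (hq : q =ᶠ[𝓝 p] q')
    (hf : f =ᶠ[𝓝 p] f') : D2 q f =ᶠ[𝓝 p] D2 q' f' := by
  filter_upwards [hq.eventuallyEq_nhds, hf.eventuallyEq_nhds] with c h1 h2 using D2_congr h1 h2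

theorem D2_contDiffAt [CompleteSpace W] {q : V × W → G} {f : V × W → F} {p : V × W}
    (hq : ContDiffAt ℝ ∞ q p) (hi : (dB q p).IsInvertible) (hf : ContDiffAt ℝ ∞ f p) :
    ContDiffAt ℝ ∞ (D2 q f) p := by
  have h3 : ContDiffAt ℝ ∞ (fun c => (dB q c).inverse) p :=
    ContDiffAt.comp (g := ContinuousLinearMap.inverse) p hi.contDiffAt_map_inverse
      (dB_contDiffAt hq)
  exact (dB_contDiffAt hf).clm_comp h3

/-- nondegeneracy of the mixed derivative -/
def ND (T : V × W → ℝ) (p : V × W) : Prop := (dB (dA T) p).IsInvertible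

theorem ND_ev [CompleteSpace W] {T : V × W → ℝ} {p : V × W} (hT : ContDiffAt ℝ ∞ T p)
    (hi : ND T p) : ∀ᶠ c in 𝓝 p, ND T c := by
  have h1 : ContinuousAt (dB (dA T)) p := (dB_contDiffAt (dA_contDiffAt hT)).continuousAt
  obtain ⟨e, he⟩ := hi
  have h2 : range ((↑) : (W ≃L[ℝ] (V →L[ℝ] ℝ)) → W →L[ℝ] (V →L[ℝ] ℝ)) ∈ 𝓝 (dB (dA T) p) := by
    rw [← he]
    exact ContinuousLinearEquiv.nhds e
  filter_upwards [h1 h2] with c hc
  exact hc

theorem slice_contDiffAt {f : V × W → F} {p : V × W} (h : ContDiffAt ℝ ∞ f p) :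
    ContDiffAt ℝ ∞ (fun b => f (p.1, b)) p.2 := by
  have h1 : ContDiffAt ℝ ∞ (fun b : W => (p.1, b)) p.2 := contDiffAt_const.prodMk contDiffAt_id
  exact ContDiffAt.comp (g := f) p.2 h h1

theorem D2_clm {F' : Type*} [NormedAddCommGroup F'] [NormedSpace ℝ F'] {q : V × W → G}
    {f : V × W → F} {p : V × W} (L : F →L[ℝ] F') (hf : DifferentiableAt ℝ f p) :
    D2 q (fun b => L (f b)) p = L ∘L D2 q f p :=
  DQ_clm (q := fun b => q (p.1, b)) (f := fun b => f (p.1, b)) L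
    (hasFDerivAt_dB hf).differentiableAt

/-- directional derivative in the first variable -/
def dv (v : V) (f : V × W → ℝ) (p : V × W) : ℝ := dA f p v

/-- derivative in the direction `ζ` of the local coordinate `q (a, ·)` -/
def DZ (q : V × W → G) (ζ : G) (f : V × W → ℝ) (p : V × W) : ℝ := D2 q f p ζ

theorem dv_contDiffAt {f : V × W → ℝ} {p : V × W} (v : V) (h : ContDiffAt ℝ ∞ f p) :
    ContDiffAt ℝ ∞ (dv v f) p := (dA_contDiffAt h).clm_apply contDiffAt_const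

theorem DZ_contDiffAt [CompleteSpace W] {q : V × W → G} {f : V × W → ℝ} {p : V × W} (ζ : G)
    (hq : ContDiffAt ℝ ∞ q p) (hi : (dB q p).IsInvertible) (hf : ContDiffAt ℝ ∞ f p) :
    ContDiffAt ℝ ∞ (DZ q ζ f) p := (D2_contDiffAt hq hi hf).clm_apply contDiffAt_const

theorem dv_congr {f f' : V × W → ℝ} {p : V × W} (v : V) (h : f =ᶠ[𝓝 p] f') :
    dv v f p = dv v f' p := by unfold dv; rw [dA_congr h]

theorem dv_congr_ev {f f' : V × W → ℝ} {p : V × W} (v : V) (h : f =ᶠ[𝓝 p] f') :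
    dv v f =ᶠ[𝓝 p] dv v f' := by
  filter_upwards [h.eventuallyEq_nhds] with q hq using dv_congr v hq

theorem DZ_congr {q q' : V × W → G} {f f' : V × W → ℝ} {p : V × W} (ζ : G) (hq : q =ᶠ[𝓝 p] q')
    (hf : f =ᶠ[𝓝 p] f') : DZ q ζ f p = DZ q' ζ f' p := by unfold DZ; rw [D2_congr hq hf]

theorem DZ_congr_ev {q q' : V × W → G} {f f' : V × W → ℝ} {p : V × W} (ζ : G)
    (hq : q =ᶠ[𝓝 p] q') (hf : f =ᶠ[𝓝 p] f') : DZ q ζ f =ᶠ[𝓝 p] DZ q' ζ f' := by
  filter_upwards [hq.eventuallyEq_nhds, hf.eventuallyEq_nhds] with c h1 h2 using DZ_congr ζ h1 h2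

/-- **The curvature.** -/
def Cu (T : V × W → ℝ) (v w : V) (ζ ζ' : V →L[ℝ] ℝ) : V × W → ℝ :=
  DZ (dA T) ζ (DZ (dA T) ζ' (dv v (dv w T)))

section Smooth

variable [CompleteSpace W] {T : V × W → ℝ} {p : V × W} (hT : ContDiffAt ℝ ∞ T p) (hi : ND T p)
include hT hi

theorem Cu_contDiffAt (v w : V) (ζ ζ' : V →L[ℝ] ℝ) : ContDiffAt ℝ ∞ (Cu T v w ζ ζ') p :=
  DZ_contDiffAt ζ (dA_contDiffAt hT) hi
    (DZ_contDiffAt ζ' (dA_contDiffAt hT) hi (dv_contDiffAt v (dv_contDiffAt w hT)))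

/-- a second derivative of a scalar function as a bilinear form -/
theorem DZ_DZ {f : V × W → ℝ} (hf : ContDiffAt ℝ ∞ f p) (ζ ζ' : V →L[ℝ] ℝ) :
    DZ (dA T) ζ (DZ (dA T) ζ' f) p = DQ (fun b => dA T (p.1, b))
      (DQ (fun b => dA T (p.1, b)) (fun b => f (p.1, b))) p.2 ζ ζ' := by
  have hD : ContDiffAt ℝ ∞ (DQ (fun b => dA T (p.1, b)) (fun b => f (p.1, b))) p.2 :=
    DQ_contDiffAt (slice_contDiffAt (dA_contDiffAt hT)) hi (slice_contDiffAt hf)
  have h1 := DQ_clm (q := fun b => dA T (p.1, b))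
    (f := DQ (fun b => dA T (p.1, b)) (fun b => f (p.1, b)))
    (b := p.2) (ContinuousLinearMap.apply ℝ ℝ ζ') (contDiffAt_ev hD).self_of_nhds
  have h2 := congrArg (fun A : (V →L[ℝ] ℝ) →L[ℝ] ℝ => A ζ) h1
  exact h2

theorem Cu_symm (v w : V) (ζ ζ' : V →L[ℝ] ℝ) : Cu T v w ζ ζ' p = Cu T v w ζ' ζ p := by
  have hf := dv_contDiffAt v (dv_contDiffAt w hT)
  unfold Cu
  rw [DZ_DZ hT hi hf, DZ_DZ hT hi hf]
  exact DQ_symm (slice_contDiffAt (dA_contDiffAt hT)) hi (slice_contDiffAt hf) ζ ζ'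

end Smooth

theorem dv_dv_symm {T : V × W → ℝ} {p : V × W} (hT : ContDiffAt ℝ 2 T p) (v w : V) :
    dv v (dv w T) p = dv w (dv v T) p := by
  have h1 : ContDiffAt ℝ 2 (fun a : V => (a, p.2)) p.1 := contDiffAt_id.prodMk contDiffAt_const
  have h2 : ContDiffAt ℝ 2 (fun a => T (a, p.2)) p.1 := ContDiffAt.comp (g := T) p.1 hT h1
  have h3 : DifferentiableAt ℝ (fderiv ℝ (fun a => T (a, p.2))) p.1 :=
    (h2.fderiv_right (m := 1) (by norm_num)).differentiableAt one_ne_zero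
  have e : ∀ v w, dv v (dv w T) p = fderiv ℝ (fderiv ℝ (fun a => T (a, p.2))) p.1 v w := by
    intro v w
    have a1 : HasFDerivAt (fun a => fderiv ℝ (fun a => T (a, p.2)) a w)
      ((ContinuousLinearMap.apply ℝ ℝ w).comp (fderiv ℝ (fderiv ℝ (fun a => T (a, p.2))) p.1)) p.1 :=
      (ContinuousLinearMap.apply ℝ ℝ w).hasFDerivAt.comp p.1 h3.hasFDerivAt
    have a2 := congrArg (fun A : V →L[ℝ] ℝ => A v) a1.fderiv
    exact a2
  rw [e, e]
  exact (h2.isSymmSndFDerivAt (by simp)).eq v w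

end Two

end Vale.Agent.P207.N3.H442
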