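import Vale.Agent.P207.N3.H442.Loc

/-!
# P207, N3, P12: linearity and change of coordinates for the curvature
-/

open Set Filter Topology ContinuousLinearMap
open scoped ContDiff

set_option maxSynthPendingDepth 3
set_option linter.unusedSectionVars false

noncomputable section

namespace Vale.Agent.P207.N3.H442

section Lin

variable {V W G : Type*} [NormedAddCommGroup V] [NormedSpace ℝ V]
  [NormedAddCommGroup W] [NormedSpace ℝ W] [NormedAddCommGroup G] [NormedSpace ℝ G]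

theorem dB_lin {f f₁ f₂ : V × W → ℝ} {p : V × W} (c₁ c₂ : ℝ)
    (h : f =ᶠ[𝓝 p] fun x => c₁ * f₁ x + c₂ * f₂ x) (h1 : DifferentiableAt ℝ f₁ p)
    (h2 : DifferentiableAt ℝ f₂ p) : dB f p = c₁ • dB f₁ p + c₂ • dB f₂ p := by
  rw [dB_congr h]
  exact (((hasFDerivAt_dB h1).const_mul c₁).add ((hasFDerivAt_dB h2).const_mul c₂)).fderiv

theorem dA_lin {f f₁ f₂ : V × W → ℝ} {p : V × W} (c₁ c₂ : ℝ)
    (h : f =ᶠ[𝓝 p] fun x => c₁ * f₁ x + c₂ * f₂ x) (h1 : DifferentiableAt ℝ f₁ p)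
    (h2 : DifferentiableAt ℝ f₂ p) : dA f p = c₁ • dA f₁ p + c₂ • dA f₂ p := by
  rw [dA_congr h]
  exact (((hasFDerivAt_dA h1).const_mul c₁).add ((hasFDerivAt_dA h2).const_mul c₂)).fderiv

theorem DZ_lin {q : V × W → G} {f f₁ f₂ : V × W → ℝ} {p : V × W} (ζ : G) (c₁ c₂ : ℝ)
    (h : f =ᶠ[𝓝 p] fun x => c₁ * f₁ x + c₂ * f₂ x) (h1 : DifferentiableAt ℝ f₁ p)
    (h2 : DifferentiableAt ℝ f₂ p) : DZ q ζ f p = c₁ * DZ q ζ f₁ p + c₂ * DZ q ζ f₂ p := by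
  unfold DZ
  rw [D2_eq, D2_eq, D2_eq, dB_lin c₁ c₂ h h1 h2]
  simp

theorem DZ_lin_ev {q : V × W → G} {f f₁ f₂ : V × W → ℝ} {p : V × W} (ζ : G) (c₁ c₂ : ℝ)
    (h : f =ᶠ[𝓝 p] fun x => c₁ * f₁ x + c₂ * f₂ x) (h1 : ContDiffAt ℝ ∞ f₁ p)
    (h2 : ContDiffAt ℝ ∞ f₂ p) :
    DZ q ζ f =ᶠ[𝓝 p] fun x => c₁ * DZ q ζ f₁ x + c₂ * DZ q ζ f₂ x := by
  filter_upwards [h.eventuallyEq_nhds, contDiffAt_ev h1, contDiffAt_ev h2] with x a1 a2 a3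
    using DZ_lin ζ c₁ c₂ a1 a2 a3

theorem DZ_dir (q : V × W → G) (f : V × W → ℝ) (p : V × W) (c₁ c₂ : ℝ) (ζ₁ ζ₂ : G) :
    DZ q (c₁ • ζ₁ + c₂ • ζ₂) f p = c₁ * DZ q ζ₁ f p + c₂ * DZ q ζ₂ f p := by
  unfold DZ
  simp

theorem dv_dir (f : V × W → ℝ) (p : V × W) (c₁ c₂ : ℝ) (v₁ v₂ : V) :
    dv (c₁ • v₁ + c₂ • v₂) f p = c₁ * dv v₁ f p + c₂ * dv v₂ f p := by
  unfold dv
  simp

theorem dv_lin {f f₁ f₂ : V × W → ℝ} {p : V × W} (v : V) (c₁ c₂ : ℝ)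
    (h : f =ᶠ[𝓝 p] fun x => c₁ * f₁ x + c₂ * f₂ x) (h1 : DifferentiableAt ℝ f₁ p)
    (h2 : DifferentiableAt ℝ f₂ p) : dv v f p = c₁ * dv v f₁ p + c₂ * dv v f₂ p := by
  unfold dv
  rw [dA_lin c₁ c₂ h h1 h2]
  simp

theorem dv_lin_ev {f f₁ f₂ : V × W → ℝ} {p : V × W} (v : V) (c₁ c₂ : ℝ)
    (h : f =ᶠ[𝓝 p] fun x => c₁ * f₁ x + c₂ * f₂ x) (h1 : ContDiffAt ℝ ∞ f₁ p)
    (h2 : ContDiffAt ℝ ∞ f₂ p) : dv v f =ᶠ[𝓝 p] fun x => c₁ * dv v f₁ x + c₂ * dv v f₂ x := by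
  filter_upwards [h.eventuallyEq_nhds, contDiffAt_ev h1, contDiffAt_ev h2] with x a1 a2 a3
    using dv_lin v c₁ c₂ a1 a2 a3

variable [CompleteSpace W] {T : V × W → ℝ} {p : V × W} (hT : ContDiffAt ℝ ∞ T p) (hi : ND T p)
include hT hi

/-- linearity in the function of the second derivative -/
theorem DZ_DZ_lin {f f₁ f₂ : V × W → ℝ} (c₁ c₂ : ℝ) (ζ ζ' : V →L[ℝ] ℝ)
    (h : f =ᶠ[𝓝 p] fun x => c₁ * f₁ x + c₂ * f₂ x) (h1 : ContDiffAt ℝ ∞ f₁ p)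
    (h2 : ContDiffAt ℝ ∞ f₂ p) : DZ (dA T) ζ (DZ (dA T) ζ' f) p =
      c₁ * DZ (dA T) ζ (DZ (dA T) ζ' f₁) p + c₂ * DZ (dA T) ζ (DZ (dA T) ζ' f₂) p :=
  DZ_lin ζ c₁ c₂ (DZ_lin_ev ζ' c₁ c₂ h h1 h2)
    (contDiffAt_ev (DZ_contDiffAt ζ' (dA_contDiffAt hT) hi h1)).self_of_nhds
    (contDiffAt_ev (DZ_contDiffAt ζ' (dA_contDiffAt hT) hi h2)).self_of_nhds

theorem Cu_lin₁ (v₁ v₂ w : V) (c₁ c₂ : ℝ) (ζ ζ' : V →L[ℝ] ℝ) :
    Cu T (c₁ • v₁ + c₂ • v₂) w ζ ζ' p = c₁ * Cu T v₁ w ζ ζ' p + c₂ * Cu T v₂ w ζ ζ' p := by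
  unfold Cu
  refine DZ_DZ_lin hT hi c₁ c₂ ζ ζ' ?_ (dv_contDiffAt _ (dv_contDiffAt _ hT))
    (dv_contDiffAt _ (dv_contDiffAt _ hT))
  exact Filter.Eventually.of_forall fun x => dv_dir _ x c₁ c₂ v₁ v₂

theorem Cu_lin₂ (v w₁ w₂ : V) (c₁ c₂ : ℝ) (ζ ζ' : V →L[ℝ] ℝ) :
    Cu T v (c₁ • w₁ + c₂ • w₂) ζ ζ' p = c₁ * Cu T v w₁ ζ ζ' p + c₂ * Cu T v w₂ ζ ζ' p := by
  unfold Cu
  refine DZ_DZ_lin hT hi c₁ c₂ ζ ζ' ?_ (dv_contDiffAt _ (dv_contDiffAt _ hT))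
    (dv_contDiffAt _ (dv_contDiffAt _ hT))
  refine dv_lin_ev v c₁ c₂ ?_ (dv_contDiffAt _ hT) (dv_contDiffAt _ hT)
  exact Filter.Eventually.of_forall fun x => dv_dir _ x c₁ c₂ w₁ w₂

omit [CompleteSpace W] hT hi in
theorem Cu_lin₃ (v w : V) (c₁ c₂ : ℝ) (ζ₁ ζ₂ ζ' : V →L[ℝ] ℝ) :
    Cu T v w (c₁ • ζ₁ + c₂ • ζ₂) ζ' p = c₁ * Cu T v w ζ₁ ζ' p + c₂ * Cu T v w ζ₂ ζ' p :=
  DZ_dir _ _ _ _ _ _ _

theorem Cu_lin₄ (v w : V) (c₁ c₂ : ℝ) (ζ ζ₁ ζ₂ : V →L[ℝ] ℝ) :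
    Cu T v w ζ (c₁ • ζ₁ + c₂ • ζ₂) p = c₁ * Cu T v w ζ ζ₁ p + c₂ * Cu T v w ζ ζ₂ p := by
  rw [Cu_symm hT hi, Cu_lin₃, Cu_symm hT hi v w ζ₁, Cu_symm hT hi v w ζ₂]

theorem Cu_symm' (v w : V) (ζ ζ' : V →L[ℝ] ℝ) : Cu T v w ζ ζ' p = Cu T w v ζ ζ' p := by
  have hT' : ∀ᶠ c in 𝓝 p, ContDiffAt ℝ 2 T c := by
    have : ContDiffAt ℝ 2 T p := hT.of_le two_le_infty
    exact this.eventually (by simp)
  have e1 : dv v (dv w T) =ᶠ[𝓝 p] dv w (dv v T) := by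
    filter_upwards [hT'] with c hc using dv_dv_symm hc v w
  exact DZ_congr ζ (Filter.EventuallyEq.refl _ _) (DZ_congr_ev ζ' (Filter.EventuallyEq.refl _ _) e1)

end Lin

section Change

variable {V W V' W' : Type*} [NormedAddCommGroup V] [NormedSpace ℝ V]
  [NormedAddCommGroup W] [NormedSpace ℝ W] [NormedAddCommGroup V'] [NormedSpace ℝ V']
  [NormedAddCommGroup W'] [NormedSpace ℝ W']

/-- the one variable form of the change of coordinates, for scalar functions -/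
theorem Dz_change {G G' : Type*} [NormedAddCommGroup G] [NormedSpace ℝ G]
    [NormedAddCommGroup G'] [NormedSpace ℝ G'] {q : W → G} {q' : W' → G'} {f : W → ℝ}
    {f' : W' → ℝ} {β : W' → W} {b₀ : W'}
    (P : G ≃L[ℝ] G') (L : G →L[ℝ] ℝ) (v : G') (w : ℝ)
    (hβc : ContinuousAt β b₀)
    (hβ : ∀ᶠ b in 𝓝 b₀, DifferentiableAt ℝ β b ∧ (fderiv ℝ β b).IsInvertible)
    (hq : ∀ᶠ c in 𝓝 (β b₀), DifferentiableAt ℝ q c ∧ (fderiv ℝ q c).IsInvertible)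
    (hf : ∀ᶠ c in 𝓝 (β b₀), DifferentiableAt ℝ f c)
    (hq' : ∀ᶠ b in 𝓝 b₀, q' b = P (q (β b)) + v)
    (hf' : ∀ᶠ b in 𝓝 b₀, f' b = f (β b) + L (q (β b)) + w) (ζ : G') :
    ∀ᶠ b in 𝓝 b₀, DQ q' f' b ζ = DQ q f (β b) (P.symm ζ) + L (P.symm ζ) := by
  filter_upwards [DQ_change P (.id ℝ ℝ) L v w hβc hβ hq hf hq' hf'] with b hb
  rw [hb]
  rfl

/-- the dual of an isomorphism -/
def dualE (P : V' ≃L[ℝ] V) : (V →L[ℝ] ℝ) ≃L[ℝ] (V' →L[ℝ] ℝ) :=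
  P.symm.arrowCongr (.refl ℝ ℝ)

theorem dualE_apply (P : V' ≃L[ℝ] V) (ζ : V →L[ℝ] ℝ) :
    dualE P ζ = ζ ∘L (P : V' →L[ℝ] V) := by
  ext v
  simp [dualE]

theorem dualE_symm_apply (P : V' ≃L[ℝ] V) (ζ : V' →L[ℝ] ℝ) :
    (dualE P).symm ζ = ζ ∘L (P.symm : V →L[ℝ] V') := by
  ext v
  simp [dualE]

/-- **The curvature is a tensor.** -/
theorem Cu_change [CompleteSpace W] [CompleteSpace W'] {T : V × W → ℝ} {T' : V' × W' → ℝ}
    {α : V' → V} {β : W' → W} {f : V' → ℝ} {k : W' → ℝ} {p' : V' × W'} {p : V × W}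
    (hα : ContDiffAt ℝ ∞ α p'.1) (P : V' ≃L[ℝ] V) (hP : fderiv ℝ α p'.1 = P)
    (hβ : ContDiffAt ℝ ∞ β p'.2) (hβi : (fderiv ℝ β p'.2).IsInvertible)
    (hf : ContDiffAt ℝ ∞ f p'.1) (hp : p = (α p'.1, β p'.2))
    (hT : ContDiffAt ℝ ∞ T p) (hi : ND T p)
    (hT' : ∀ᶠ c in 𝓝 p', T' c = T (α c.1, β c.2) + f c.1 + k c.2)
    (v w : V') (ζ ζ' : V' →L[ℝ] ℝ) :
    Cu T' v w ζ ζ' p' = Cu T (P v) (P w) (ζ ∘L (P.symm : V →L[ℝ] V'))
      (ζ' ∘L (P.symm : V →L[ℝ] V')) p := by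
  subst hp
  set φ : V' × W' → V × W := fun c => (α c.1, β c.2) with hφ
  have hφc : ContDiffAt ℝ ∞ φ p' := by
    have h1 : ContDiffAt ℝ ∞ (fun c : V' × W' => α c.1) p' :=
      ContDiffAt.comp (g := α) p' hα contDiffAt_fst
    have h2 : ContDiffAt ℝ ∞ (fun c : V' × W' => β c.2) p' :=
      ContDiffAt.comp (g := β) p' hβ contDiffAt_snd
    exact h1.prodMk h2
  have t1 : Tendsto (fun c : V' × W' => c.1) (𝓝 p') (𝓝 p'.1) := continuous_fst.tendsto p'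
  have t2 : Tendsto (fun c : V' × W' => c.2) (𝓝 p') (𝓝 p'.2) := continuous_snd.tendsto p'
  have tφ : Tendsto φ (𝓝 p') (𝓝 (φ p')) := hφc.continuousAt
  have hα' : ContDiffAt ℝ ∞ (fderiv ℝ α) p'.1 := hα.fderiv_right (m := ∞) le_rfl
  have hf' : ContDiffAt ℝ ∞ (fderiv ℝ f) p'.1 := hf.fderiv_right (m := ∞) le_rfl
  -- first derivative
  have A : ∀ᶠ c in 𝓝 p', dA T' c = (dA T (φ c)).comp (fderiv ℝ α c.1) + fderiv ℝ f c.1 := by
    filter_upwards [hT'.eventually_nhds, t1.eventually (contDiffAt_ev hα),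
      t1.eventually (contDiffAt_ev hf), tφ.eventually (contDiffAt_ev hT)] with c h1 h2 h3 h4
    have h5 : ∀ᶠ a in 𝓝 c.1, T' (a, c.2) = T (α a, β c.2) + f a + k c.2 := by
      have : Tendsto (fun a : V' => (a, c.2)) (𝓝 c.1) (𝓝 c) :=
        (Continuous.prodMk_left c.2).tendsto' _ _ rfl
      exact this.eventually h1
    have h6 : HasFDerivAt (fun a => T (α a, β c.2)) ((dA T (φ c)).comp (fderiv ℝ α c.1)) c.1 :=
      HasFDerivAt.comp (g := fun a => T (a, β c.2)) c.1 (hasFDerivAt_dA (p := φ c) h4)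
        h2.hasFDerivAt
    have h7 := ((h6.add h3.hasFDerivAt).add_const (k c.2))
    exact (h7.congr_of_eventuallyEq h5).fderiv
  -- second derivative, at the point `a = p'.1`
  have B : ∀ᶠ c in 𝓝 p', dv v (dv w T') c = dv (fderiv ℝ α c.1 v) (dv (fderiv ℝ α c.1 w) T) (φ c)
      + dA T (φ c) (fderiv ℝ (fderiv ℝ α) c.1 v w) + fderiv ℝ (fderiv ℝ f) c.1 v w := by
    filter_upwards [A.eventually_nhds, t1.eventually (contDiffAt_ev hα),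
      t1.eventually (contDiffAt_ev hα'), t1.eventually (contDiffAt_ev hf'),
      tφ.eventually (contDiffAt_ev (dA_contDiffAt hT))] with c h1 h2 h3 h4 h5
    have h6 : ∀ᶠ a in 𝓝 c.1, dv w T' (a, c.2) =
        dA T (α a, β c.2) (fderiv ℝ α a w) + fderiv ℝ f a w := by
      have : Tendsto (fun a : V' => (a, c.2)) (𝓝 c.1) (𝓝 c) :=
        (Continuous.prodMk_left c.2).tendsto' _ _ rfl
      filter_upwards [this.eventually h1] with a ha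
      unfold dv
      rw [ha]
      rfl
    have h7 : HasFDerivAt (fun a => dA T (α a, β c.2))
        ((dA (dA T) (φ c)).comp (fderiv ℝ α c.1)) c.1 :=
      HasFDerivAt.comp (g := fun a => dA T (a, β c.2)) c.1 (hasFDerivAt_dA (p := φ c) h5)
        h2.hasFDerivAt
    have h8 : HasFDerivAt (fun a => fderiv ℝ α a w)
        ((ContinuousLinearMap.apply ℝ V w).comp (fderiv ℝ (fderiv ℝ α) c.1)) c.1 :=
      (ContinuousLinearMap.apply ℝ V w).hasFDerivAt.comp c.1 h3.hasFDerivAt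
    have h9 : HasFDerivAt (fun a => fderiv ℝ f a w)
        ((ContinuousLinearMap.apply ℝ ℝ w).comp (fderiv ℝ (fderiv ℝ f) c.1)) c.1 :=
      (ContinuousLinearMap.apply ℝ ℝ w).hasFDerivAt.comp c.1 h4.hasFDerivAt
    have h10 := (h7.clm_apply h8).add h9
    have h11 := (h10.congr_of_eventuallyEq h6).fderiv
    have h12 := congrArg (fun A : V' →L[ℝ] ℝ => A v) h11
    have h13 : ∀ u u' : V, dv u (dv u' T) (φ c) = dA (dA T) (φ c) u u' := by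
      intro u u'
      have : HasFDerivAt (fun a => dA T (a, β c.2) u')
        ((ContinuousLinearMap.apply ℝ ℝ u').comp (dA (dA T) (φ c))) (α c.1) :=
        (ContinuousLinearMap.apply ℝ ℝ u').hasFDerivAt.comp _ (hasFDerivAt_dA (p := φ c) h5)
      exact congrArg (fun A : V →L[ℝ] ℝ => A u) this.fderiv
    rw [h13]
    refine Eq.trans h12 ?_
    change dA T (φ c) (fderiv ℝ (fderiv ℝ α) c.1 v w) + dA (dA T) (φ c) (fderiv ℝ α c.1 v)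
      (fderiv ℝ α c.1 w) + fderiv ℝ (fderiv ℝ f) c.1 v w = _
    ring
  -- restrict to the slice
  have ts : Tendsto (fun b : W' => (p'.1, b)) (𝓝 p'.2) (𝓝 p') :=
    (Continuous.prodMk_right p'.1).tendsto' _ _ rfl
  have hq' : ∀ᶠ b in 𝓝 p'.2, dA T' (p'.1, b) =
      dualE P (dA T (α p'.1, β b)) + fderiv ℝ f p'.1 := by
    filter_upwards [ts.eventually A] with b hb
    rw [hb, dualE_apply, hP]
  have hM' : ∀ᶠ b in 𝓝 p'.2, dv v (dv w T') (p'.1, b) =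
      dv (P v) (dv (P w) T) (α p'.1, β b) +
        (ContinuousLinearMap.apply ℝ ℝ (fderiv ℝ (fderiv ℝ α) p'.1 v w)) (dA T (α p'.1, β b))
        + fderiv ℝ (fderiv ℝ f) p'.1 v w := by
    filter_upwards [ts.eventually B] with b hb
    rw [hb, hP]
    rfl
  have hβe : ∀ᶠ b in 𝓝 p'.2, DifferentiableAt ℝ β b ∧ (fderiv ℝ β b).IsInvertible :=
    (contDiffAt_ev hβ).and (invertible_ev hβ hβi)
  have hqs : ContDiffAt ℝ ∞ (fun b => dA T (α p'.1, b)) (β p'.2) :=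
    slice_contDiffAt (p := φ p') (dA_contDiffAt hT)
  have hq : ∀ᶠ c in 𝓝 (β p'.2), DifferentiableAt ℝ (fun b => dA T (α p'.1, b)) c ∧
      (fderiv ℝ (fun b => dA T (α p'.1, b)) c).IsInvertible :=
    (contDiffAt_ev hqs).and (invertible_ev hqs hi)
  have hM : ContDiffAt ℝ ∞ (fun b => dv (P v) (dv (P w) T) (α p'.1, b)) (β p'.2) :=
    slice_contDiffAt (p := φ p') (dv_contDiffAt _ (dv_contDiffAt _ hT))
  have S1 := Dz_change (q := fun b => dA T (α p'.1, b)) (q' := fun b => dA T' (p'.1, b))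
    (f := fun b => dv (P v) (dv (P w) T) (α p'.1, b)) (f' := fun b => dv v (dv w T') (p'.1, b))
    (dualE P) (ContinuousLinearMap.apply ℝ ℝ (fderiv ℝ (fderiv ℝ α) p'.1 v w))
    (fderiv ℝ f p'.1) (fderiv ℝ (fderiv ℝ f) p'.1 v w) hβ.continuousAt hβe hq (contDiffAt_ev hM)
    hq' hM' ζ'
  have hD : ContDiffAt ℝ ∞ (fun c => DQ (fun b => dA T (α p'.1, b))
      (fun b => dv (P v) (dv (P w) T) (α p'.1, b)) c ((dualE P).symm ζ')) (β p'.2) :=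
    (DQ_contDiffAt hqs hi hM).clm_apply contDiffAt_const
  have S2 := Dz_change (q := fun b => dA T (α p'.1, b)) (q' := fun b => dA T' (p'.1, b))
    (f := fun c => DQ (fun b => dA T (α p'.1, b))
      (fun b => dv (P v) (dv (P w) T) (α p'.1, b)) c ((dualE P).symm ζ'))
    (f' := fun b => DQ (fun b => dA T' (p'.1, b)) (fun b => dv v (dv w T') (p'.1, b)) b ζ')
    (dualE P) 0 (fderiv ℝ f p'.1)
    ((ContinuousLinearMap.apply ℝ ℝ (fderiv ℝ (fderiv ℝ α) p'.1 v w)) ((dualE P).symm ζ'))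
    hβ.continuousAt hβe hq (contDiffAt_ev hD) hq'
    (by
      filter_upwards [S1] with b hb
      rw [hb]
      simp) ζ
  have S3 := S2.self_of_nhds
  rw [dualE_symm_apply, dualE_symm_apply] at S3
  have S4 : DQ (fun b => dA T' (p'.1, b))
      (fun b => DQ (fun b => dA T' (p'.1, b)) (fun b => dv v (dv w T') (p'.1, b)) b ζ') p'.2 ζ =
      DQ (fun b => dA T (α p'.1, b)) (fun c => DQ (fun b => dA T (α p'.1, b))
      (fun b => dv (P v) (dv (P w) T) (α p'.1, b)) c (ζ' ∘L (P.symm : V →L[ℝ] V'))) (β p'.2)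
      (ζ ∘L (P.symm : V →L[ℝ] V')) := by
    rw [S3]
    simp
  exact S4

end Change

end Vale.Agent.P207.N3.H442
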