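import Vale.Agent.P207.N3.H442.Loc2
import Mathlib.Analysis.InnerProductSpace.PiL2
import Mathlib.Analysis.SpecialFunctions.ExpDeriv

/-!
# P207, N3, P12: the trace of the curvature

The equation `(det ∂_a ∂_b T)² = exp (2 λ T) N (a) M (b)` gives the trace of the curvature.
-/

open Set Filter Topology ContinuousLinearMap
open scoped ContDiff

set_option maxSynthPendingDepth 3
set_option linter.unusedSectionVars false

noncomputable section

namespace Vale.Agent.P207.N3.H442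

/-- the plane (the same as in the Spec) -/
abbrev P2 : Type := EuclideanSpace ℝ (Fin 2)

/-- the standard basis -/
abbrev eb (i : Fin 2) : P2 := EuclideanSpace.single i (1 : ℝ)

/-- the coordinates -/
abbrev ec (k : Fin 2) : P2 →L[ℝ] ℝ := EuclideanSpace.proj k

theorem eb_expand (v : P2) : v = v 0 • eb 0 + v 1 • eb 1 := by
  ext i
  fin_cases i <;> simp

theorem ec_expand (ζ : P2 →L[ℝ] ℝ) : ζ = ζ (eb 0) • ec 0 + ζ (eb 1) • ec 1 := by
  ext v
  conv_lhs => rw [eb_expand v]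
  simp
  ring

theorem ec_eb (k i : Fin 2) : ec k (eb i) = if k = i then 1 else 0 := by
  simp

/-- the mixed second derivatives -/
def Gm (T : P2 × P2 → ℝ) (i j : Fin 2) (c : P2 × P2) : ℝ := dB (dv (eb i) T) c (eb j)

/-- the determinant of the mixed second derivatives -/
def det2 (T : P2 × P2 → ℝ) (c : P2 × P2) : ℝ := Gm T 0 0 c * Gm T 1 1 c - Gm T 0 1 c * Gm T 1 0 c

theorem Gm_contDiffAt {T : P2 × P2 → ℝ} {p : P2 × P2} (hT : ContDiffAt ℝ ∞ T p) (i j : Fin 2) :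
    ContDiffAt ℝ ∞ (Gm T i j) p :=
  (dB_contDiffAt (dv_contDiffAt _ hT)).clm_apply contDiffAt_const

theorem dB_dv {V W : Type*} [NormedAddCommGroup V] [NormedSpace ℝ V] [NormedAddCommGroup W]
    [NormedSpace ℝ W] {f : V × W → ℝ} {p : V × W} (h : ContDiffAt ℝ ∞ f p) (v : V) (w : W) :
    dB (dv v f) p w = dB (dA f) p w v := by
  have h1 : HasFDerivAt (fun b => dA f (p.1, b) v)
      ((ContinuousLinearMap.apply ℝ ℝ v).comp (dB (dA f) p)) p.2 :=
    (ContinuousLinearMap.apply ℝ ℝ v).hasFDerivAt.comp _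
      (hasFDerivAt_dB (contDiffAt_ev (dA_contDiffAt h)).self_of_nhds)
  exact congrArg (fun A : W →L[ℝ] ℝ => A w) h1.fderiv

theorem dv_dB {V W : Type*} [NormedAddCommGroup V] [NormedSpace ℝ V] [NormedAddCommGroup W]
    [NormedSpace ℝ W] {f : V × W → ℝ} {p : V × W} (h : ContDiffAt ℝ ∞ f p) (v : V) (w : W) :
    dv v (fun c => dB f c w) p = dB (dv v f) p w := by
  rw [dB_dv h, ← dA_dB h]
  have h1 : HasFDerivAt (fun a => dB f (a, p.2) w)
      ((ContinuousLinearMap.apply ℝ ℝ w).comp (dA (dB f) p)) p.1 :=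
    (ContinuousLinearMap.apply ℝ ℝ w).hasFDerivAt.comp _
      (hasFDerivAt_dA (contDiffAt_ev (dB_contDiffAt h)).self_of_nhds)
  exact congrArg (fun A : V →L[ℝ] ℝ => A v) h1.fderiv

theorem alg_trace {G00 G01 G10 G11 X00 X01 X10 X11 a0 a1 b0 b1 r : ℝ}
    (h1 : a0 * G00 + a1 * G01 = 1) (h2 : a0 * G10 + a1 * G11 = 0)
    (h3 : b0 * G00 + b1 * G01 = 0) (h4 : b0 * G10 + b1 * G11 = 1)
    (hd : G00 * G11 - G01 * G10 ≠ 0)
    (hr : 2 * (G00 * G11 - G01 * G10) * (X00 * G11 + G00 * X11 - (X01 * G10 + G01 * X10)) =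
      (G00 * G11 - G01 * G10) ^ 2 * (2 * r)) :
    (a0 * X00 + a1 * X01) + (b0 * X10 + b1 * X11) = r := by
  have e1 : (G00 * G11 - G01 * G10) * a0 = G11 := by linear_combination G11 * h1 - G01 * h2
  have e2 : (G00 * G11 - G01 * G10) * a1 = -G10 := by linear_combination G00 * h2 - G10 * h1
  have e3 : (G00 * G11 - G01 * G10) * b0 = -G01 := by linear_combination G11 * h3 - G01 * h4
  have e4 : (G00 * G11 - G01 * G10) * b1 = G00 := by linear_combination G00 * h4 - G10 * h3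
  have e5 : (G00 * G11 - G01 * G10) * ((a0 * X00 + a1 * X01) + (b0 * X10 + b1 * X11)) =
      X00 * G11 + G00 * X11 - (X01 * G10 + G01 * X10) := by
    linear_combination X00 * e1 + X01 * e2 + X10 * e3 + X11 * e4
  have e6 : (G00 * G11 - G01 * G10) ^ 2 *
      ((a0 * X00 + a1 * X01) + (b0 * X10 + b1 * X11) - r) = 0 := by
    linear_combination (G00 * G11 - G01 * G10) * e5 + hr / 2
  rcases mul_eq_zero.1 e6 with h | h
  · exact absurd h (pow_ne_zero 2 hd)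
  · linarith

section

variable {T : P2 × P2 → ℝ} {p : P2 × P2}

/-- first step: the divergence of `∂_a² T` -/
theorem div_pointwise (hT : ContDiffAt ℝ ∞ T p) (hi : ND T p) {lam : ℝ} {N M : P2 → ℝ}
    (hN : DifferentiableAt ℝ N p.1) (hN0 : N p.1 ≠ 0) (hM0 : M p.2 ≠ 0)
    (hMA : ∀ᶠ c in 𝓝 p, det2 T c ^ 2 = Real.exp (2 * lam * T c) * N c.1 * M c.2) (k : Fin 2) :
    DZ (dA T) (ec 0) (dv (eb 0) (dv (eb k) T)) p + DZ (dA T) (ec 1) (dv (eb 1) (dv (eb k) T)) p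
      = lam * dv (eb k) T p + fderiv ℝ N p.1 (eb k) / (2 * N p.1) := by
  -- the matrix `X`
  have hX : ∀ i j : Fin 2, dB (dv (eb i) (dv (eb k) T)) p (eb j) = dv (eb k) (Gm T i j) p := by
    intro i j
    have h1 : dv (eb k) (Gm T i j) p = dB (dv (eb k) (dv (eb i) T)) p (eb j) :=
      dv_dB (f := dv (eb i) T) (dv_contDiffAt _ hT) (eb k) (eb j)
    rw [h1]
    have hT' : ∀ᶠ c in 𝓝 p, ContDiffAt ℝ 2 T c := by
      have : ContDiffAt ℝ 2 T p := hT.of_le two_le_infty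
      exact this.eventually (by simp)
    have e1 : dv (eb i) (dv (eb k) T) =ᶠ[𝓝 p] dv (eb k) (dv (eb i) T) := by
      filter_upwards [hT'] with c hc using dv_dv_symm hc _ _
    rw [dB_congr e1]
  have hw : ∀ (i : Fin 2) (f : P2 × P2 → ℝ), DZ (dA T) (ec i) f p =
      ((dB (dA T) p).inverse (ec i)) 0 * dB f p (eb 0) +
      ((dB (dA T) p).inverse (ec i)) 1 * dB f p (eb 1) := by
    intro i f
    unfold DZ
    rw [D2_eq]
    change dB f p ((dB (dA T) p).inverse (ec i)) = _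
    conv_lhs => rw [eb_expand ((dB (dA T) p).inverse (ec i))]
    simp
  have hg : ∀ i m : Fin 2, ((dB (dA T) p).inverse (ec i)) 0 * Gm T m 0 p +
      ((dB (dA T) p).inverse (ec i)) 1 * Gm T m 1 p = ec i (eb m) := by
    intro i m
    have h1 : dB (dA T) p ((dB (dA T) p).inverse (ec i)) = ec i :=
      IsInvertible.self_apply_inverse hi (ec i)
    have h2 : dB (dA T) p ((dB (dA T) p).inverse (ec i)) (eb m) = ec i (eb m) := by rw [h1]
    rw [← h2, ← dB_dv hT]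
    conv_rhs => rw [eb_expand ((dB (dA T) p).inverse (ec i))]
    simp [Gm]
  have g00 := hg 0 0
  have g01 := hg 0 1
  have g10 := hg 1 0
  have g11 := hg 1 1
  rw [ec_eb] at g00 g01 g10 g11
  simp only [Fin.isValue, if_true, if_false, zero_ne_one, one_ne_zero] at g00 g01 g10 g11
  -- differentiate the equation
  have hG : ∀ i j, HasFDerivAt (fun a => Gm T i j (a, p.2)) (dA (Gm T i j) p) p.1 := fun i j =>
    hasFDerivAt_dA (contDiffAt_ev (Gm_contDiffAt hT i j)).self_of_nhds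
  have hTd : HasFDerivAt (fun a => T (a, p.2)) (dA T p) p.1 :=
    hasFDerivAt_dA (contDiffAt_ev hT).self_of_nhds
  have hl : HasFDerivAt (fun a => det2 T (a, p.2))
      ((Gm T 0 0 p • dA (Gm T 1 1) p + Gm T 1 1 p • dA (Gm T 0 0) p) -
        (Gm T 0 1 p • dA (Gm T 1 0) p + Gm T 1 0 p • dA (Gm T 0 1) p)) p.1 :=
    ((hG 0 0).mul (hG 1 1)).sub ((hG 0 1).mul (hG 1 0))
  have hl2 := hl.mul hl
  have hr : HasFDerivAt (fun a => Real.exp (2 * lam * T (a, p.2)) * N a * M p.2)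
      (M p.2 • (Real.exp (2 * lam * T p) • fderiv ℝ N p.1 +
        N p.1 • (Real.exp (2 * lam * T p) • ((2 * lam) • dA T p)))) p.1 :=
    (((hTd.const_mul (2 * lam)).exp).mul hN.hasFDerivAt).mul_const (M p.2)
  have hev : (fun a => det2 T (a, p.2) * det2 T (a, p.2)) =ᶠ[𝓝 p.1]
      fun a => Real.exp (2 * lam * T (a, p.2)) * N a * M p.2 := by
    have ht : Tendsto (fun a : P2 => (a, p.2)) (𝓝 p.1) (𝓝 p) :=
      (Continuous.prodMk_left p.2).tendsto' _ _ rfl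
    filter_upwards [ht.eventually hMA] with a ha
    rw [← sq]
    exact ha
  have hU := hl2.unique (hr.congr_of_eventuallyEq hev)
  have hU2 := congrArg (fun A : P2 →L[ℝ] ℝ => A (eb k)) hU
  have hp := hMA.self_of_nhds
  have hd2 : det2 T p ≠ 0 := by
    intro h0
    rw [h0] at hp
    have : Real.exp (2 * lam * T p) * N p.1 * M p.2 ≠ 0 :=
      mul_ne_zero (mul_ne_zero (Real.exp_ne_zero _) hN0) hM0
    exact this (by rw [← hp]; norm_num)
  have hU3 : 2 * det2 T p * ((Gm T 0 0 p * dv (eb k) (Gm T 1 1) p +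
      Gm T 1 1 p * dv (eb k) (Gm T 0 0) p) - (Gm T 0 1 p * dv (eb k) (Gm T 1 0) p +
      Gm T 1 0 p * dv (eb k) (Gm T 0 1) p)) = M p.2 * (Real.exp (2 * lam * T p) *
      fderiv ℝ N p.1 (eb k) + N p.1 * (Real.exp (2 * lam * T p) * (2 * lam * dv (eb k) T p))) := by
    have : det2 T p * ((Gm T 0 0 p * dv (eb k) (Gm T 1 1) p +
      Gm T 1 1 p * dv (eb k) (Gm T 0 0) p) - (Gm T 0 1 p * dv (eb k) (Gm T 1 0) p +
      Gm T 1 0 p * dv (eb k) (Gm T 0 1) p)) + det2 T p * ((Gm T 0 0 p * dv (eb k) (Gm T 1 1) p +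
      Gm T 1 1 p * dv (eb k) (Gm T 0 0) p) - (Gm T 0 1 p * dv (eb k) (Gm T 1 0) p +
      Gm T 1 0 p * dv (eb k) (Gm T 0 1) p)) = M p.2 * (Real.exp (2 * lam * T p) *
      fderiv ℝ N p.1 (eb k) + N p.1 * (Real.exp (2 * lam * T p) * ((2 * lam) * dv (eb k) T p))) :=
      hU2
    linarith
  rw [hw 0, hw 1, hX 0 0, hX 0 1, hX 1 0, hX 1 1]
  refine alg_trace g00 g01 g10 g11 hd2 ?_
  change 2 * det2 T p * (dv (eb k) (Gm T 0 0) p * Gm T 1 1 p + Gm T 0 0 p * dv (eb k) (Gm T 1 1) p -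
    (dv (eb k) (Gm T 0 1) p * Gm T 1 0 p + Gm T 0 1 p * dv (eb k) (Gm T 1 0) p)) =
    det2 T p ^ 2 * _
  rw [hp]
  have e1 : 2 * det2 T p * (dv (eb k) (Gm T 0 0) p * Gm T 1 1 p +
      Gm T 0 0 p * dv (eb k) (Gm T 1 1) p -
      (dv (eb k) (Gm T 0 1) p * Gm T 1 0 p + Gm T 0 1 p * dv (eb k) (Gm T 1 0) p)) =
      2 * det2 T p * ((Gm T 0 0 p * dv (eb k) (Gm T 1 1) p +
      Gm T 1 1 p * dv (eb k) (Gm T 0 0) p) - (Gm T 0 1 p * dv (eb k) (Gm T 1 0) p +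
      Gm T 1 0 p * dv (eb k) (Gm T 0 1) p)) := by ring
  rw [e1, hU3]
  field_simp
  ring

/-- **The trace of the curvature.** -/
theorem trace_Cu (hT : ∀ᶠ c in 𝓝 p, ContDiffAt ℝ ∞ T c) (hi : ND T p) {lam : ℝ}
    {N M : P2 → ℝ} (hN : ContDiffAt ℝ ∞ N p.1) (hN0 : N p.1 ≠ 0) (hM0 : ∀ᶠ b in 𝓝 p.2, M b ≠ 0)
    (hMA : ∀ᶠ c in 𝓝 p, det2 T c ^ 2 = Real.exp (2 * lam * T c) * N c.1 * M c.2) (k : Fin 2)
    (ζ : P2 →L[ℝ] ℝ) :
    Cu T (eb 0) (eb k) ζ (ec 0) p + Cu T (eb 1) (eb k) ζ (ec 1) p = lam * ζ (eb k) := by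
  have hT0 := hT.self_of_nhds
  have hA := dA_contDiffAt hT0
  have t1 : Tendsto (fun c : P2 × P2 => c.1) (𝓝 p) (𝓝 p.1) := continuous_fst.tendsto p
  have t2 : Tendsto (fun c : P2 × P2 => c.2) (𝓝 p) (𝓝 p.2) := continuous_snd.tendsto p
  have h1 : ∀ᶠ c in 𝓝 p, DZ (dA T) (ec 0) (dv (eb 0) (dv (eb k) T)) c +
      DZ (dA T) (ec 1) (dv (eb 1) (dv (eb k) T)) c =
      lam * dv (eb k) T c + fderiv ℝ N c.1 (eb k) / (2 * N c.1) := by
    filter_upwards [hT, ND_ev hT0 hi, t1.eventually (contDiffAt_ev hN),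
      t1.eventually (hN.continuousAt.eventually_ne hN0), t2.eventually hM0,
      hMA.eventually_nhds] with c a1 a2 a3 a4 a5 a6
    exact div_pointwise a1 a2 a3 a4 a5 a6 k
  have f0 : ContDiffAt ℝ ∞ (DZ (dA T) (ec 0) (dv (eb 0) (dv (eb k) T))) p :=
    DZ_contDiffAt _ hA hi (dv_contDiffAt _ (dv_contDiffAt _ hT0))
  have f1 : ContDiffAt ℝ ∞ (DZ (dA T) (ec 1) (dv (eb 1) (dv (eb k) T))) p :=
    DZ_contDiffAt _ hA hi (dv_contDiffAt _ (dv_contDiffAt _ hT0))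
  have e1 : DZ (dA T) ζ (fun c => 1 * DZ (dA T) (ec 0) (dv (eb 0) (dv (eb k) T)) c +
      1 * DZ (dA T) (ec 1) (dv (eb 1) (dv (eb k) T)) c) p =
      1 * Cu T (eb 0) (eb k) ζ (ec 0) p + 1 * Cu T (eb 1) (eb k) ζ (ec 1) p :=
    DZ_lin ζ 1 1 (Filter.EventuallyEq.refl _ _) (contDiffAt_ev f0).self_of_nhds
      (contDiffAt_ev f1).self_of_nhds
  have hNd : ContDiffAt ℝ ∞ (fun a => fderiv ℝ N a (eb k) / (2 * N a)) p.1 := by
    refine ContDiffAt.div ((hN.fderiv_right (m := ∞) le_rfl).clm_apply contDiffAt_const)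
      (contDiffAt_const.mul hN) (mul_ne_zero two_ne_zero hN0)
  have hg : DifferentiableAt ℝ (fun c : P2 × P2 => fderiv ℝ N c.1 (eb k) / (2 * N c.1)) p := by
    have := (contDiffAt_ev hNd).self_of_nhds
    exact this.comp p differentiableAt_fst
  have e2 : DZ (dA T) ζ (fun c => 1 * DZ (dA T) (ec 0) (dv (eb 0) (dv (eb k) T)) c +
      1 * DZ (dA T) (ec 1) (dv (eb 1) (dv (eb k) T)) c) p =
      lam * DZ (dA T) ζ (dv (eb k) T) p +
      1 * DZ (dA T) ζ (fun c => fderiv ℝ N c.1 (eb k) / (2 * N c.1)) p := by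
    refine DZ_lin ζ lam 1 ?_ (contDiffAt_ev (dv_contDiffAt _ hT0)).self_of_nhds hg
    filter_upwards [h1] with c hc
    rw [one_mul, one_mul, one_mul, hc]
  have e3 : DZ (dA T) ζ (dv (eb k) T) p = ζ (eb k) := by
    have a1 := D2_clm (q := dA T) (f := dA T) (p := p) (ContinuousLinearMap.apply ℝ ℝ (eb k))
      (contDiffAt_ev hA).self_of_nhds
    have a2 : D2 (dA T) (dA T) p = .id ℝ _ := DQ_self (q := fun b => dA T (p.1, b)) hi
    rw [a2] at a1
    exact congrArg (fun A : (P2 →L[ℝ] ℝ) →L[ℝ] ℝ => A ζ) a1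
  have e4 : DZ (dA T) ζ (fun c => fderiv ℝ N c.1 (eb k) / (2 * N c.1)) p = 0 := by
    have a1 := congrFun (DQ_const (fun b : P2 => dA T (p.1, b))
      (fderiv ℝ N p.1 (eb k) / (2 * N p.1))) p.2
    exact congrArg (fun A : (P2 →L[ℝ] ℝ) →L[ℝ] ℝ => A ζ) a1
  rw [e1, e3, e4] at e2
  linarith

end

end Vale.Agent.P207.N3.H442
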