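import Vale.Agent.P207.N3.H442.Loc3
import Vale.Agent.P207.N3.H442.Alg3

/-!
# P207, N3, P12: the curvature as a matrix
-/

open Set Filter Topology ContinuousLinearMap Matrix
open scoped ContDiff

set_option maxSynthPendingDepth 3
set_option linter.unusedSectionVars false

noncomputable section

namespace Vale.Agent.P207.N3.H442

/-- the matrix of a linear map -/
def mt (P : P2 →L[ℝ] P2) : M2 := fun a i => P (eb i) a

theorem mt_comp (P Q : P2 →L[ℝ] P2) : mt (P ∘L Q) = mt P * mt Q := by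
  ext a i
  rw [Matrix.mul_apply, Fin.sum_univ_two]
  unfold mt
  rw [ContinuousLinearMap.comp_apply]
  conv_lhs => rw [eb_expand (Q (eb i))]
  simp
  ring

theorem mt_id : mt (.id ℝ P2) = 1 := by
  ext a i
  unfold mt
  rw [Matrix.one_apply]
  change (eb i) a = _
  have := ec_eb a i
  exact this

theorem mt_mul_symm (P : P2 ≃L[ℝ] P2) : mt (P : P2 →L[ℝ] P2) * mt (P.symm : P2 →L[ℝ] P2) = 1 := by
  rw [← mt_comp, ← mt_id]
  congr 1
  ext v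
  simp

theorem mt_symm_mul (P : P2 ≃L[ℝ] P2) : mt (P.symm : P2 →L[ℝ] P2) * mt (P : P2 →L[ℝ] P2) = 1 := by
  rw [← mt_comp, ← mt_id]
  congr 1
  ext v
  simp

theorem mt_inv (P : P2 ≃L[ℝ] P2) : (mt (P : P2 →L[ℝ] P2))⁻¹ = mt (P.symm : P2 →L[ℝ] P2) :=
  Matrix.inv_eq_left_inv (mt_symm_mul P)

theorem mt_isUnit (P : P2 ≃L[ℝ] P2) : IsUnit (mt (P : P2 →L[ℝ] P2)).det := by
  refine IsUnit.of_mul_eq_one (mt (P.symm : P2 →L[ℝ] P2)).det ?_
  rw [← Matrix.det_mul, mt_mul_symm, Matrix.det_one]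

theorem mt_cont : Continuous mt := by
  refine continuous_matrix fun a i => ?_
  have h1 : Continuous fun P : P2 →L[ℝ] P2 => P (eb i) := by fun_prop
  exact (EuclideanSpace.proj (𝕜 := ℝ) a).continuous.comp h1

/-- the curvature as a matrix -/
def CM (T : P2 × P2 → ℝ) (p : P2 × P2) : TM := fun x y => Cu T (eb x.1) (eb x.2) (ec y.1) (ec y.2) p

section

variable {T : P2 × P2 → ℝ} {p : P2 × P2} (hT : ContDiffAt ℝ ∞ T p) (hi : ND T p)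
include hT hi

theorem CM_contDiffAt (a b : Fin 2 × Fin 2) : ContDiffAt ℝ ∞ (fun p => CM T p a b) p :=
  Cu_contDiffAt hT hi _ _ _ _

theorem CM_continuousAt : ContinuousAt (CM T) p := by
  have h : ∀ a b, ContinuousAt (fun p => CM T p a b) p := fun a b =>
    (CM_contDiffAt hT hi a b).continuousAt
  exact tendsto_pi_nhds.2 fun a => tendsto_pi_nhds.2 fun b => h a b

/-- the matrix of the transformed curvature -/
theorem CM_act (P : P2 ≃L[ℝ] P2) (i j k l : Fin 2) :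
    Cu T (P (eb i)) (P (eb j)) (ec k ∘L (P.symm : P2 →L[ℝ] P2)) (ec l ∘L (P.symm : P2 →L[ℝ] P2)) p
      = act (mt (P : P2 →L[ℝ] P2)) (CM T p) (i, j) (k, l) := by
  have e1 : ∀ i, P (eb i) = mt (P : P2 →L[ℝ] P2) 0 i • eb 0 + mt (P : P2 →L[ℝ] P2) 1 i • eb 1 :=
    fun i => eb_expand _
  have e2 : ∀ k, ec k ∘L (P.symm : P2 →L[ℝ] P2) = mt (P.symm : P2 →L[ℝ] P2) k 0 • ec 0 +
      mt (P.symm : P2 →L[ℝ] P2) k 1 • ec 1 := fun k => ec_expand _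
  rw [act_apply, mt_inv, e1 i, e1 j, e2 k, e2 l]
  simp only [Fin.sum_univ_two, CM]
  rw [Cu_lin₁ hT hi, Cu_lin₂ hT hi, Cu_lin₂ hT hi]
  simp only [Cu_lin₃]
  rw [Cu_lin₄ hT hi, Cu_lin₄ hT hi, Cu_lin₄ hT hi, Cu_lin₄ hT hi, Cu_lin₄ hT hi, Cu_lin₄ hT hi,
    Cu_lin₄ hT hi, Cu_lin₄ hT hi]
  ring

end

/-- change of coordinates for the curvature matrix -/
theorem CM_change {T T' : P2 × P2 → ℝ} {p' p : P2 × P2}
    {α : P2 → P2} {β : P2 → P2} {f k : P2 → ℝ}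
    (hα : ContDiffAt ℝ ∞ α p'.1) (P : P2 ≃L[ℝ] P2) (hP : fderiv ℝ α p'.1 = P)
    (hβ : ContDiffAt ℝ ∞ β p'.2) (hβi : (fderiv ℝ β p'.2).IsInvertible)
    (hf : ContDiffAt ℝ ∞ f p'.1) (hp : p = (α p'.1, β p'.2))
    (hT : ContDiffAt ℝ ∞ T p) (hi : ND T p)
    (hT' : ∀ᶠ c in 𝓝 p', T' c = T (α c.1, β c.2) + f c.1 + k c.2) :
    CM T' p' = act (mt (P : P2 →L[ℝ] P2)) (CM T p) := by
  ext ⟨i, j⟩ ⟨m, l⟩
  rw [← CM_act hT hi P i j m l]
  exact Cu_change hα P hP hβ hβi hf hp hT hi hT' _ _ _ _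

/-- the symmetries of the curvature matrix -/
theorem CM_Sy {T : P2 × P2 → ℝ} {p : P2 × P2} (hT : ∀ᶠ c in 𝓝 p, ContDiffAt ℝ ∞ T c)
    (hi : ND T p) {lam : ℝ} {N M : P2 → ℝ} (hN : ContDiffAt ℝ ∞ N p.1) (hN0 : N p.1 ≠ 0)
    (hM0 : ∀ᶠ b in 𝓝 p.2, M b ≠ 0)
    (hMA : ∀ᶠ c in 𝓝 p, det2 T c ^ 2 = Real.exp (2 * lam * T c) * N c.1 * M c.2) :
    Sy lam (CM T p) := by
  have hT0 := hT.self_of_nhds
  refine ⟨fun i j k l => Cu_symm' hT0 hi _ _ _ _, fun i j k l => Cu_symm hT0 hi _ _ _ _, ?_⟩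
  intro k l
  have h := trace_Cu hT hi hN hN0 hM0 hMA k (ec l)
  rw [ec_eb] at h
  exact h

end Vale.Agent.P207.N3.H442
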