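import Vale.Agent.P207.N3.H442.Loc3
import Mathlib.Analysis.ODE.Gronwall
import Mathlib.Analysis.Calculus.MeanValue
import Mathlib.Analysis.Calculus.Deriv.MeanValue

/-!
# P207, N3, P12: a positive solution of a linear system does not vanish at a puncture
-/

open Set Filter Topology Metric
open scoped ContDiff

set_option maxSynthPendingDepth 3

noncomputable section

namespace Vale.Agent.P207.N3.H442

section Gron

variable {E F : Type*} [NormedAddCommGroup E] [NormedSpace ℝ E] [NormedAddCommGroup F]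
  [NormedSpace ℝ F]

/-- Gronwall along a segment -/
theorem gron_seg {Y : E → F} {Y' : E → E →L[ℝ] F} {K : ℝ} {a b : E}
    (h : ∀ t ∈ Icc (0 : ℝ) 1, HasFDerivAt Y (Y' (a + t • (b - a))) (a + t • (b - a)))
    (hK : ∀ t ∈ Icc (0 : ℝ) 1, ‖Y' (a + t • (b - a))‖ ≤ K * ‖Y (a + t • (b - a))‖) :
    ‖Y b‖ ≤ ‖Y a‖ * Real.exp (K * ‖b - a‖) := by
  set f : ℝ → F := fun t => Y (a + t • (b - a)) with hf
  have hd : ∀ t ∈ Icc (0 : ℝ) 1, HasDerivAt f (Y' (a + t • (b - a)) (b - a)) t := by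
    intro t ht
    have h1 : HasDerivAt (fun t : ℝ => a + t • (b - a)) (b - a) t := by
      have := ((hasDerivAt_id t).smul_const (b - a)).const_add a
      simpa using this
    exact (h t ht).comp_hasDerivAt t h1
  have key := norm_le_gronwallBound_of_norm_deriv_right_le (f := f)
    (f' := fun t => Y' (a + t • (b - a)) (b - a)) (δ := ‖Y a‖) (K := K * ‖b - a‖) (ε := 0)
    (a := 0) (b := 1) (fun t ht => (hd t ht).continuousAt.continuousWithinAt)
    (fun t ht => (hd t ⟨ht.1, ht.2.le⟩).hasDerivWithinAt) (by simp [hf]) (by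
      intro t ht
      have h2 := (Y' (a + t • (b - a))).le_opNorm (b - a)
      have h3 := mul_le_mul_of_nonneg_right (hK t ⟨ht.1, ht.2.le⟩) (norm_nonneg (b - a))
      calc ‖Y' (a + t • (b - a)) (b - a)‖ ≤ K * ‖Y (a + t • (b - a))‖ * ‖b - a‖ := h2.trans h3
        _ = K * ‖b - a‖ * ‖f t‖ + 0 := by rw [hf]; ring) 1 ⟨zero_le_one, le_rfl⟩
  rw [gronwallBound_ε0, sub_zero, mul_one] at key
  simpa [hf] using key

end Gron

theorem norm_clm_le (g : P2 →L[ℝ] ℝ) : ‖g‖ ≤ |g (eb 0)| + |g (eb 1)| := by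
  refine g.opNorm_le_bound (by positivity) fun v => ?_
  conv_lhs => rw [eb_expand v]
  rw [map_add, map_smul, map_smul, smul_eq_mul, smul_eq_mul]
  have h0 : |v 0| ≤ ‖v‖ := by simpa using PiLp.norm_apply_le v 0
  have h1 : |v 1| ≤ ‖v‖ := by simpa using PiLp.norm_apply_le v 1
  calc ‖v 0 * g (eb 0) + v 1 * g (eb 1)‖ ≤ |v 0| * |g (eb 0)| + |v 1| * |g (eb 1)| := by
        rw [Real.norm_eq_abs, ← abs_mul, ← abs_mul]
        exact abs_add_le _ _
    _ ≤ ‖v‖ * |g (eb 0)| + ‖v‖ * |g (eb 1)| := by gcongr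
    _ = _ := by ring

/-- a nonnegative function with bounded second derivative -/
theorem deriv_le_of_nonneg {f f' : ℝ → ℝ} {τ B : ℝ} (hτ : 0 < τ)
    (hf : ∀ t ∈ Icc (-τ) τ, HasDerivAt f (f' t) t)
    (hB : ∀ t ∈ Icc (-τ) τ, |f' t - f' 0| ≤ B * |t|) (h0 : ∀ t ∈ Icc (-τ) τ, 0 ≤ f t)
    (hB0 : 0 ≤ B) : |f' 0| ≤ f 0 / τ + B * τ := by
  -- for both signs
  have key : ∀ σ : ℝ, σ = 1 ∨ σ = -1 → σ * f' 0 ≤ f 0 / τ + B * τ := by
    intro σ hσ
    have hσ2 : σ * σ = 1 := by rcases hσ with h | h <;> rw [h] <;> norm_num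
    have hσa : |σ| = 1 := by rcases hσ with h | h <;> rw [h] <;> norm_num
    -- the function `t ↦ f (-σ t)` on `[0, τ]`
    have hmem : ∀ t ∈ Icc (0 : ℝ) τ, -σ * t ∈ Icc (-τ) τ := by
      intro t ht
      rcases hσ with h | h <;> rw [h] <;> constructor <;> linarith [ht.1, ht.2]
    have hd : ∀ t ∈ Icc (0 : ℝ) τ, HasDerivAt (fun t => f (-σ * t)) (-σ * f' (-σ * t)) t := by
      intro t ht
      have h1 : HasDerivAt (fun t : ℝ => -σ * t) (-σ) t := by
        simpa using (hasDerivAt_id t).const_mul (-σ)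
      have := (hf _ (hmem t ht)).comp t h1
      rw [mul_comm]
      exact this
    obtain ⟨c, hc, hce⟩ := exists_hasDerivAt_eq_slope (fun t => f (-σ * t))
      (fun t => -σ * f' (-σ * t)) hτ
      (fun t ht => (hd t ht).continuousAt.continuousWithinAt)
      (fun t ht => hd t ⟨ht.1.le, ht.2.le⟩)
    simp only [mul_zero, sub_zero] at hce
    have h2 : 0 ≤ f (-σ * τ) := h0 _ (hmem τ ⟨hτ.le, le_rfl⟩)
    have h3 := hB _ (hmem c ⟨hc.1.le, hc.2.le⟩)
    have h4 : |-σ * c| ≤ τ := by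
      rw [abs_mul, abs_neg, hσa, one_mul, abs_of_pos hc.1]
      exact hc.2.le
    have h5 : |f' (-σ * c) - f' 0| ≤ B * τ := h3.trans (mul_le_mul_of_nonneg_left h4 hB0)
    have h6 : σ * (f' 0 - f' (-σ * c)) ≤ B * τ := by
      calc σ * (f' 0 - f' (-σ * c)) ≤ |σ * (f' 0 - f' (-σ * c))| := le_abs_self _
        _ = |f' (-σ * c) - f' 0| := by rw [abs_mul, hσa, one_mul, abs_sub_comm]
        _ ≤ B * τ := h5
    have h7 : -σ * f' (-σ * c) * τ = f (-σ * τ) - f 0 := by
      rw [hce]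
      field_simp
    have h8 : σ * f' (-σ * c) ≤ f 0 / τ := by
      rw [le_div_iff₀ hτ]
      linarith
    linarith
  rw [abs_le]
  have k1 := key 1 (Or.inl rfl)
  have k2 := key (-1) (Or.inr rfl)
  constructor <;> linarith

/-- **A positive solution of a linear system with bounded coefficients does not vanish at a
puncture.** -/
theorem punct {u : P2 → ℝ} {g : P2 → P2 →L[ℝ] ℝ} {ρ C : ℝ} (hρ : 0 < ρ) (hC : 0 ≤ C)
    (hu : ∀ a, a ≠ 0 → ‖a‖ < ρ → HasFDerivAt u (g a) a)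
    (hg : ∀ a, a ≠ 0 → ‖a‖ < ρ → DifferentiableAt ℝ g a)
    (hb : ∀ a, a ≠ 0 → ‖a‖ < ρ → ‖fderiv ℝ g a‖ ≤ C * (|u a| + ‖g a‖))
    (hpos : ∀ a, a ≠ 0 → ‖a‖ < ρ → 0 < u a) (hlim : Tendsto u (𝓝[≠] 0) (𝓝 0)) : False := by
  set Y : P2 → ℝ × (P2 →L[ℝ] ℝ) := fun a => (u a, g a) with hY
  set K : ℝ := 1 + 2 * C with hK
  have hK0 : 0 ≤ K := by positivity
  have hYd : ∀ a, a ≠ 0 → ‖a‖ < ρ → HasFDerivAt Y ((g a).prod (fderiv ℝ g a)) a :=
    fun a h1 h2 => (hu a h1 h2).prodMk (hg a h1 h2).hasFDerivAt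
  have hYb : ∀ a, a ≠ 0 → ‖a‖ < ρ → ‖(g a).prod (fderiv ℝ g a)‖ ≤ K * ‖Y a‖ := by
    intro a h1 h2
    have e1 : |u a| ≤ ‖Y a‖ := by
      rw [← Real.norm_eq_abs]
      exact norm_fst_le (Y a)
    have e2 : ‖g a‖ ≤ ‖Y a‖ := norm_snd_le (Y a)
    have e3 := hb a h1 h2
    have e4 : 0 ≤ ‖Y a‖ := norm_nonneg _
    refine ContinuousLinearMap.opNorm_le_bound _ (by positivity) fun v => ?_
    have e5 : ‖g a‖ ≤ K * ‖Y a‖ := by simp only [hK]; nlinarith
    have e6 : ‖fderiv ℝ g a‖ ≤ K * ‖Y a‖ := by simp only [hK]; nlinarith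
    rw [ContinuousLinearMap.prod_apply, Prod.norm_def, max_le_iff]
    exact ⟨((g a).le_opNorm v).trans (mul_le_mul_of_nonneg_right e5 (norm_nonneg v)),
      ((fderiv ℝ g a).le_opNorm v).trans (mul_le_mul_of_nonneg_right e6 (norm_nonneg v))⟩
  have hG : ∀ a b : P2, (∀ t ∈ Icc (0 : ℝ) 1, a + t • (b - a) ≠ 0 ∧ ‖a + t • (b - a)‖ < ρ) →
      ‖Y b‖ ≤ ‖Y a‖ * Real.exp (K * ‖b - a‖) := fun a b h =>
    gron_seg (Y' := fun a => (g a).prod (fderiv ℝ g a)) (fun t ht => hYd _ (h t ht).1 (h t ht).2)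
      (fun t ht => hYb _ (h t ht).1 (h t ht).2)
  -- bound of `Y` near the puncture
  have hB : ∃ B, 0 ≤ B ∧ ∀ a : P2, a ≠ 0 → ‖a‖ ≤ ρ / 2 → ‖Y a‖ ≤ B := by
    have hs : ContinuousOn Y (sphere (0 : P2) (ρ / 2)) := by
      intro a ha
      have h1 : ‖a‖ = ρ / 2 := by simpa using ha
      have h2 : a ≠ 0 := by
        intro h
        rw [h, norm_zero] at h1
        linarith
      exact (hYd a h2 (by linarith)).continuousAt.continuousWithinAt
    obtain ⟨m, hm⟩ := (isCompact_sphere (0 : P2) (ρ / 2)).exists_bound_of_continuousOn hs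
    refine ⟨max m 0 * Real.exp (K * ρ), by positivity, fun a ha0 ha => ?_⟩
    have hna : 0 < ‖a‖ := norm_pos_iff.2 ha0
    set r := ρ / 2 / ‖a‖ with hr
    have hr1 : 1 ≤ r := by rw [hr, le_div_iff₀ hna]; linarith
    have hra : r * ‖a‖ = ρ / 2 := by rw [hr]; field_simp
    have hb1 : ‖r • a‖ = ρ / 2 := by rw [norm_smul, Real.norm_eq_abs, abs_of_pos (by linarith), hra]
    have h1 := hG (r • a) a (by
      intro t ht
      have e : r • a + t • (a - r • a) = (r - t * (r - 1)) • a := by module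
      have e1 : 1 ≤ r - t * (r - 1) := by nlinarith [ht.1, ht.2]
      have e2 : r - t * (r - 1) ≤ r := by nlinarith [ht.1, ht.2]
      rw [e]
      refine ⟨smul_ne_zero (by linarith) ha0, ?_⟩
      rw [norm_smul, Real.norm_eq_abs, abs_of_pos (by linarith)]
      calc (r - t * (r - 1)) * ‖a‖ ≤ r * ‖a‖ := by gcongr
        _ < ρ := by rw [hra]; linarith)
    have h2 : ‖Y (r • a)‖ ≤ max m 0 := (hm _ (by simpa using hb1)).trans (le_max_left _ _)
    have h3 : ‖a - r • a‖ ≤ ρ := by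
      calc ‖a - r • a‖ ≤ ‖a‖ + ‖r • a‖ := norm_sub_le _ _
        _ ≤ ρ := by rw [hb1]; linarith
    exact h1.trans (mul_le_mul h2 (Real.exp_le_exp.2 (mul_le_mul_of_nonneg_left h3 hK0))
      (Real.exp_nonneg _) (le_max_right _ _))
  obtain ⟨B, hB0, hB⟩ := hB
  -- the second derivative
  set B2 : ℝ := C * (2 * B) with hB2
  have hB20 : 0 ≤ B2 := by positivity
  have hg2 : ∀ a : P2, a ≠ 0 → ‖a‖ ≤ ρ / 2 → ‖fderiv ℝ g a‖ ≤ B2 := by
    intro a h1 h2
    refine (hb a h1 (by linarith)).trans ?_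
    have e0 := hB a h1 h2
    have e1 : |u a| ≤ ‖Y a‖ := by
      rw [← Real.norm_eq_abs]
      exact norm_fst_le (Y a)
    have e2 : ‖g a‖ ≤ ‖Y a‖ := norm_snd_le (Y a)
    rw [hB2]
    gcongr
    linarith
  -- directional derivatives at points of the first axis
  have hdir : ∀ (w : P2), (w = eb 1 ∨ w = eb 0 + eb 1) → ∀ s τ : ℝ, 0 < s → s ≤ ρ / 8 → 0 < τ →
      τ ≤ ρ / 16 → |g (s • eb 0) w| ≤ u (s • eb 0) / τ + 4 * B2 * τ := by
    intro w hw s τ hs hs' hτ hτ'
    have hwn : ‖w‖ ≤ 2 := by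
      rcases hw with h | h
      · rw [h]; simp
      · rw [h]
        refine (norm_add_le _ _).trans ?_
        simp
        norm_num
    have hline : ∀ t ∈ Icc (-τ) τ, s • eb 0 + t • w ≠ 0 ∧ ‖s • eb 0 + t • w‖ ≤ ρ / 2 := by
      intro t ht
      constructor
      · intro h
        rcases hw with hw | hw
        · rw [hw] at h
          have := congrArg (fun v : P2 => v 0) h
          simp at this
          exact hs.ne' this
        · rw [hw] at h
          have h0 := congrArg (fun v : P2 => v 0) h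
          have h1 := congrArg (fun v : P2 => v 1) h
          simp at h0 h1
          rw [h1] at h0
          exact hs.ne' (by linarith)
      · have ht2 : |t| ≤ τ := abs_le.2 ht
        calc ‖s • eb 0 + t • w‖ ≤ ‖s • eb 0‖ + ‖t • w‖ := norm_add_le _ _
          _ = s + |t| * ‖w‖ := by
            rw [norm_smul, norm_smul, Real.norm_eq_abs, Real.norm_eq_abs, abs_of_pos hs]
            simp
          _ ≤ ρ / 8 + ρ / 16 * 2 := by gcongr; exact ht2.trans hτ'
          _ ≤ ρ / 2 := by linarith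
    have hd1 : ∀ t ∈ Icc (-τ) τ, HasDerivAt (fun t : ℝ => s • eb 0 + t • w) w t := by
      intro t ht
      have := ((hasDerivAt_id t).smul_const w).const_add (s • eb 0)
      simpa using this
    have := deriv_le_of_nonneg (f := fun t => u (s • eb 0 + t • w))
      (f' := fun t => g (s • eb 0 + t • w) w) (B := 4 * B2) hτ
      (fun t ht => (hu _ (hline t ht).1 (by linarith [(hline t ht).2])).comp_hasDerivAt t
        (hd1 t ht)) (by
        intro t ht
        have hseg : ∀ x ∈ segment ℝ (s • eb 0) (s • eb 0 + t • w),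
            HasFDerivWithinAt g (fderiv ℝ g x) (segment ℝ (s • eb 0) (s • eb 0 + t • w)) x ∧
            ‖fderiv ℝ g x‖ ≤ B2 := by
          intro x hx
          rw [segment_eq_image'] at hx
          obtain ⟨θ, hθ, rfl⟩ := hx
          have e : s • eb 0 + θ • (s • eb 0 + t • w - s • eb 0) = s • eb 0 + (θ * t) • w := by
            module
          have hm : θ * t ∈ Icc (-τ) τ := by
            have h1 : |θ * t| ≤ τ := by
              rw [abs_mul, abs_of_nonneg hθ.1]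
              calc θ * |t| ≤ 1 * τ := mul_le_mul hθ.2 (abs_le.2 ht) (abs_nonneg _) zero_le_one
                _ = τ := one_mul _
            exact abs_le.1 h1
          simp only [e]
          exact ⟨(hg _ (hline _ hm).1 (by linarith [(hline _ hm).2])).hasFDerivAt.hasFDerivWithinAt,
            hg2 _ (hline _ hm).1 (hline _ hm).2⟩
        have h1 := (convex_segment (𝕜 := ℝ) (s • eb 0) (s • eb 0 + t • w)).norm_image_sub_le_of_norm_hasFDerivWithin_le
          (fun x hx => (hseg x hx).1) (fun x hx => (hseg x hx).2) (left_mem_segment _ _ _)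
          (right_mem_segment _ _ _)
        have h2 : ‖s • eb 0 + t • w - s • eb 0‖ = |t| * ‖w‖ := by
          rw [add_sub_cancel_left, norm_smul, Real.norm_eq_abs]
        rw [h2] at h1
        have h3 := (g (s • eb 0 + t • w) - g (s • eb 0)).le_opNorm w
        rw [zero_smul, add_zero]
        calc |g (s • eb 0 + t • w) w - g (s • eb 0) w|
            = ‖(g (s • eb 0 + t • w) - g (s • eb 0)) w‖ := by
              rw [sub_apply, Real.norm_eq_abs]
          _ ≤ B2 * (|t| * ‖w‖) * ‖w‖ := h3.trans (mul_le_mul_of_nonneg_right h1 (norm_nonneg _))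
          _ = B2 * |t| * (‖w‖ * ‖w‖) := by ring
          _ ≤ B2 * |t| * (2 * 2) := by gcongr
          _ = 4 * B2 * |t| := by ring)
      (fun t ht => (hpos _ (hline t ht).1 (by linarith [(hline t ht).2])).le) (by positivity)
    simpa using this
  -- lower bound
  set a1 : P2 := (ρ / 8) • eb 0 with ha1
  have hn0 : ‖(eb 0 : P2)‖ = 1 := by simp
  have ha1n : ‖a1‖ = ρ / 8 := by rw [ha1, norm_smul, Real.norm_eq_abs, abs_of_pos (by linarith), hn0, mul_one]
  have he0 : (eb 0 : P2) ≠ 0 := by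
    intro h
    rw [h, norm_zero] at hn0
    exact zero_ne_one hn0
  have ha10 : a1 ≠ 0 := smul_ne_zero (by linarith) he0
  have hlow : ∀ s : ℝ, 0 < s → s ≤ ρ / 8 → ‖Y a1‖ ≤ ‖Y (s • eb 0)‖ * Real.exp (K * ρ) := by
    intro s hs hs'
    have h1 := hG (s • eb 0) a1 (by
      intro t ht
      have e : s • eb 0 + t • (a1 - s • eb 0) = (s + t * (ρ / 8 - s)) • (eb 0 : P2) := by
        rw [ha1]; module
      have e1 : 0 < s + t * (ρ / 8 - s) := by nlinarith [ht.1, ht.2]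
      have e2 : s + t * (ρ / 8 - s) ≤ ρ / 8 := by nlinarith [ht.1, ht.2]
      rw [e]
      refine ⟨smul_ne_zero e1.ne' he0, ?_⟩
      rw [norm_smul, Real.norm_eq_abs, abs_of_pos e1, hn0]
      linarith)
    refine h1.trans (mul_le_mul_of_nonneg_left (Real.exp_le_exp.2 ?_) (norm_nonneg _))
    refine mul_le_mul_of_nonneg_left ?_ hK0
    calc ‖a1 - s • eb 0‖ ≤ ‖a1‖ + ‖s • (eb 0 : P2)‖ := norm_sub_le _ _
      _ ≤ ρ := by rw [ha1n, norm_smul, Real.norm_eq_abs, abs_of_pos hs, hn0]; linarith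
  have hY1 : 0 < ‖Y a1‖ := by
    rw [norm_pos_iff]
    intro h
    have := congrArg Prod.fst h
    exact (hpos a1 ha10 (by rw [ha1n]; linarith)).ne' this
  set c0 := ‖Y a1‖ * Real.exp (-(K * ρ)) with hc0
  have hc0p : 0 < c0 := by positivity
  have hlow2 : ∀ s : ℝ, 0 < s → s ≤ ρ / 8 → c0 ≤ ‖Y (s • eb 0)‖ := by
    intro s hs hs'
    have h1 := hlow s hs hs'
    have h2 : ‖Y (s • eb 0)‖ * Real.exp (K * ρ) * Real.exp (-(K * ρ)) = ‖Y (s • eb 0)‖ := by
      rw [mul_assoc, ← Real.exp_add, add_neg_cancel, Real.exp_zero, mul_one]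
    rw [hc0, ← h2]
    exact mul_le_mul_of_nonneg_right h1 (Real.exp_nonneg _)
  -- choose `τ` and `s`
  obtain ⟨τ, hτ, hτ', hτ2⟩ : ∃ τ, 0 < τ ∧ τ ≤ ρ / 16 ∧ 12 * B2 * τ ≤ c0 / 4 := by
    refine ⟨min (ρ / 16) (c0 / (48 * B2 + 1)), by positivity, min_le_left _ _, ?_⟩
    calc 12 * B2 * min (ρ / 16) (c0 / (48 * B2 + 1)) ≤ 12 * B2 * (c0 / (48 * B2 + 1)) := by
          gcongr
          exact min_le_right _ _
      _ ≤ c0 / 4 := by
        rw [mul_div_assoc', div_le_iff₀ (by positivity)]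
        nlinarith
  have hδ : 0 < min (c0 / 4) (c0 * τ / 24) := by positivity
  have hev := (hlim.eventually (gt_mem_nhds hδ))
  have hts : Tendsto (fun s : ℝ => s • (eb 0 : P2)) (𝓝[>] 0) (𝓝[≠] 0) := by
    refine tendsto_nhdsWithin_iff.2 ⟨?_, ?_⟩
    · have : Continuous fun s : ℝ => s • (eb 0 : P2) := by fun_prop
      exact (this.tendsto' 0 0 (by simp)).mono_left nhdsWithin_le_nhds
    · filter_upwards [self_mem_nhdsWithin] with s hs
      exact smul_ne_zero (ne_of_gt hs) he0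
  have hev2 : ∀ᶠ s : ℝ in 𝓝[>] 0, u (s • eb 0) < min (c0 / 4) (c0 * τ / 24) := hts.eventually hev
  have hev3 : ∀ᶠ s : ℝ in 𝓝[>] 0, s ≤ ρ / 8 := by
    have : ∀ᶠ s : ℝ in 𝓝 0, s < ρ / 8 := gt_mem_nhds (by positivity)
    filter_upwards [mem_nhdsWithin_of_mem_nhds this] with s hs using le_of_lt hs
  obtain ⟨s, hs1, hs2, hs3⟩ := (hev2.and (hev3.and self_mem_nhdsWithin)).exists
  have hs0 : 0 < s := hs3
  have d1 := hdir (eb 1) (Or.inl rfl) s τ hs0 hs2 hτ hτ'
  have d2 := hdir (eb 0 + eb 1) (Or.inr rfl) s τ hs0 hs2 hτ hτ'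
  have hgn := norm_clm_le (g (s • eb 0))
  have hu4 : u (s • eb 0) < c0 / 4 := hs1.trans_le (min_le_left _ _)
  have hu5 : u (s • eb 0) / τ < c0 / 24 := by
    rw [div_lt_iff₀ hτ]
    calc u (s • eb 0) < c0 * τ / 24 := hs1.trans_le (min_le_right _ _)
      _ = _ := by ring
  rw [map_add] at d2
  have d3 : |g (s • eb 0) (eb 0)| ≤ |g (s • eb 0) (eb 0) + g (s • eb 0) (eb 1)| +
      |g (s • eb 0) (eb 1)| := by
    have := abs_sub (g (s • eb 0) (eb 0) + g (s • eb 0) (eb 1)) (g (s • eb 0) (eb 1))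
    rwa [add_sub_cancel_right] at this
  have hgs : ‖g (s • eb 0)‖ < c0 := by linarith
  have hYs : ‖Y (s • eb 0)‖ < c0 := by
    rw [Prod.norm_def, max_lt_iff]
    refine ⟨?_, hgs⟩
    have hup : 0 < u (s • eb 0) := hpos _ (smul_ne_zero hs0.ne' he0) (by
      rw [norm_smul, Real.norm_eq_abs, abs_of_pos hs0, hn0]; linarith)
    change ‖u (s • eb 0)‖ < c0
    rw [Real.norm_eq_abs, abs_of_pos hup]
    linarith
  exact absurd (hlow2 s hs0 hs2) (not_le.2 hYs)

end Vale.Agent.P207.N3.H442
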