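import Vale.Agent.P207.N3.H442.Mat
import Vale.Agent.P207.N3.H442.SmoothSpec
import Vale.Agent.P207.N3.H662.Bas
import Vale.Agent.P207.N3.H728.Pairs

/-!
# P207, N3, P12: the curvature over `Leaf`

`Rt L D x η` is the curvature of `D` at the pair `(ep x, η)`, in the chart of the frame `x`.
-/

open Set Filter Topology Metric MeasureTheory
open scoped ContDiff

set_option maxSynthPendingDepth 3
set_option linter.unusedSectionVars false

noncomputable section

namespace Vale.Agent.P207.N3.H442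

open H662 (tau_mem e_tau dm_open)

variable {Γ X B : Type} [Group Γ] [MetricSpace X] [ProperSpace X] [MulAction Γ X]
  [IsIsometricSMul Γ X] [TopologicalSpace B] [CompactSpace B] [T2Space B] [MulAction Γ B]
  [ContinuousConstSMul Γ B] {L : Leaf Γ X B} {D : B → B → ℝ}

/-- `D` in the charts of two frames -/
def TT (L : Leaf Γ X B) (D : B → B → ℝ) (x y : X) (p : P2 × P2) : ℝ := D (L.e x p.1) (L.e y p.2)

theorem OD_open (L : Leaf Γ X B) (x y : X) : IsOpen (OD L x y) := by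
  have h1 : ContinuousOn (fun p : E2 × E2 => (L.e x p.1, L.e y p.2)) (ball 0 3 ×ˢ ball 0 3) := by
    have hx : ContinuousOn (fun p : E2 × E2 => L.e x p.1) (ball 0 3 ×ˢ ball 0 3) :=
      (L.e_cont_x x).comp continuousOn_fst fun p hp => ball_subset_closedBall hp.1
    have hy : ContinuousOn (fun p : E2 × E2 => L.e y p.2) (ball 0 3 ×ˢ ball 0 3) :=
      (L.e_cont_x y).comp continuousOn_snd fun p hp => ball_subset_closedBall hp.2
    exact hx.prodMk hy
  have h2 := h1.isOpen_inter_preimage (isOpen_ball.prod isOpen_ball)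
    (isClosed_diagonal (X := B)).isOpen_compl
  have h3 : OD L x y = (ball 0 3 ×ˢ ball 0 3) ∩
      (fun p : E2 × E2 => (L.e x p.1, L.e y p.2)) ⁻¹' (Set.diagonal B)ᶜ := by
    ext p
    constructor
    · rintro ⟨a, b, c⟩
      exact ⟨⟨a, b⟩, fun h => c h⟩
    · rintro ⟨⟨a, b⟩, c⟩
      exact ⟨a, b, fun h => c h⟩
  rw [h3]
  exact h2

theorem TT_smooth (S : Smooth L D) {x y : X} {p : P2 × P2} (hp : p ∈ OD L x y) :
    ContDiffAt ℝ ∞ (TT L D x y) p :=
  (S.D_smooth x y).contDiffAt ((OD_open L x y).mem_nhds hp)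

theorem TT_smooth_ev (S : Smooth L D) {x y : X} {p : P2 × P2} (hp : p ∈ OD L x y) :
    ∀ᶠ c in 𝓝 p, ContDiffAt ℝ ∞ (TT L D x y) c := by
  filter_upwards [(OD_open L x y).mem_nhds hp] with c hc using TT_smooth S hc

theorem invertible_of_inj {f : P2 →L[ℝ] (P2 →L[ℝ] ℝ)} (h : Function.Injective f) :
    f.IsInvertible := by
  have hfr : Module.finrank ℝ P2 = Module.finrank ℝ (P2 →L[ℝ] ℝ) := by
    rw [← (LinearMap.toContinuousLinearMap (𝕜 := ℝ) (E := P2) (F' := ℝ)).finrank_eq]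
    exact (Subspace.dual_finrank_eq (K := ℝ) (V := P2)).symm
  have h' : Function.Injective (f : P2 →ₗ[ℝ] (P2 →L[ℝ] ℝ)) := h
  refine ⟨(LinearEquiv.ofInjectiveOfFinrankEq (f : P2 →ₗ[ℝ] (P2 →L[ℝ] ℝ)) h'
    hfr).toContinuousLinearEquiv, ?_⟩
  ext v w
  rfl

theorem TT_nd (S : Smooth L D) {x y : X} {p : P2 × P2} (hp : p ∈ OD L x y) :
    ND (TT L D x y) p :=
  invertible_of_inj (S.nondeg x y p hp)

/-! ### transition maps -/

theorem dm_symm {x y : X} {u : E2} (hu : u ∈ L.dm x y) : L.τ x y u ∈ L.dm y x := by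
  refine ⟨tau_mem L hu, ?_⟩
  rw [e_tau L hu]
  exact mem_image_of_mem _ hu.1

theorem tau_tau {x y : X} {u : E2} (hu : u ∈ L.dm x y) : L.τ y x (L.τ x y u) = u := by
  rw [L.tau_eq, e_tau L hu, L.inv_e (ball_subset_closedBall hu.1)]

theorem tau_contDiffAt (S : Smooth L D) {x y : X} {u : E2} (hu : u ∈ L.dm x y) :
    ContDiffAt ℝ ∞ (L.τ x y) u :=
  (S.tau_smooth x y).contDiffAt ((dm_open L x y).mem_nhds hu)

/-- the derivative of a transition map -/
theorem exists_equiv (S : Smooth L D) {x y : X} {u : E2} (hu : u ∈ L.dm x y) :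
    ∃ P : E2 ≃L[ℝ] E2, fderiv ℝ (L.τ x y) u = P ∧
      fderiv ℝ (L.τ y x) (L.τ x y u) = (P.symm : E2 →L[ℝ] E2) := by
  have h1 := (contDiffAt_ev (tau_contDiffAt S hu)).self_of_nhds.hasFDerivAt
  have h2 := (contDiffAt_ev (tau_contDiffAt S (dm_symm hu))).self_of_nhds.hasFDerivAt
  have h2' : HasFDerivAt (L.τ y x) (fderiv ℝ (L.τ y x) (L.τ x y u)) (L.τ x y u) := h2
  have e1 : fderiv ℝ (L.τ y x) (L.τ x y u) ∘L fderiv ℝ (L.τ x y) u = .id ℝ E2 := by
    have h3 := h2'.comp u h1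
    have h4 : (L.τ y x ∘ L.τ x y) =ᶠ[𝓝 u] id := by
      filter_upwards [(dm_open L x y).mem_nhds hu] with v hv using tau_tau hv
    exact (h3.congr_of_eventuallyEq h4.symm).unique (hasFDerivAt_id u)
  have e2 : fderiv ℝ (L.τ x y) u ∘L fderiv ℝ (L.τ y x) (L.τ x y u) = .id ℝ E2 := by
    have h1' : HasFDerivAt (L.τ x y) (fderiv ℝ (L.τ x y) u) (L.τ y x (L.τ x y u)) := by
      rw [tau_tau hu]; exact h1
    have h3 := h1'.comp (L.τ x y u) h2'
    have h4 : (L.τ x y ∘ L.τ y x) =ᶠ[𝓝 (L.τ x y u)] id := by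
      filter_upwards [(dm_open L y x).mem_nhds (dm_symm hu)] with v hv using tau_tau hv
    exact (h3.congr_of_eventuallyEq h4.symm).unique (hasFDerivAt_id _)
  refine ⟨ContinuousLinearEquiv.equivOfInverse _ _ (fun v => ?_) (fun v => ?_), rfl, rfl⟩
  · exact congrArg (fun A : E2 →L[ℝ] E2 => A v) e1
  · exact congrArg (fun A : E2 →L[ℝ] E2 => A v) e2

theorem tau_inv_fderiv (S : Smooth L D) {x y : X} {u : E2} (hu : u ∈ L.dm x y) :
    (fderiv ℝ (L.τ x y) u).IsInvertible := by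
  obtain ⟨P, hP, -⟩ := exists_equiv S hu
  exact ⟨P, hP.symm⟩

theorem mem_dm {x y : X} {u v : E2} (hu : u ∈ ball (0 : E2) 3) (hv : v ∈ ball (0 : E2) 3)
    (h : L.e x u = L.e y v) : u ∈ L.dm x y := ⟨hu, v, hv, h.symm⟩

theorem tau_of_eq {x y : X} {u v : E2} (hv : v ∈ ball (0 : E2) 3)
    (h : L.e x u = L.e y v) : L.τ x y u = v := by
  rw [L.tau_eq, h, L.inv_e (ball_subset_closedBall hv)]

/-- **The curvature is a tensor**: change of both charts. -/
theorem CM_TT (S : Smooth L D) {x x' y y' : X} {a a' b b' : E2} (ha : a ∈ ball (0 : E2) 3)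
    (ha' : a' ∈ ball (0 : E2) 3) (hb : b ∈ ball (0 : E2) 3) (hb' : b' ∈ ball (0 : E2) 3)
    (hx : L.e x' a' = L.e x a) (hy : L.e y' b' = L.e y b) (hne : L.e x a ≠ L.e y b) :
    CM (TT L D x' y') (a', b') = act (mt (fderiv ℝ (L.τ x' x) a')) (CM (TT L D x y) (a, b)) := by
  have h1 : a' ∈ L.dm x' x := mem_dm ha' ha hx
  have h2 : b' ∈ L.dm y' y := mem_dm hb' hb hy
  have e1 : L.τ x' x a' = a := tau_of_eq ha hx
  have e2 : L.τ y' y b' = b := tau_of_eq hb hy
  obtain ⟨P, hP, -⟩ := exists_equiv S h1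
  have hp : (a, b) ∈ OD L x y := ⟨ha, hb, hne⟩
  rw [hP]
  have t1 : ∀ᶠ c : P2 × P2 in 𝓝 (a', b'), c.1 ∈ L.dm x' x :=
    continuous_fst.continuousAt ((dm_open L x' x).mem_nhds h1)
  have t2 : ∀ᶠ c : P2 × P2 in 𝓝 (a', b'), c.2 ∈ L.dm y' y :=
    continuous_snd.continuousAt ((dm_open L y' y).mem_nhds h2)
  have t3 : ∀ᶠ c : P2 × P2 in 𝓝 (a', b'), TT L D x' y' c =
      TT L D x y (L.τ x' x c.1, L.τ y' y c.2) + (fun _ : P2 => (0 : ℝ)) c.1 +
        (fun _ : P2 => (0 : ℝ)) c.2 := by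
    filter_upwards [t1, t2] with c hc1 hc2
    have e3 : TT L D x y (L.τ x' x c.1, L.τ y' y c.2) = TT L D x' y' c := by
      change D (L.e x (L.τ x' x c.1)) (L.e y (L.τ y' y c.2)) = D (L.e x' c.1) (L.e y' c.2)
      rw [e_tau L hc1, e_tau L hc2]
    rw [e3, add_zero, add_zero]
  have t4 : ((a, b) : P2 × P2) = (L.τ x' x a', L.τ y' y b') := by rw [e1, e2]
  exact CM_change (p' := (a', b')) (p := (a, b)) (α := L.τ x' x) (β := L.τ y' y)
    (f := fun _ : P2 => (0 : ℝ)) (k := fun _ : P2 => (0 : ℝ)) (tau_contDiffAt S h1) P hP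
    (tau_contDiffAt S h2) (tau_inv_fderiv S h2) contDiffAt_const t4 (TT_smooth S hp) (TT_nd S hp) t3

theorem tau_self {x : X} {u : E2} (hu : u ∈ ball (0 : E2) 3) : L.τ x x u = u :=
  tau_of_eq hu rfl

theorem fderiv_tau_self {x : X} {u : E2} (hu : u ∈ ball (0 : E2) 3) :
    fderiv ℝ (L.τ x x) u = .id ℝ E2 := by
  have h : L.τ x x =ᶠ[𝓝 u] id := by
    filter_upwards [isOpen_ball.mem_nhds hu] with v hv using tau_self hv
  rw [h.fderiv_eq, fderiv_id]

/-- change of the second chart -/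
theorem CM_TT_right (S : Smooth L D) {x y y' : X} {a b b' : E2} (ha : a ∈ ball (0 : E2) 3)
    (hb : b ∈ ball (0 : E2) 3) (hb' : b' ∈ ball (0 : E2) 3) (hy : L.e y' b' = L.e y b)
    (hne : L.e x a ≠ L.e y b) : CM (TT L D x y') (a, b') = CM (TT L D x y) (a, b) := by
  rw [CM_TT S ha ha hb hb' rfl hy hne, fderiv_tau_self ha, mt_id, act_one]

/-! ### the curvature -/

/-- a frame over a boundary point -/
def fr (L : Leaf Γ X B) (η : B) : X := (H728.exists_ep L η).choose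

theorem ep_fr (η : B) : L.ep (fr L η) = η := (H728.exists_ep L η).choose_spec

theorem zero_mem : (0 : E2) ∈ ball (0 : E2) 3 := by simp

/-- **The curvature at the pair `(ep x, η)`, in the chart of `x`.** -/
def Rt (L : Leaf Γ X B) (D : B → B → ℝ) (x : X) (η : B) : TM := CM (TT L D x (fr L η)) (0, 0)

theorem Rt_eq (S : Smooth L D) {x y : X} {η : B} {b : E2} (hb : b ∈ ball (0 : E2) 3)
    (hy : L.e y b = η) (hne : η ≠ L.ep x) : Rt L D x η = CM (TT L D x y) (0, b) := by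
  refine CM_TT_right S zero_mem hb zero_mem ?_ ?_
  · rw [L.e_zero, ep_fr, hy]
  · rw [L.e_zero, hy]
    exact hne.symm

/-- change of the frame -/
theorem Rt_frame (S : Smooth L D) {x x' : X} (hx : L.ep x' = L.ep x) {η : B}
    (hne : η ≠ L.ep x) :
    Rt L D x' η = act (mt (fderiv ℝ (L.τ x' x) 0)) (Rt L D x η) := by
  refine CM_TT S zero_mem zero_mem zero_mem zero_mem ?_ rfl ?_
  · rw [L.e_zero, L.e_zero, hx]
  · rw [L.e_zero, L.e_zero, ep_fr]
    exact hne.symm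

/-- the curvature in a chart around `ep x'` -/
theorem Rt_chart (S : Smooth L D) {x x' y : X} {a b : E2} (ha : a ∈ ball (0 : E2) 3)
    (hb : b ∈ ball (0 : E2) 3) (hx : L.ep x' = L.e x a) {η : B} (hy : L.e y b = η)
    (hne : η ≠ L.ep x') :
    Rt L D x' η = act (mt (fderiv ℝ (L.τ x' x) 0)) (CM (TT L D x y) (a, b)) := by
  refine CM_TT S ha zero_mem hb zero_mem ?_ ?_ ?_
  · rw [L.e_zero, hx]
  · rw [L.e_zero, ep_fr, hy]
  · rw [← hx, hy]
    exact hne.symm

end Vale.Agent.P207.N3.H442
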